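import Vale.Agent.P111.R2.H571.Trig2

/-! The derivative of a bounded trigonometric polynomial whose block averages are small. -/

set_option linter.unusedSectionVars false

namespace Vale.Agent.P111.H571

open Finset Complex

/-- The Landau-Kolmogorov inequality, in the form used. -/
def LKStatement : Prop :=
  ∀ (k : ℕ), 2 ≤ k → ∀ (Q M : ℝ), 0 < Q → 0 ≤ M → ∀ (u : ℕ → ℝ → ℂ),
    (∀ j x, HasDerivAt (u j) (u (j + 1) x) x) → (∀ x, ‖u 0 x‖ ≤ M) →
    (∀ x, ‖u k x‖ ≤ Q ^ k) → ‖u 1 0‖ ≤ Real.exp 1 * Q * (M + 1)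

/-- The low pass kernel, in the form used. -/
def KerStatement : Prop :=
  ∀ (L M : ℕ), 1 ≤ L → ∃ (N : ℕ) (s w : Fin N → ℝ) (a : ℤ → ℝ), (∀ r, 0 ≤ w r) ∧
    ∑ r, w r = 1 ∧
    (∀ m : ℤ, |m| ≤ M → ∑ r, (w r : ℂ) * Complex.exp (-(Complex.I * m * s r)) = a m) ∧
    (∀ m : ℤ, (L : ℤ) ≤ |m| → a m = 0) ∧
    ∑ r, w r * ‖Complex.exp (Complex.I * s r) - 1‖ ≤ Real.pi / (L + 1)

theorem pow_one_sub_ge {ε : ℝ} (h1 : ε ≤ 1) (n : ℕ) (hn : n * ε ≤ 1 / 2) :
    1 / 2 ≤ (1 - ε) ^ n := by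
  have h := one_add_mul_le_pow (a := -ε) (by linarith) n
  have e : (1 + -ε) = 1 - ε := by ring
  rw [e] at h
  linarith

/-- The main analytic estimate. -/
theorem analytic (hlk : LKStatement) (hker : KerStatement) {L M n k : ℕ} (hL : 1 ≤ L)
    (hLM : L ≤ M) (hk : 2 ≤ k) (hn : 1 ≤ n) {p : ℝ} (hp : 0 < p)
    (hε : n * (p ^ 2 * (L : ℝ) ^ 2) ≤ 1 / 2) (c : ℤ → ℂ) {Lip R : ℝ} (hLip0 : 0 ≤ Lip)
    (hR : 0 < R) (h0 : ∀ x, ‖tp M c x‖ ≤ 1)
    (hLip : ∀ x s : ℝ, ‖tp M (dc c) x - tp M (dc c) (x - s)‖ ≤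
      Lip * ‖Complex.exp (Complex.I * s) - 1‖)
    (hB : ∀ x, ‖tp M (fun m => sy n p m ^ k * c m) x‖ ≤ R ^ k) :
    ‖tp M (dc c) 0‖ ≤ 2 * Real.exp 1 * (2 * R / (n * p)) + Lip * (Real.pi / (L + 1)) := by
  obtain ⟨N, s, w, a, hw0, hw1, ha1, ha2, hchord⟩ := hker L M hL
  -- the smoothing
  have hG : ∀ (c' : ℤ → ℂ) (x : ℝ), ∑ r, (w r : ℂ) * tp M c' (x - s r) =
      tp L (fun m => (a m : ℂ) * c' m) x := by
    intro c' x
    have h1 : ∑ r, (w r : ℂ) * tp M c' (x - s r) =
        ∑ m ∈ Finset.Icc (-(M : ℤ)) M, ((a m : ℂ) * c' m) * Complex.exp (I * m * x) := by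
      unfold tp
      simp only [Finset.mul_sum]
      rw [Finset.sum_comm]
      refine Finset.sum_congr rfl fun m hm => ?_
      rw [Finset.mem_Icc] at hm
      have hm' : |m| ≤ (M : ℤ) := abs_le.2 hm
      rw [← ha1 m hm', Finset.sum_mul, Finset.sum_mul]
      refine Finset.sum_congr rfl fun r _ => ?_
      have e : Complex.exp (I * m * ((x - s r : ℝ) : ℂ)) =
          Complex.exp (-(I * m * s r)) * Complex.exp (I * m * x) := by
        rw [← Complex.exp_add]
        congr 1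
        push_cast
        ring
      rw [e]
      ring
    rw [h1]
    unfold tp
    symm
    apply Finset.sum_subset
    · apply Finset.Icc_subset_Icc <;> omega
    · intro m _ hm
      rw [Finset.mem_Icc, not_and_or] at hm
      have : (L : ℤ) ≤ |m| := by
        rw [le_abs]
        omega
      beta_reduce
      rw [ha2 m this]
      simp
  have hGn : ∀ (c' : ℤ → ℂ) (K : ℝ), (∀ x, ‖tp M c' x‖ ≤ K) → ∀ x,
      ‖tp L (fun m => (a m : ℂ) * c' m) x‖ ≤ K := by
    intro c' K hK x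
    rw [← hG]
    refine (norm_sum_le _ _).trans ?_
    calc ∑ r, ‖(w r : ℂ) * tp M c' (x - s r)‖ ≤ ∑ r, w r * K := by
          refine Finset.sum_le_sum fun r _ => ?_
          rw [norm_mul, Complex.norm_real, Real.norm_of_nonneg (hw0 r)]
          exact mul_le_mul_of_nonneg_left (hK _) (hw0 r)
      _ = K := by rw [← Finset.sum_mul, hw1, one_mul]
  -- numbers
  have hL0 : (0 : ℝ) < L := by exact_mod_cast hL
  have hn0 : (0 : ℝ) < n := by exact_mod_cast hn
  have hn1 : (1 : ℝ) ≤ n := by exact_mod_cast hn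
  set ε : ℝ := p ^ 2 * (L : ℝ) ^ 2 with hεd
  have hε0 : 0 ≤ ε := by positivity
  have hε1 : ε ≤ 1 / 2 := by nlinarith
  have hε2 : ε < 1 := by linarith
  have h1ε : 0 < 1 - ε := by linarith
  have hhalf := pow_one_sub_ge (by linarith) n hε
  -- the block averages of the smoothed function
  have hB1 := hGn _ _ hB
  have hB2 : ∀ x, ‖tp L (fun m => (Real.cos (m * p) : ℂ) ^ ((n - 1) * k) *
      ((I * Real.sin (m * p) : ℂ) ^ k * ((a m : ℂ) * c m))) x‖ ≤ R ^ k / (n : ℝ) ^ k := by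
    intro x
    have e : tp L (fun m => (a m : ℂ) * (sy n p m ^ k * c m)) x =
        (n : ℂ) ^ k * tp L (fun m => (Real.cos (m * p) : ℂ) ^ ((n - 1) * k) *
      ((I * Real.sin (m * p) : ℂ) ^ k * ((a m : ℂ) * c m))) x := by
      unfold tp
      rw [Finset.mul_sum]
      refine Finset.sum_congr rfl fun m _ => ?_
      unfold sy
      beta_reduce
      rw [mul_pow, mul_pow, pow_mul]
      ring
    have h := hB1 x
    rw [e, norm_mul, norm_pow, Complex.norm_natCast] at h
    rw [le_div_iff₀ (by positivity)]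
    linarith
  have hB3 := cos_inv_pow hL hp.le hε2 ((n - 1) * k) _ hB2
  have hB4 := sin_inv_pow hL hp hε2 k _ hB3
  have hB5 : ∀ x, ‖tp L (fun m => (I * m) ^ k * ((a m : ℂ) * c m)) x‖ ≤
      (2 * R / (n * p)) ^ k := by
    intro x
    refine (hB4 x).trans ?_
    have e : R ^ k / (n : ℝ) ^ k / (1 - ε) ^ ((n - 1) * k) / (p * (1 - ε)) ^ k =
        (R / (n * p * (1 - ε) ^ n)) ^ k := by
      have e1 : (1 - ε) ^ n = (1 - ε) ^ (n - 1) * (1 - ε) := by
        rw [← pow_succ]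
        congr 1
        omega
      rw [e1, pow_mul, ← div_pow, ← div_pow, ← div_pow]
      congr 1
      field_simp
    rw [e]
    apply pow_le_pow_left₀ (by positivity)
    rw [div_le_div_iff₀ (by positivity) (by positivity)]
    have : 0 < R * (n * p) := by positivity
    nlinarith
  -- Landau-Kolmogorov
  have hlk1 := hlk k hk (2 * R / (n * p)) 1 (by positivity) zero_le_one
    (fun j => tp L (fun m => (I * m) ^ j * ((a m : ℂ) * c m)))
    (by
      intro j x
      have := hasDerivAt_tp L (fun m => (I * m) ^ j * ((a m : ℂ) * c m)) x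
      refine this.congr_deriv ?_
      congr 1
      funext m
      unfold dc
      ring)
    (by
      intro x
      have := hGn c 1 h0 x
      simpa using this) hB5
  simp only [pow_one] at hlk1
  -- comparison
  have hdiff : ‖tp M (dc c) 0 - tp L (fun m => (a m : ℂ) * dc c m) 0‖ ≤
      Lip * (Real.pi / (L + 1)) := by
    rw [← hG]
    have e : tp M (dc c) 0 - ∑ r, (w r : ℂ) * tp M (dc c) (0 - s r) =
        ∑ r, (w r : ℂ) * (tp M (dc c) 0 - tp M (dc c) (0 - s r)) := by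
      simp only [mul_sub]
      rw [Finset.sum_sub_distrib, ← Finset.sum_mul]
      have : (∑ r, (w r : ℂ)) = 1 := by
        have := congrArg (fun t : ℝ => (t : ℂ)) hw1
        push_cast at this
        exact this
      rw [this, one_mul]
    rw [e]
    refine (norm_sum_le _ _).trans ?_
    calc ∑ r, ‖(w r : ℂ) * (tp M (dc c) 0 - tp M (dc c) (0 - s r))‖
        ≤ ∑ r, Lip * (w r * ‖Complex.exp (Complex.I * s r) - 1‖) := by
          refine Finset.sum_le_sum fun r _ => ?_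
          rw [norm_mul, Complex.norm_real, Real.norm_of_nonneg (hw0 r)]
          have := mul_le_mul_of_nonneg_left (hLip 0 (s r)) (hw0 r)
          refine this.trans (le_of_eq ?_)
          ring
      _ ≤ Lip * (Real.pi / (L + 1)) := by
          rw [← Finset.mul_sum]
          gcongr
  have e6 : tp L (fun m => (a m : ℂ) * dc c m) 0 = tp L (fun m => I * m * ((a m : ℂ) * c m)) 0 := by
    congr 1
    funext m
    unfold dc
    ring
  rw [e6] at hdiff
  have h7 : ‖tp M (dc c) 0‖ ≤ ‖tp L (fun m => I * m * ((a m : ℂ) * c m)) 0‖ +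
      ‖tp M (dc c) 0 - tp L (fun m => I * m * ((a m : ℂ) * c m)) 0‖ := by
    have := norm_add_le (tp L (fun m => I * m * ((a m : ℂ) * c m)) 0)
      (tp M (dc c) 0 - tp L (fun m => I * m * ((a m : ℂ) * c m)) 0)
    simpa using this
  have h8 : Real.exp 1 * (2 * R / (n * p)) * (1 + 1) = 2 * Real.exp 1 * (2 * R / (n * p)) := by
    ring
  rw [h8] at hlk1
  linarith

end Vale.Agent.P111.H571
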