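import Vale.Agent.P111.QL.Defs

/-! The bounded approximation property with a constant, used in the statement of `LogBound`. -/

namespace Vale.Agent.P111.H571

/-- The bounded approximation property with constant `lam`. -/
def BAPWith (lam : ℝ) (X : Type*) [NormedAddCommGroup X] [NormedSpace ℝ X] : Prop :=
  ∀ M : Set X, IsCompact M → ∀ δ : ℝ, 0 < δ →
    ∃ S : X →L[ℝ] X, FiniteDimensional ℝ (LinearMap.range (S : X →ₗ[ℝ] X)) ∧ ‖S‖ ≤ lam ∧
      ∀ x ∈ M, ‖S x - x‖ < δ

end Vale.Agent.P111.H571
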