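import Vale.Agent.P111.R2.H571.Final
import Vale.Agent.P111.R2.H571.Defs

/-! From finite rank operators to spaces with the bounded approximation property. -/

namespace Vale.Agent.P111.H571

open Finset

theorem BAPWith.nonneg {lam : ℝ} {X : Type*} [NormedAddCommGroup X] [NormedSpace ℝ X]
    (h : BAPWith lam X) : 0 ≤ lam := by
  obtain ⟨S, _, hS, _⟩ := h ∅ isCompact_empty 1 one_pos
  exact (norm_nonneg S).trans hS

theorem bapWith_of_finiteDimensional (X : Type*) [NormedAddCommGroup X] [NormedSpace ℝ X]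
    [FiniteDimensional ℝ X] : BAPWith 1 X := by
  intro M _ δ hδ
  refine ⟨ContinuousLinearMap.id ℝ X, inferInstance, ContinuousLinearMap.norm_id_le, ?_⟩
  intro x _
  simpa using hδ

theorem kconvexWith_of_bapWith {X : Type*} [NormedAddCommGroup X] [NormedSpace ℝ X] {lam κ : ℝ}
    (hκ : 0 ≤ κ) (hX : BAPWith lam X)
    (h : ∀ V : X →L[ℝ] X, FiniteDimensional ℝ (LinearMap.range (V : X →ₗ[ℝ] X)) →
      ‖V‖ ≤ 1 → ∀ (n : ℕ) (f : (Fin n → ℤˣ) → X),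
        (avg fun ε => ‖V (rad f ε)‖ ^ 2) ≤ κ ^ 2 * avg fun ε => ‖f ε‖ ^ 2) :
    KConvexWith (lam * κ) X := by
  have hlam0 := hX.nonneg
  intro n f
  rw [← Real.sqrt_eq_rpow, ← Real.sqrt_eq_rpow]
  set G : ℝ := √(avg fun ε => ‖f ε‖ ^ 2) with hG
  have hG0 : 0 ≤ G := Real.sqrt_nonneg _
  have hF : 0 ≤ avg fun ε => ‖f ε‖ ^ 2 := H1.avg_nonneg fun _ => by positivity
  have hG2 : G ^ 2 = avg fun ε => ‖f ε‖ ^ 2 := Real.sq_sqrt hF
  have main : ∀ δ : ℝ, 0 < δ → √(avg fun ε => ‖rad f ε‖ ^ 2) ≤ (lam + δ) * κ * G + δ := by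
    intro δ hδ
    obtain ⟨S, hS1, hS2, hS3⟩ := hX (Set.range (rad f)) (Set.finite_range _).isCompact δ hδ
    have hl0 : 0 < lam + δ := by linarith
    let V : X →L[ℝ] X := (lam + δ)⁻¹ • S
    have hV1 : FiniteDimensional ℝ (LinearMap.range (V : X →ₗ[ℝ] X)) := by
      have : LinearMap.range (V : X →ₗ[ℝ] X) ≤ LinearMap.range (S : X →ₗ[ℝ] X) := by
        rintro _ ⟨x, rfl⟩
        exact ⟨(lam + δ)⁻¹ • x, by simp [V]⟩
      exact Submodule.finiteDimensional_of_le this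
    have hV2 : ‖V‖ ≤ 1 := by
      rw [norm_smul, norm_inv, Real.norm_of_nonneg hl0.le, inv_mul_le_iff₀ hl0, mul_one]
      linarith
    have h1 := h V hV1 hV2 n f
    have h2 : ∀ ε, ‖V (rad f ε)‖ ^ 2 = (lam + δ)⁻¹ ^ 2 * ‖S (rad f ε)‖ ^ 2 := by
      intro ε
      simp only [V, FunLike.coe_smul, Pi.smul_apply]
      rw [norm_smul, mul_pow, norm_inv, Real.norm_of_nonneg hl0.le]
    simp_rw [h2] at h1
    rw [H1.avg_mul] at h1
    set a2 : ℝ := avg fun ε => ‖S (rad f ε)‖ ^ 2 with ha2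
    have ha20 : 0 ≤ a2 := H1.avg_nonneg fun _ => by positivity
    have h3 : a2 ≤ ((lam + δ) * κ * G) ^ 2 := by
      have : a2 = (lam + δ) ^ 2 * ((lam + δ)⁻¹ ^ 2 * a2) := by
        field_simp
      rw [this]
      calc (lam + δ) ^ 2 * ((lam + δ)⁻¹ ^ 2 * a2)
          ≤ (lam + δ) ^ 2 * (κ ^ 2 * avg fun ε => ‖f ε‖ ^ 2) := by gcongr
        _ = _ := by rw [← hG2]; ring
    have h4 : √a2 ≤ (lam + δ) * κ * G := Real.sqrt_le_iff.2 ⟨by positivity, h3⟩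
    have h5 : (avg fun ε => ‖S (rad f ε)‖) ≤ √a2 :=
      Real.le_sqrt_of_sq_le (H1.sq_avg_le _)
    have h6 : (avg fun ε => ‖rad f ε‖ ^ 2) ≤ (√a2 + δ) ^ 2 := by
      have h7 : ∀ ε, ‖rad f ε‖ ^ 2 ≤ ‖S (rad f ε)‖ ^ 2 + (2 * δ * ‖S (rad f ε)‖ + δ ^ 2) := by
        intro ε
        have h5 : ‖rad f ε‖ ≤ ‖S (rad f ε)‖ + δ := by
          have h6 := hS3 (rad f ε) ⟨ε, rfl⟩
          have h7 : ‖rad f ε‖ ≤ ‖S (rad f ε)‖ + ‖S (rad f ε) - rad f ε‖ := by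
            have := norm_sub_le (S (rad f ε)) (S (rad f ε) - rad f ε)
            simpa using this
          linarith
        calc ‖rad f ε‖ ^ 2 ≤ (‖S (rad f ε)‖ + δ) ^ 2 := by gcongr
          _ = _ := by ring
      refine (H1.avg_mono h7).trans ?_
      rw [H1.avg_add, H1.avg_add, H1.avg_mul, H1.avg_const, ← ha2]
      have h8 : (√a2) ^ 2 = a2 := Real.sq_sqrt ha20
      have h9 : 2 * δ * (avg fun ε => ‖S (rad f ε)‖) ≤ 2 * δ * √a2 := by gcongr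
      nlinarith
    calc √(avg fun ε => ‖rad f ε‖ ^ 2) ≤ √a2 + δ :=
          Real.sqrt_le_iff.2 ⟨by positivity, h6⟩
      _ ≤ _ := by linarith
  refine le_of_forall_pos_le_add fun t ht => ?_
  have hk : 0 < κ * G + 1 := by positivity
  have := main (t / (κ * G + 1)) (by positivity)
  refine this.trans (le_of_eq ?_)
  field_simp
  ring

/-- The logarithmic bound for finite rank operators, in terms of the Rademacher projection. -/
theorem log_bound_op {q r : ℝ} (hq : 2 ≤ q) (hr : 2 ≤ r) (hqr : 1 / 2 < 1 / q + 1 / r) :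
    ∃ A : ℝ, 1 ≤ A ∧ ∀ (X Y : Type*) [NormedAddCommGroup X] [NormedSpace ℝ X]
      [NormedAddCommGroup Y] [NormedSpace ℝ Y] (c d : ℝ), 1 ≤ c → 1 ≤ d →
      CotypeWith q c Y → CotypeWith r d (X →L[ℝ] ℝ) →
      ∀ V : X →L[ℝ] Y, FiniteDimensional ℝ (LinearMap.range (V : X →ₗ[ℝ] Y)) →
        ∀ (n : ℕ) (f : (Fin n → ℤˣ) → X),
        (avg fun ε => ‖V (rad f ε)‖ ^ 2) ^ (1 / 2 : ℝ) ≤
          A * (1 + Real.log (c * d)) ^ (1 / (2 / q + 2 / r - 1)) * ‖V‖ *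
            (avg fun ε => ‖f ε‖ ^ 2) ^ (1 / 2 : ℝ) := by
  obtain ⟨A, hA, h⟩ := log_bound hq hr hqr
  refine ⟨A, hA, ?_⟩
  intro X Y _ _ _ _ c d hc hd hY hX V hVf n f
  have hcd : 1 ≤ c * d := one_le_mul_of_one_le_of_one_le hc hd
  have hlcd : 0 ≤ Real.log (c * d) := Real.log_nonneg hcd
  set κ : ℝ := A * (1 + Real.log (c * d)) ^ (1 / (2 / q + 2 / r - 1)) with hκ
  have hκ0 : 0 ≤ κ := by positivity
  have hF : 0 ≤ avg fun ε => ‖f ε‖ ^ 2 := H1.avg_nonneg fun _ => by positivity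
  rw [← Real.sqrt_eq_rpow, ← Real.sqrt_eq_rpow]
  rcases eq_or_lt_of_le (norm_nonneg V) with h0 | h0
  · have hV0 : V = 0 := norm_eq_zero.1 h0.symm
    have : (avg fun ε => ‖V (rad f ε)‖ ^ 2) = 0 := by
      rw [hV0]
      simp [avg]
    rw [this, Real.sqrt_zero]
    positivity
  · let V' : X →L[ℝ] Y := ‖V‖⁻¹ • V
    have hV1 : FiniteDimensional ℝ (LinearMap.range (V' : X →ₗ[ℝ] Y)) := by
      have : LinearMap.range (V' : X →ₗ[ℝ] Y) ≤ LinearMap.range (V : X →ₗ[ℝ] Y) := by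
        rintro _ ⟨x, rfl⟩
        exact ⟨‖V‖⁻¹ • x, by simp [V']⟩
      exact Submodule.finiteDimensional_of_le this
    have hV2 : ‖V'‖ ≤ 1 := by
      rw [norm_smul, norm_inv, norm_norm, inv_mul_cancel₀ h0.ne']
    have h1 := norm_rad_le hκ0 (h X Y c d hc hd hY hX V' hV1 hV2) hV2 f
    have h2 : ∀ ε, ‖V' (rad f ε)‖ ^ 2 = ‖V‖⁻¹ ^ 2 * ‖V (rad f ε)‖ ^ 2 := by
      intro ε
      simp only [V', FunLike.coe_smul, Pi.smul_apply]
      rw [norm_smul, mul_pow, norm_inv, norm_norm]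
    simp_rw [h2] at h1
    rw [H1.avg_mul] at h1
    refine Real.sqrt_le_iff.2 ⟨by positivity, ?_⟩
    have h3 : (avg fun ε => ‖V (rad f ε)‖ ^ 2) =
        ‖V‖ ^ 2 * (‖V‖⁻¹ ^ 2 * avg fun ε => ‖V (rad f ε)‖ ^ 2) := by
      field_simp
    rw [h3]
    calc ‖V‖ ^ 2 * (‖V‖⁻¹ ^ 2 * avg fun ε => ‖V (rad f ε)‖ ^ 2)
        ≤ ‖V‖ ^ 2 * (κ ^ 2 * avg fun ε => ‖f ε‖ ^ 2) := by gcongr
      _ = _ := by
          rw [mul_pow (κ * ‖V‖), mul_pow κ, Real.sq_sqrt hF]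
          ring

/-- The logarithmic bound for spaces with the bounded approximation property. -/
theorem log_bound_bap {q r : ℝ} (hq : 2 ≤ q) (hr : 2 ≤ r) (hqr : 1 / 2 < 1 / q + 1 / r) :
    ∃ A : ℝ, 1 ≤ A ∧ ∀ (X : Type*) [NormedAddCommGroup X] [NormedSpace ℝ X]
      (lam c d : ℝ), 1 ≤ c → 1 ≤ d → BAPWith lam X →
      CotypeWith q c X → CotypeWith r d (X →L[ℝ] ℝ) →
      KConvexWith (lam * (A * (1 + Real.log (c * d)) ^ (1 / (2 / q + 2 / r - 1)))) X := by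
  obtain ⟨A, hA, h⟩ := log_bound hq hr hqr
  refine ⟨A, hA, ?_⟩
  intro X _ _ lam c d hc hd hX hY hX'
  have hcd : 1 ≤ c * d := one_le_mul_of_one_le_of_one_le hc hd
  have hlcd : 0 ≤ Real.log (c * d) := Real.log_nonneg hcd
  have hκ0 : 0 ≤ A * (1 + Real.log (c * d)) ^ (1 / (2 / q + 2 / r - 1)) := by positivity
  refine kconvexWith_of_bapWith hκ0 hX ?_
  intro V hVf hV1 n f
  exact norm_rad_le hκ0 (h X X c d hc hd hY hX' V hVf hV1) hV1 f

end Vale.Agent.P111.H571
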