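import Vale.Agent.P111.R2.H571.Final2

/-! From finite rank operators to spaces with the bounded approximation property, linear bound. -/

namespace Vale.Agent.P111.H571

open Finset

/-- The bound for finite rank operators, in terms of the Rademacher projection. -/
theorem log_bound_op2 (hlk : LKStatement) (hker : KerStatement) {q r : ℝ} (hq : 2 ≤ q)
    (hr : 2 ≤ r) (hqr : 1 / 2 < 1 / q + 1 / r) :
    ∀ (X Y : Type*) [NormedAddCommGroup X] [NormedSpace ℝ X]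
      [NormedAddCommGroup Y] [NormedSpace ℝ Y] (c d : ℝ), 1 ≤ c → 1 ≤ d →
      CotypeWith q c Y → CotypeWith r d (X →L[ℝ] ℝ) →
      ∀ V : X →L[ℝ] Y, FiniteDimensional ℝ (LinearMap.range (V : X →ₗ[ℝ] Y)) →
        ∀ (n : ℕ) (f : (Fin n → ℤˣ) → X),
        (avg fun ε => ‖V (rad f ε)‖ ^ 2) ^ (1 / 2 : ℝ) ≤
          Real.exp (12 / (1 / q + 1 / r - 1 / 2)) * (1 + Real.log (c * d)) * ‖V‖ *
            (avg fun ε => ‖f ε‖ ^ 2) ^ (1 / 2 : ℝ) := by
  have h := log_bound2 hlk hker hq hr hqr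
  intro X Y _ _ _ _ c d hc hd hY hX V hVf n f
  have hcd : 1 ≤ c * d := one_le_mul_of_one_le_of_one_le hc hd
  have hlcd : 0 ≤ Real.log (c * d) := Real.log_nonneg hcd
  set κ : ℝ := Real.exp (12 / (1 / q + 1 / r - 1 / 2)) * (1 + Real.log (c * d)) with hκ
  have hκ0 : 0 ≤ κ := by positivity
  have hF : 0 ≤ avg fun ε => ‖f ε‖ ^ 2 := H1.avg_nonneg fun _ => by positivity
  rw [← Real.sqrt_eq_rpow, ← Real.sqrt_eq_rpow]
  rcases eq_or_lt_of_le (norm_nonneg V) with h0 | h0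
  · have hV0 : V = 0 := norm_eq_zero.1 h0.symm
    have : (avg fun ε => ‖V (rad f ε)‖ ^ 2) = 0 := by
      rw [hV0]
      simp [avg]
    rw [this, Real.sqrt_zero]
    positivity
  · let V' : X →L[ℝ] Y := ‖V‖⁻¹ • V
    have hV1 : FiniteDimensional ℝ (LinearMap.range (V' : X →ₗ[ℝ] Y)) := by
      have : LinearMap.range (V' : X →ₗ[ℝ] Y) ≤ LinearMap.range (V : X →ₗ[ℝ] Y) := by
        rintro _ ⟨x, rfl⟩
        exact ⟨‖V‖⁻¹ • x, by simp [V']⟩
      exact Submodule.finiteDimensional_of_le this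
    have hV2 : ‖V'‖ ≤ 1 := by
      rw [norm_smul, norm_inv, norm_norm, inv_mul_cancel₀ h0.ne']
    have h1 := norm_rad_le hκ0 (h X Y c d hc hd hY hX V' hV1 hV2) hV2 f
    have h2 : ∀ ε, ‖V' (rad f ε)‖ ^ 2 = ‖V‖⁻¹ ^ 2 * ‖V (rad f ε)‖ ^ 2 := by
      intro ε
      simp only [V', FunLike.coe_smul, Pi.smul_apply]
      rw [norm_smul, mul_pow, norm_inv, norm_norm]
    simp_rw [h2] at h1
    rw [H1.avg_mul] at h1
    refine Real.sqrt_le_iff.2 ⟨by positivity, ?_⟩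
    have h3 : (avg fun ε => ‖V (rad f ε)‖ ^ 2) =
        ‖V‖ ^ 2 * (‖V‖⁻¹ ^ 2 * avg fun ε => ‖V (rad f ε)‖ ^ 2) := by
      field_simp
    rw [h3]
    calc ‖V‖ ^ 2 * (‖V‖⁻¹ ^ 2 * avg fun ε => ‖V (rad f ε)‖ ^ 2)
        ≤ ‖V‖ ^ 2 * (κ ^ 2 * avg fun ε => ‖f ε‖ ^ 2) := by gcongr
      _ = _ := by
          rw [mul_pow (κ * ‖V‖), mul_pow κ, Real.sq_sqrt hF]
          ring

/-- The bound for spaces with the bounded approximation property. -/
theorem log_bound_bap2 (hlk : LKStatement) (hker : KerStatement) {q r : ℝ} (hq : 2 ≤ q)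
    (hr : 2 ≤ r) (hqr : 1 / 2 < 1 / q + 1 / r) :
    ∀ (X : Type*) [NormedAddCommGroup X] [NormedSpace ℝ X]
      (lam c d : ℝ), 1 ≤ c → 1 ≤ d → BAPWith lam X →
      CotypeWith q c X → CotypeWith r d (X →L[ℝ] ℝ) →
      KConvexWith (lam * (Real.exp (12 / (1 / q + 1 / r - 1 / 2)) *
        (1 + Real.log (c * d)))) X := by
  have h := log_bound2 hlk hker hq hr hqr
  intro X _ _ lam c d hc hd hX hY hX'
  have hcd : 1 ≤ c * d := one_le_mul_of_one_le_of_one_le hc hd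
  have hlcd : 0 ≤ Real.log (c * d) := Real.log_nonneg hcd
  have hκ0 : 0 ≤ Real.exp (12 / (1 / q + 1 / r - 1 / 2)) * (1 + Real.log (c * d)) := by
    positivity
  refine kconvexWith_of_bapWith hκ0 hX ?_
  intro V hVf hV1 n f
  exact norm_rad_le hκ0 (h X X c d hc hd hY hX' V hVf hV1) hV1 f

end Vale.Agent.P111.H571
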