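import Vale.Agent.P111.Bdl.B1

/-! The chaos bound along a homomorphism of sign groups, and averages of it. -/

set_option linter.unusedSectionVars false

namespace Vale.Agent.P111.H571

open Finset

theorem avg_char_sq {G : Type*} [Group G] [Fintype G] (χ : G → ℝ)
    (hχ : ∀ a b, χ (a * b) = χ a * χ b) : (avg χ) ^ 2 = avg χ := by
  have h1 : ∀ a, χ a * avg χ = avg χ := by
    intro a
    rw [← avg_mul_left]
    have : ∀ b, χ a * χ b = χ (a * b) := fun b => (hχ a b).symm
    simp only [this]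
    exact avg_comp_equiv (Equiv.mulLeft a) χ
  have : Nonempty G := ⟨1⟩
  rw [sq]
  calc avg χ * avg χ = avg fun a => χ a * avg χ := by rw [avg_mul_right]
    _ = avg fun _ : G => avg χ := by simp only [h1]
    _ = avg χ := avg_const _

section Main

variable {X Y : Type*} [NormedAddCommGroup X] [NormedSpace ℝ X] [NormedAddCommGroup Y]
  [NormedSpace ℝ Y] {V : X →L[ℝ] Y} {I : Type} [Fintype I] [DecidableEq I] {k n : ℕ}

/-- The signs `∏ η` over the sets `α x`. -/
def pullS (α : I → Finset (Fin k × Fin n)) (η : Fin k → Fin n → ℤˣ) : I → ℤˣ :=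
  fun x => ∏ p ∈ α x, η p.1 p.2

theorem walsh_pullS (α : I → Finset (Fin k × Fin n)) (T : Finset I)
    (η : Fin k → Fin n → ℤˣ) :
    walsh T (pullS α η) = ∏ x ∈ T, ∏ p ∈ α x, sg (η p.1 p.2) := by
  unfold walsh pullS
  refine Finset.prod_congr rfl fun x _ => ?_
  rw [H1.sg_prod]

theorem walsh_pullS_mul (α : I → Finset (Fin k × Fin n)) (T : Finset I)
    (η η' : Fin k → Fin n → ℤˣ) :
    walsh T (pullS α (η * η')) = walsh T (pullS α η) * walsh T (pullS α η') := by
  simp only [walsh_pullS, Pi.mul_apply, sg_mul, Finset.prod_mul_distrib]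

theorem coef_sq (α : I → Finset (Fin k × Fin n)) (T : Finset I) (i : Fin k → Fin n) :
    (avg fun η : Fin k → Fin n → ℤˣ => (∏ l, sg (η l (i l))) * walsh T (pullS α η)) ^ 2 =
      avg fun η : Fin k → Fin n → ℤˣ => (∏ l, sg (η l (i l))) * walsh T (pullS α η) := by
  apply avg_char_sq
  intro a b
  rw [walsh_pullS_mul]
  simp only [Pi.mul_apply, sg_mul, Finset.prod_mul_distrib]
  ring

theorem sum_coef (α : I → Finset (Fin k × Fin n)) (T : Finset I) :
    ∑ i : Fin k → Fin n, (avg fun η : Fin k → Fin n → ℤˣ =>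
      (∏ l, sg (η l (i l))) * walsh T (pullS α η)) ^ 2 =
      avg fun η : Fin k → Fin n → ℤˣ => (∏ l, ∑ j, sg (η l j)) * walsh T (pullS α η) := by
  simp only [coef_sq]
  rw [← avg_sum]
  refine avg_congr fun η => ?_
  rw [← Finset.sum_mul]
  congr 1
  rw [Finset.prod_univ_sum, Fintype.piFinset_univ]

/-- The chaos bound along a homomorphism. -/
theorem chaos' {κ Q Q' : ℝ} (h : PP V κ) (hκ : 0 ≤ κ) (hQ : 0 ≤ Q) (hQ' : 0 ≤ Q')
    (hmY : Merge Q k n (PiLp 2 (fun _ : I → ℤˣ => Y)))
    (hmX : Merge Q' k n (PiLp 2 (fun _ : I → ℤˣ => X →L[ℝ] ℝ)))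
    {v : Finset I → ℝ} (hv1 : ∀ S, |v S| ≤ 1) (hv2 : Bd V v 1)
    (α : I → Finset (Fin k × Fin n)) :
    Bd V (fun S => (avg fun η : Fin k → Fin n → ℤˣ =>
      (∏ l, ∑ j, sg (η l j)) * walsh S (pullS α η)) * v S) (κ * Q * Q') := by
  intro f g
  set F : (Fin k → Fin n → ℤˣ) → PiLp 2 (fun _ : I → ℤˣ => X) := fun η =>
    WithLp.toLp 2 fun ζ => f (pullS α η * ζ) with hF
  set G : (Fin k → Fin n → ℤˣ) → PiLp 2 (fun _ : I → ℤˣ => Y →L[ℝ] ℝ) := fun η =>
    WithLp.toLp 2 fun ζ => g (pullS α η * ζ) with hG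
  set w : (Fin k → Fin n → ℤˣ) → (Fin k → Fin n) → ℝ := fun η i => ∏ l, sg (η l (i l)) with hw
  have hK : ∀ z : ((Fin k → Fin n) → ℤˣ) → PiLp 2 (fun _ : I → ℤˣ => Y →L[ℝ] ℝ),
      (avg fun σ : (Fin k → Fin n) → ℤˣ => ‖∑ l, sg (σ l) • mulOp (adj V) v (rc z l)‖ ^ 2) ≤
      κ ^ 2 * avg fun σ => ‖z σ‖ ^ 2 := fun z =>
    norm_form pair_isBilin (mulOp V v) (mulOp (adj V) v) pair_norming_right
      (fun x y' => pair_adj V v x y') hκ (fun x y' => h.he hv1 hv2 x y') z
  have key := chaos_abstract pair_isBilin pair_isBilin (mulOp V v) (mulOp (adj V) v)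
    abs_pair_le abs_pair_le pair_norming_left (fun x y' => pair_adj V v x y') hκ hQ hQ' w hK
    hmY hmX F G
  have hcard : (0:ℝ) < Fintype.card (I → ℤˣ) := by exact_mod_cast Fintype.card_pos
  have hnF : (avg fun η => ‖F η‖ ^ 2) = Fintype.card (I → ℤˣ) * nrm f ^ 2 := by
    rw [avg_norm_sq_pilp]
    congr 1
    have : ∀ η : Fin k → Fin n → ℤˣ, (avg fun ζ => ‖F η ζ‖ ^ 2) = nrm f ^ 2 := by
      intro η
      rw [nrm_sq]
      exact avg_comp_equiv (Equiv.mulLeft (pullS α η)) (fun ζ => ‖f ζ‖ ^ 2)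
    simp only [this]
    rw [avg_const]
  have hnG : (avg fun η => ‖G η‖ ^ 2) = Fintype.card (I → ℤˣ) * nrm g ^ 2 := by
    rw [avg_norm_sq_pilp]
    congr 1
    have : ∀ η : Fin k → Fin n → ℤˣ, (avg fun ζ => ‖G η ζ‖ ^ 2) = nrm g ^ 2 := by
      intro η
      rw [nrm_sq]
      exact avg_comp_equiv (Equiv.mulLeft (pullS α η)) (fun ζ => ‖g ζ‖ ^ 2)
    simp only [this]
    rw [avg_const]
  have hcF : ∀ (T : Finset I) (i : Fin k → Fin n), wc T (avg fun η => w η i • F η).ofLp =
      (avg fun η : Fin k → Fin n → ℤˣ => w η i * walsh T (pullS α η)) • wc T f := by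
    intro T i
    rw [wc_avg_toLp]
    have : ∀ η : Fin k → Fin n → ℤˣ, wc T (w η i • F η).ofLp =
        (w η i * walsh T (pullS α η)) • wc T f := by
      intro η
      have e1 : (w η i • F η).ofLp = fun ζ => w η i • f (pullS α η * ζ) := rfl
      rw [e1, mul_smul, ← wc_translate T f (pullS α η)]
      simp only [wc, smul_comm _ (w η i)]
      rw [avg_smul]
    simp only [this]
    simp only [avg, smul_eq_mul, ← Finset.sum_smul, smul_smul]
  have hcG : ∀ (T : Finset I) (i : Fin k → Fin n), wc T (avg fun η => w η i • G η).ofLp =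
      (avg fun η : Fin k → Fin n → ℤˣ => w η i * walsh T (pullS α η)) • wc T g := by
    intro T i
    rw [wc_avg_toLp]
    have : ∀ η : Fin k → Fin n → ℤˣ, wc T (w η i • G η).ofLp =
        (w η i * walsh T (pullS α η)) • wc T g := by
      intro η
      have e1 : (w η i • G η).ofLp = fun ζ => w η i • g (pullS α η * ζ) := rfl
      rw [e1, mul_smul, ← wc_translate T g (pullS α η)]
      simp only [wc, smul_comm _ (w η i)]
      rw [avg_smul]
    simp only [this]
    simp only [avg, smul_eq_mul, ← Finset.sum_smul, smul_smul]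
  have hsum : ∑ i : Fin k → Fin n, pair (mulOp V v (avg fun η => w η i • F η))
      (avg fun η => w η i • G η) = Fintype.card (I → ℤˣ) * ∑ S : Finset I,
      ((avg fun η : Fin k → Fin n → ℤˣ =>
        (∏ l, ∑ j, sg (η l j)) * walsh S (pullS α η)) * v S) * (wc S g) (V (wc S f)) := by
    simp only [pair_mulOp, hcF, hcG, map_smul, _root_.smul_apply, smul_eq_mul]
    rw [← Finset.mul_sum, Finset.sum_comm]
    congr 1
    apply Finset.sum_congr rfl
    intro T _
    rw [← sum_coef α T, Finset.sum_mul, Finset.sum_mul]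
    apply Finset.sum_congr rfl
    intro i _
    simp only [hw]
    ring
  rw [hsum, hnF, hnG, abs_mul, Nat.abs_cast, Real.sqrt_mul hcard.le, Real.sqrt_mul hcard.le,
    Real.sqrt_sq (nrm_nonneg f), Real.sqrt_sq (nrm_nonneg g)] at key
  have h6 : κ * Q * Q' * (√(Fintype.card (I → ℤˣ) : ℝ) * nrm f *
      (√(Fintype.card (I → ℤˣ) : ℝ) * nrm g)) =
      (Fintype.card (I → ℤˣ) : ℝ) * (κ * Q * Q' * (nrm f * nrm g)) := by
    have := Real.mul_self_sqrt hcard.le
    calc _ = (√(Fintype.card (I → ℤˣ) : ℝ) * √(Fintype.card (I → ℤˣ) : ℝ)) *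
          (κ * Q * Q' * (nrm f * nrm g)) := by ring
      _ = _ := by rw [this]
  rw [h6] at key
  exact le_of_mul_le_mul_left key hcard

/-- The chaos bound for a function of small Wiener norm of the signs. -/
theorem bd_sub {κ Q Q' : ℝ} (h : PP V κ) (hκ : 0 ≤ κ) (hQ : 0 ≤ Q) (hQ' : 0 ≤ Q')
    (hmY : Merge Q k n (PiLp 2 (fun _ : I → ℤˣ => Y)))
    (hmX : Merge Q' k n (PiLp 2 (fun _ : I → ℤˣ => X →L[ℝ] ℝ)))
    {v : Finset I → ℝ} (hv1 : ∀ S, |v S| ≤ 1) (hv2 : Bd V v 1) (J : Finset I)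
    (t : (Fin k → Fin n → ℤˣ) → ℝ) (a : Finset (Fin k × Fin n) → ℝ)
    (ha : ∑ A, |a A| ≤ 1) (ht : ∀ θ, t θ = ∑ A, a A * ∏ p ∈ A, sg (θ p.1 p.2)) :
    Bd V (fun S => (avg fun θ : Fin k → Fin n → ℤˣ =>
      (∏ l, ∑ j, sg (θ l j)) * t θ ^ #(S ∩ J)) * v S) (κ * Q * Q') := by
  classical
  -- weights on `Option (Finset _)`
  set b : I → Option (Finset (Fin k × Fin n)) → ℝ := fun x o =>
    if x ∈ J then o.elim (1 - ∑ A, |a A|) (fun A => |a A|) else (if o = some ∅ then 1 else 0)
    with hb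
  set ρ : I → Option (Finset (Fin k × Fin n)) → ℝ := fun x o =>
    if x ∈ J then o.elim 0 (fun A => SignType.sign (a A)) else 1 with hρ
  set st : Option (Finset (Fin k × Fin n)) → Finset (Fin k × Fin n) := fun o => o.getD ∅ with hst
  have hb0 : ∀ x o, 0 ≤ b x o := by
    intro x o
    simp only [hb]
    split_ifs
    · rcases o with _ | A
      · simpa using ha
      · simp
    · exact zero_le_one
    · exact le_rfl
  have hb1 : ∀ x, ∑ o, b x o = 1 := by
    intro x
    simp only [hb]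
    split_ifs
    · rw [Fintype.sum_option]
      simp
    · simp
  have hρ1 : ∀ x o, |ρ x o| ≤ 1 := by
    intro x o
    simp only [hρ]
    split_ifs
    · rcases o with _ | A
      · simp
      · simp only [Option.elim_some]
        rcases lt_trichotomy (a A) 0 with h | h | h
        · simp [sign_neg h]
        · simp [h]
        · simp [sign_pos h]
    · simp
  have hsum : Bd V (fun S => ∑ β : I → Option (Finset (Fin k × Fin n)), (∏ x, b x (β x)) *
      (((avg fun η : Fin k → Fin n → ℤˣ => (∏ l, ∑ j, sg (η l j)) *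
        walsh S (pullS (fun x => st (β x)) η)) * v S) * ∏ x ∈ S, ρ x (β x)))
      (∑ β : I → Option (Finset (Fin k × Fin n)), |∏ x, b x (β x)| * (κ * Q * Q')) := by
    apply Bd.sum
    intro β _
    exact ((chaos' h hκ hQ hQ' hmY hmX hv1 hv2 (fun x => st (β x))).mul_prod
      (fun x => ρ x (β x)) (fun x => hρ1 x (β x))).smul _
  have htot : ∑ β : I → Option (Finset (Fin k × Fin n)), ∏ x, b x (β x) = 1 := by
    have := Finset.prod_univ_sum (fun _ : I => (Finset.univ : Finset (Option (Finset (Fin k × Fin n))))) b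
    rw [Fintype.piFinset_univ] at this
    rw [← this]
    exact Finset.prod_eq_one fun x _ => hb1 x
  refine (hsum.congr ?_).mono (le_of_eq ?_)
  · intro S
    have hp : ∀ θ : Fin k → Fin n → ℤˣ, t θ ^ #(S ∩ J) =
        ∑ β : I → Option (Finset (Fin k × Fin n)), (∏ x, b x (β x)) *
          (walsh S (pullS (fun x => st (β x)) θ) * ∏ x ∈ S, ρ x (β x)) := by
      intro θ
      have e1 : ∀ β : I → Option (Finset (Fin k × Fin n)), (∏ x, b x (β x)) *
          (walsh S (pullS (fun x => st (β x)) θ) * ∏ x ∈ S, ρ x (β x)) =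
          ∏ x, (b x (β x) * if x ∈ S then
            (∏ p ∈ st (β x), sg (θ p.1 p.2)) * ρ x (β x) else 1) := by
        intro β
        have e5 : ∀ F : I → ℝ, ∏ x, (if x ∈ S then F x else 1) = ∏ x ∈ S, F x := by
          intro F
          rw [Finset.prod_ite_mem, Finset.univ_inter]
        rw [walsh_pullS, ← Finset.prod_mul_distrib (s := S), ← e5, ← Finset.prod_mul_distrib]
      simp only [e1]
      have e2 := Finset.prod_univ_sum
        (fun _ : I => (Finset.univ : Finset (Option (Finset (Fin k × Fin n)))))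
        (fun x o => b x o * if x ∈ S then (∏ p ∈ st o, sg (θ p.1 p.2)) * ρ x o else 1)
      rw [Fintype.piFinset_univ] at e2
      rw [← e2]
      have e3 : ∀ x : I, ∑ o : Option (Finset (Fin k × Fin n)),
          b x o * (if x ∈ S then (∏ p ∈ st o, sg (θ p.1 p.2)) * ρ x o else 1) =
          if x ∈ S ∩ J then t θ else 1 := by
        intro x
        by_cases hxS : x ∈ S
        · by_cases hxJ : x ∈ J
          · simp only [hxS, if_true, Finset.mem_inter, hxJ, and_self, hb, hρ, hst]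
            rw [Fintype.sum_option, ht θ]
            simp only [Option.elim_none, Option.elim_some, mul_zero, zero_add, Option.getD_some]
            refine Finset.sum_congr rfl fun A _ => ?_
            calc |a A| * ((∏ p ∈ A, sg (θ p.1 p.2)) * (SignType.sign (a A) : ℝ))
                = ((SignType.sign (a A) : ℝ) * |a A|) * ∏ p ∈ A, sg (θ p.1 p.2) := by ring
              _ = _ := by rw [sign_mul_abs]
          · simp [hxS, hxJ, hb, hρ, hst]
        · have h5 := hb1 x
          simp only [hxS, if_false, mul_one, Finset.mem_inter, false_and]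
          exact h5
      simp only [e3]
      rw [Finset.prod_ite_mem, Finset.univ_inter, Finset.prod_const]
    simp only [hp]
    have e4 : ∀ θ : Fin k → Fin n → ℤˣ, (∏ l, ∑ j, sg (θ l j)) *
        (∑ β : I → Option (Finset (Fin k × Fin n)), (∏ x, b x (β x)) *
          (walsh S (pullS (fun x => st (β x)) θ) * ∏ x ∈ S, ρ x (β x))) =
        ∑ β : I → Option (Finset (Fin k × Fin n)), (∏ x, b x (β x)) *
          (((∏ l, ∑ j, sg (θ l j)) * walsh S (pullS (fun x => st (β x)) θ)) *
            ∏ x ∈ S, ρ x (β x)) := by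
      intro θ
      rw [Finset.mul_sum]
      refine Finset.sum_congr rfl fun β _ => ?_
      ring
    simp only [e4]
    rw [avg_sum, Finset.sum_mul]
    refine Finset.sum_congr rfl fun β _ => ?_
    rw [avg_mul_left, avg_mul_right]
    ring
  · have : ∀ β : I → Option (Finset (Fin k × Fin n)), |∏ x, b x (β x)| = ∏ x, b x (β x) :=
      fun β => abs_of_nonneg (Finset.prod_nonneg fun x _ => hb0 x _)
    simp only [this]
    rw [← Finset.sum_mul, htot, one_mul]

end Main

end Vale.Agent.P111.H571
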