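import Vale.Agent.P111.Bdl.B1
import Vale.Agent.P111.QL.Defs

/-! Merging of signs with a single constant, from cotype. -/

set_option linter.unusedSectionVars false

namespace Vale.Agent.P111.H571

open MeasureTheory ProbabilityTheory Finset
open Vale.Agent.P111.H1 (gsq rsq uu ww chi)

section cotype

variable {Y : Type*} [NormedAddCommGroup Y] [NormedSpace ℝ Y]

/-- The `ℓ₂` consequence of cotype, with the constant. -/
theorem cotype_l2' {q C : ℝ} (hq2 : 2 ≤ q) (h : CotypeWith q C Y) :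
    ∀ (Λ : Type) [Fintype Λ] [DecidableEq Λ] (y : Λ → Y),
      ∑ l, ‖y l‖ ^ 2 ≤ (C * (Fintype.card Λ : ℝ) ^ (1 / 2 - 1 / q)) ^ 2 *
        avg fun σ : Λ → ℤˣ => ‖∑ l, sg (σ l) • y l‖ ^ 2 := by
  intro Λ _ _ y
  have h1 : (∑ l, ‖y l‖ ^ q) ^ (1 / q) ≤
        C * (avg fun σ : Λ → ℤˣ => ‖∑ l, sg (σ l) • y l‖ ^ 2) ^ (1 / 2 : ℝ) := by
    let e := Fintype.equivFin Λ
    have h1 := h (Fintype.card Λ) (fun i => y (e.symm i))
    have h2 : avg (fun σ : Λ → ℤˣ => ‖∑ l, sg (σ l) • y l‖ ^ 2) =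
        avg (fun σ : Fin (Fintype.card Λ) → ℤˣ => ‖∑ l, sg (σ l) • y (e.symm l)‖ ^ 2) := by
      rw [← H1.avg_equiv (Equiv.arrowCongr e (Equiv.refl ℤˣ))]
      refine H1.avg_congr fun σ => ?_
      congr 2
      rw [← Equiv.sum_comp e]
      refine Finset.sum_congr rfl fun j _ => ?_
      simp
    have h3 : ∑ l, ‖y l‖ ^ q = ∑ i, ‖y (e.symm i)‖ ^ q :=
      (Equiv.sum_comp e.symm (fun l => ‖y l‖ ^ q)).symm
    rw [h2, h3]
    exact h1
  set S := avg fun σ : Λ → ℤˣ => ‖∑ l, sg (σ l) • y l‖ ^ 2 with hS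
  have hS0 : 0 ≤ S := H1.avg_nonneg fun _ => by positivity
  -- power mean
  have hq0 : 0 < q := by linarith
  set T := ∑ l, ‖y l‖ ^ q with hT
  have hT0 : 0 ≤ T := Finset.sum_nonneg fun l _ => by positivity
  have h2 : (∑ l, ‖y l‖ ^ 2) ≤ ((Fintype.card Λ : ℝ) ^ (1 / 2 - 1 / q)) ^ 2 * (T ^ (1 / q)) ^ 2 := by
    have hp : 1 ≤ q / 2 := by linarith
    have h3 := Real.rpow_sum_le_const_mul_sum_rpow_of_nonneg (s := (Finset.univ : Finset Λ))
      (f := fun l => ‖y l‖ ^ 2) hp (fun l _ => by positivity)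
    have h4 : ∀ l, (‖y l‖ ^ 2) ^ (q / 2) = ‖y l‖ ^ q := by
      intro l
      rw [← Real.rpow_natCast, ← Real.rpow_mul (norm_nonneg _)]
      congr 1
      push_cast
      ring
    simp_rw [h4] at h3
    rw [Finset.card_univ] at h3
    have h5 : (∑ l, ‖y l‖ ^ 2) = ((∑ l, ‖y l‖ ^ 2) ^ (q / 2)) ^ (2 / q) := by
      rw [← Real.rpow_mul (by positivity)]
      have : q / 2 * (2 / q) = 1 := by field_simp
      rw [this, Real.rpow_one]
    rw [h5]
    calc ((∑ l, ‖y l‖ ^ 2) ^ (q / 2)) ^ (2 / q)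
        ≤ ((Fintype.card Λ : ℝ) ^ (q / 2 - 1) * T) ^ (2 / q) :=
          Real.rpow_le_rpow (by positivity) h3 (by positivity)
      _ = ((Fintype.card Λ : ℝ) ^ (q / 2 - 1)) ^ (2 / q) * T ^ (2 / q) := by
          rw [Real.mul_rpow (by positivity) hT0]
      _ = _ := by
          congr 1
          · rw [← Real.rpow_mul (by positivity), ← Real.rpow_natCast _ 2,
              ← Real.rpow_mul (by positivity)]
            congr 1
            push_cast
            field_simp
          · rw [← Real.rpow_natCast _ 2, ← Real.rpow_mul hT0]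
            congr 1
            push_cast
            field_simp
  have h6 : (T ^ (1 / q)) ^ 2 ≤ C ^ 2 * S := by
    have h7 : (C * S ^ (1 / 2 : ℝ)) ^ 2 = C ^ 2 * S := by
      rw [mul_pow, ← Real.rpow_natCast (S ^ (1 / 2 : ℝ)) 2, ← Real.rpow_mul hS0]
      norm_num
    rw [← h7]
    have : 0 ≤ T ^ (1 / q) := by positivity
    gcongr
  calc (∑ l, ‖y l‖ ^ 2) ≤ ((Fintype.card Λ : ℝ) ^ (1 / 2 - 1 / q)) ^ 2 * (T ^ (1 / q)) ^ 2 := h2
    _ ≤ ((Fintype.card Λ : ℝ) ^ (1 / 2 - 1 / q)) ^ 2 * (C ^ 2 * S) := by gcongr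
    _ = _ := by ring

/-- The constant of the Gaussian comparison. -/
noncomputable def gq (q : ℝ) : ℝ := 4 * (2 * (2 * Real.exp ((q * Real.log 4) ^ 2 / 2))) ^ (2 / q)

theorem gq_one_le {q : ℝ} (hq : 2 ≤ q) : 1 ≤ gq q := by
  unfold gq
  have h1 : 1 ≤ Real.exp ((q * Real.log 4) ^ 2 / 2) := Real.one_le_exp (by positivity)
  have h2 : 1 ≤ (2 * (2 * Real.exp ((q * Real.log 4) ^ 2 / 2))) ^ (2 / q) :=
    Real.one_le_rpow (by linarith) (by positivity)
  linarith

open Vale.Agent.P111.H1 in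
/-- Gaussian sums are dominated by random sign sums, with the constant. -/
theorem gsq_le_rsq' {q C : ℝ} (hq2 : 2 ≤ q)
    (hC : ∀ (Λ : Type) [Fintype Λ] [DecidableEq Λ] (y : Λ → Y),
      ∑ l, ‖y l‖ ^ 2 ≤ (C * (Fintype.card Λ : ℝ) ^ (1 / 2 - 1 / q)) ^ 2 *
        avg fun σ : Λ → ℤˣ => ‖∑ l, sg (σ l) • y l‖ ^ 2) :
    ∀ (ι : Type) [Fintype ι] [DecidableEq ι] (y : ι → Y), gsq y ≤ (gq q * C ^ 2) * rsq y := by
  have hq0 : 0 < q := by linarith
  set lam : ℝ := q * Real.log 4 with hlam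
  have hlam0 : 0 ≤ lam := by positivity
  set M : ℝ := 2 * Real.exp (lam ^ 2 / 2) with hM
  have hM1 : 1 ≤ M := by
    have : 1 ≤ Real.exp (lam ^ 2 / 2) := Real.one_le_exp (by positivity)
    linarith
  set c : ℝ := C ^ 2 * (2 * M) ^ (2 / q) with hc
  have hc0 : 0 ≤ c := by positivity
  have hgc : gq q * C ^ 2 = 4 * c := by
    rw [hc, hM, hlam]; unfold gq; ring
  rw [hgc]
  intro ι _ _ y
  have hy0 : 0 ≤ rsq y := rsq_nonneg _
  -- each layer
  have hlayer : ∀ k : ℕ, Integrable (fun g : ι → ℝ => sel y (pick {x : ℝ | (k : ℝ) < |x|} g)) (gam ι) ∧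
      ∫ g, sel y (pick {x : ℝ | (k : ℝ) < |x|} g) ∂(gam ι) ≤ c * (1 / 16) ^ k * rsq y := by
    intro k
    have hm : MeasurableSet {x : ℝ | (k : ℝ) < |x|} :=
      measurableSet_lt measurable_const (by fun_prop)
    have h1 := integral_pick (ι := ι) (gaussianReal 0 1) _ hm (sel y)
    refine ⟨h1.1, ?_⟩
    unfold gam
    rw [h1.2]
    have h2 := gauss_tail lam hlam0 k
    have h3 := layer_le C q hq2 hC M hM1 (Real.exp (lam * k)) (Real.exp_pos _)
      ((gaussianReal 0 1).real {x : ℝ | (k : ℝ) < |x|}) measureReal_nonneg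
      measureReal_le_one (by
        refine h2.trans (le_of_eq ?_)
        rw [hM, neg_mul, Real.exp_neg]
        rfl) y
    refine h3.trans (le_of_eq ?_)
    congr 1
    rw [hc, Real.div_rpow (by positivity) (Real.exp_pos _).le, mul_div_assoc']
    have : Real.exp (lam * k) ^ (2 / q) = 16 ^ k := by
      rw [← Real.exp_mul]
      have e1 : lam * k * (2 / q) = Real.log 4 * ((2 * k : ℕ) : ℝ) := by
        rw [hlam]; push_cast; field_simp
      rw [e1, mul_comm, ← Real.log_pow, Real.exp_log (by positivity), pow_mul]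
      norm_num
    rw [this, one_div, inv_pow, div_eq_mul_inv]
  -- truncated integrals
  have htrunc : ∀ K : ℕ, ∫ g, rsq (fun i => min |g i| (K : ℝ) • y i) ∂(gam ι) ≤ 4 * c * rsq y := by
    intro K
    have hint : Integrable (fun g : ι → ℝ => 2 * ∑ k ∈ Finset.range K,
        2 ^ k * sel y (pick {x : ℝ | (k : ℝ) < |x|} g)) (gam ι) := by
      refine Integrable.const_mul ?_ _
      exact integrable_finsetSum _ fun k _ => ((hlayer k).1).const_mul _
    have h1 : ∫ g, rsq (fun i => min |g i| (K : ℝ) • y i) ∂(gam ι) ≤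
        ∫ g, 2 * ∑ k ∈ Finset.range K, 2 ^ k * sel y (pick {x : ℝ | (k : ℝ) < |x|} g) ∂(gam ι) := by
      refine integral_mono_of_nonneg (Filter.Eventually.of_forall fun g => rsq_nonneg _) hint
        (Filter.Eventually.of_forall fun g => rsq_layers K g y)
    refine h1.trans ?_
    rw [integral_const_mul, integral_finsetSum _ fun k _ => ((hlayer k).1).const_mul _]
    simp_rw [integral_const_mul]
    have h2 : ∑ k ∈ Finset.range K, 2 ^ k * ∫ g, sel y (pick {x : ℝ | (k : ℝ) < |x|} g) ∂(gam ι) ≤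
        ∑ k ∈ Finset.range K, (1 / 8 : ℝ) ^ k * (c * rsq y) := by
      refine Finset.sum_le_sum fun k _ => ?_
      calc 2 ^ k * ∫ g, sel y (pick {x : ℝ | (k : ℝ) < |x|} g) ∂(gam ι)
          ≤ 2 ^ k * (c * (1 / 16) ^ k * rsq y) := by
            gcongr
            exact (hlayer k).2
        _ = (2 ^ k * (1 / 16 : ℝ) ^ k) * (c * rsq y) := by ring
        _ = _ := by rw [← mul_pow]; norm_num
    have h3 : ∑ k ∈ Finset.range K, ((1 / 8 : ℝ) ^ k) ≤ 2 := by
      rw [geom_sum_eq (by norm_num : (1 / 8 : ℝ) ≠ 1) K]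
      have h0 : 0 ≤ (1 / 8 : ℝ) ^ K := by positivity
      rw [div_le_iff_of_neg (by norm_num)]
      linarith
    rw [← Finset.sum_mul] at h2
    calc _ ≤ 2 * ((∑ k ∈ Finset.range K, ((1 / 8 : ℝ) ^ k)) * (c * rsq y)) := by gcongr
      _ ≤ 2 * (2 * (c * rsq y)) := by gcongr
      _ = _ := by ring
  -- pass to the limit
  have hlim : Filter.Tendsto (fun K : ℕ => ∫ g, rsq (fun i => min |g i| (K : ℝ) • y i) ∂(gam ι))
      Filter.atTop (nhds (∫ g, rsq (fun i => |g i| • y i) ∂(gam ι))) := by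
    refine tendsto_integral_of_dominated_convergence (fun g => rsq (fun i => g i • y i)) ?_
      (integrable_rsq_g y) ?_ ?_
    · intro K
      refine Continuous.aestronglyMeasurable ?_
      unfold rsq avg
      have hc1 : ∀ δ : Cube ι, Continuous fun g : ι → ℝ =>
          ∑ i, sg (δ i) • (min |g i| (K : ℝ) • y i) := fun δ =>
        continuous_finsetSum _ fun i _ =>
          (((continuous_apply i).abs.min continuous_const).smul continuous_const).const_smul _
      have hc2 : Continuous fun g : ι → ℝ =>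
          ∑ δ : Cube ι, ‖∑ i, sg (δ i) • (min |g i| (K : ℝ) • y i)‖ ^ 2 :=
        continuous_finsetSum _ fun δ _ => (hc1 δ).norm.pow 2
      exact Continuous.smul (continuous_const (y := (Fintype.card (Cube ι) : ℝ)⁻¹)) hc2
    · intro K
      refine Filter.Eventually.of_forall fun g => ?_
      rw [Real.norm_of_nonneg (rsq_nonneg _)]
      have h1 := rsq_contract (fun i => if |g i| ≤ K then (1 : ℝ) else K / |g i|) (fun i => by
        split_ifs with h
        · simp
        · push Not at h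
          have hg : 0 < |g i| := lt_of_le_of_lt (Nat.cast_nonneg K) h
          rw [abs_of_nonneg (by positivity), div_le_one hg]
          exact h.le) (fun i => |g i| • y i)
      have h2 : rsq (fun i => |g i| • y i) = rsq (fun i => g i • y i) := by
        have hs : ∀ t : ℝ, ∃ u : ℤˣ, sg u * t = |t| := by
          intro t
          rcases le_or_gt 0 t with h | h
          · exact ⟨1, by rw [H1.sg_one, one_mul, abs_of_nonneg h]⟩
          · exact ⟨-1, by rw [H1.sg_neg, H1.sg_one, neg_one_mul, abs_of_neg h]⟩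
        choose u hu using hs
        rw [← rsq_sign (fun i => u (g i)) (fun i => g i • y i)]
        congr 1
        funext i
        rw [smul_smul, hu]
      rw [← h2]
      refine le_trans (le_of_eq ?_) h1
      congr 1
      funext i
      rw [smul_smul]
      congr 1
      split_ifs with h
      · rw [min_eq_left h, one_mul]
      · push Not at h
        have hg : 0 < |g i| := lt_of_le_of_lt (Nat.cast_nonneg K) h
        rw [min_eq_right h.le]
        field_simp
    · refine Filter.Eventually.of_forall fun g => ?_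
      refine tendsto_const_nhds.congr' ?_
      obtain ⟨K0, hK0⟩ := exists_nat_ge (∑ i, |g i|)
      filter_upwards [Filter.eventually_ge_atTop K0] with K hK
      congr 1
      funext i
      rw [min_eq_left]
      calc |g i| ≤ ∑ i, |g i| := Finset.single_le_sum (f := fun i => |g i|)
            (fun i _ => abs_nonneg _) (Finset.mem_univ i)
        _ ≤ K0 := hK0
        _ ≤ K := by exact_mod_cast hK
  have hfin := le_of_tendsto' hlim htrunc
  have e : gsq y = ∫ g, rsq (fun i => |g i| • y i) ∂(gam ι) := by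
    rw [gsq_eq_rsq]
    congr 1
    funext g
    have hs : ∀ t : ℝ, ∃ u : ℤˣ, sg u * t = |t| := by
      intro t
      rcases le_or_gt 0 t with h | h
      · exact ⟨1, by rw [H1.sg_one, one_mul, abs_of_nonneg h]⟩
      · exact ⟨-1, by rw [H1.sg_neg, H1.sg_one, neg_one_mul, abs_of_neg h]⟩
    choose u hu using hs
    rw [← rsq_sign (fun i => u (g i)) (fun i => g i • y i)]
    congr 1
    funext i
    rw [smul_smul, hu]
  rw [e]
  exact hfin

end cotype

section merge1

variable {Y : Type*} [NormedAddCommGroup Y] [NormedSpace ℝ Y]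
variable {K : Type} [Fintype K] [DecidableEq K] {L : ℕ}

/-- Merging all the factors at once: one constant, whatever the number of factors. -/
theorem merge1 {q C G : ℝ}
    (hC : ∀ (Λ : Type) [Fintype Λ] [DecidableEq Λ] (y : Λ → Y),
      ∑ l, ‖y l‖ ^ 2 ≤ (C * (Fintype.card Λ : ℝ) ^ (1 / 2 - 1 / q)) ^ 2 *
        avg fun σ : Λ → ℤˣ => ‖∑ l, sg (σ l) • y l‖ ^ 2)
    (hG : ∀ (ι : Type) [Fintype ι] [DecidableEq ι] (y : ι → Y), gsq y ≤ G * rsq y)
    (y : (K → Finset (Fin L)) → Y) :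
    avg (fun ω : K → Finset (Fin L) → ℤˣ => ‖∑ i, ww i ω • y i‖ ^ 2) ≤
      (C * (Fintype.card (K → Fin L → ℤˣ) : ℝ) ^ (1 / 2 - 1 / q)) ^ 2 * ((Real.pi / 2) * G) *
        rsq y := by
  classical
  set M : ℝ := (Fintype.card (K → Fin L → ℤˣ) : ℝ) with hM
  have hMpos : 0 < M := by rw [hM]; exact_mod_cast Fintype.card_pos
  -- modulation
  have h1 : avg (fun ω : K → Finset (Fin L) → ℤˣ => ‖∑ i, ww i ω • y i‖ ^ 2) =
      avg fun ω : K → Finset (Fin L) → ℤˣ => avg fun lam : K → Fin L → ℤˣ =>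
        ‖∑ i, ww i (ω * chi lam) • y i‖ ^ 2 := by
    rw [H1.avg_comm]
    have e : ∀ lam : K → Fin L → ℤˣ, avg (fun ω : K → Finset (Fin L) → ℤˣ =>
        ‖∑ i, ww i (ω * chi lam) • y i‖ ^ 2) =
        avg (fun ω : K → Finset (Fin L) → ℤˣ => ‖∑ i, ww i ω • y i‖ ^ 2) := fun lam =>
      H1.avg_equiv (Equiv.mulRight (chi lam)) fun ω => ‖∑ i, ww i ω • y i‖ ^ 2
    rw [H1.avg_congr e, H1.avg_const]
  have h2 : ∀ ω : K → Finset (Fin L) → ℤˣ, avg (fun lam : K → Fin L → ℤˣ =>
      ‖∑ i, ww i (ω * chi lam) • y i‖ ^ 2) ≤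
      (C * M ^ (1 / 2 - 1 / q)) ^ 2 * ((Real.pi / 2) * G) * rsq y := by
    intro ω
    set z : (K → Fin L → ℤˣ) → Y := fun lam => ∑ i, ww i (ω * chi lam) • y i with hz
    have s1 := hC (K → Fin L → ℤˣ) z
    have s2 : avg (fun σ : (K → Fin L → ℤˣ) → ℤˣ => ‖∑ l, sg (σ l) • z l‖ ^ 2) ≤
        (Real.pi / 2) * gsq z := H1.rsq_le_gsq z
    have s3 : gsq z = M * gsq y := by
      have t1 := H1.gsq_rot (ι := K → Finset (Fin L)) (κ := K → Fin L → ℤˣ)
        (fun i lam => (√M)⁻¹ * uu i lam) H1.card_eq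
        (by
          intro i j
          have : ∀ lam : K → Fin L → ℤˣ, (√M)⁻¹ * uu i lam * ((√M)⁻¹ * uu j lam) =
              M⁻¹ * (uu i lam * uu j lam) := by
            intro lam
            calc (√M)⁻¹ * uu i lam * ((√M)⁻¹ * uu j lam)
                = ((√M)⁻¹ * (√M)⁻¹) * (uu i lam * uu j lam) := by ring
              _ = _ := by rw [← mul_inv, Real.mul_self_sqrt hMpos.le]
          simp_rw [this]
          rw [← Finset.mul_sum, H1.uu_orth]
          split_ifs
          · exact inv_mul_cancel₀ hMpos.ne'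
          · simp) z
      rw [← t1]
      have e2 : (fun i : K → Finset (Fin L) => ∑ lam : K → Fin L → ℤˣ,
          ((√M)⁻¹ * uu i lam) • z lam) = fun i => √M • (ww i ω • y i) := by
        funext i
        simp only [hz, H1.ww_chi, Finset.smul_sum, smul_smul]
        rw [Finset.sum_comm, Finset.sum_eq_single i]
        · rw [← Finset.sum_smul]
          congr 1
          have e3 : ∀ lam : K → Fin L → ℤˣ, (√M)⁻¹ * uu i lam * (ww i ω * uu i lam) =
              (√M)⁻¹ * ww i ω * (uu i lam * uu i lam) := fun lam => by ring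
          simp_rw [e3]
          rw [← Finset.mul_sum, H1.uu_orth, if_pos rfl, ← hM]
          have e4 : (√M)⁻¹ * M = √M := by rw [inv_mul_eq_div, Real.div_sqrt]
          calc (√M)⁻¹ * ww i ω * M = ((√M)⁻¹ * M) * ww i ω := by ring
            _ = _ := by rw [e4]
        · intro j _ hj
          rw [← Finset.sum_smul]
          have e3 : ∀ lam : K → Fin L → ℤˣ, (√M)⁻¹ * uu i lam * (ww j ω * uu j lam) =
              (√M)⁻¹ * ww j ω * (uu i lam * uu j lam) := fun lam => by ring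
          simp_rw [e3]
          rw [← Finset.mul_sum, H1.uu_orth, if_neg (Ne.symm hj), mul_zero, zero_smul]
        · intro h; exact absurd (Finset.mem_univ _) h
      rw [e2, H1.gsq_smul, Real.sq_sqrt hMpos.le,
        H1.gsq_sign (fun i => ww i ω) (fun i => H1.ww_sq i ω)]
    have s4 := hG (K → Finset (Fin L)) y
    have hpi : 0 < Real.pi := Real.pi_pos
    rw [← hM] at s1
    have s5 : avg (fun lam : K → Fin L → ℤˣ => ‖z lam‖ ^ 2) = M⁻¹ * ∑ lam, ‖z lam‖ ^ 2 := by
      unfold avg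
      rw [smul_eq_mul]
    rw [s5]
    calc M⁻¹ * ∑ lam, ‖z lam‖ ^ 2
        ≤ M⁻¹ * ((C * M ^ (1 / 2 - 1 / q)) ^ 2 * ((Real.pi / 2) * (M * (G * rsq y)))) := by
          refine mul_le_mul_of_nonneg_left (s1.trans ?_) (by positivity)
          refine mul_le_mul_of_nonneg_left (s2.trans ?_) (by positivity)
          refine mul_le_mul_of_nonneg_left ?_ (by positivity)
          rw [s3]
          exact mul_le_mul_of_nonneg_left s4 hMpos.le
      _ = _ := by field_simp
  rw [h1]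
  have := H1.avg_mono h2
  rwa [H1.avg_const] at this

/-- Merging for `ℓ₂(Ω; Y)`, blocks of size a power of two, one constant. -/
theorem merge_pilp' {q C G : ℝ} (hC0 : 0 ≤ C) (hG0 : 0 ≤ G)
    (hC : ∀ (Λ : Type) [Fintype Λ] [DecidableEq Λ] (y : Λ → Y),
      ∑ l, ‖y l‖ ^ 2 ≤ (C * (Fintype.card Λ : ℝ) ^ (1 / 2 - 1 / q)) ^ 2 *
        avg fun σ : Λ → ℤˣ => ‖∑ l, sg (σ l) • y l‖ ^ 2)
    (hG : ∀ (ι : Type) [Fintype ι] [DecidableEq ι] (y : ι → Y), gsq y ≤ G * rsq y)
    (Ω : Type) [Fintype Ω] {n k : ℕ} (hn : n = 2 ^ L) :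
    Merge (C * √((Real.pi / 2) * G) * ((n : ℝ) ^ (1 / 2 - 1 / q)) ^ k) k n
      (PiLp 2 (fun _ : Ω => Y)) := by
  classical
  have hpi : 0 < Real.pi := Real.pi_pos
  intro y
  have hcard : Fintype.card (Fin n) = Fintype.card (Finset (Fin L)) := by simp [hn]
  obtain ⟨e⟩ : Nonempty (Fin n ≃ Finset (Fin L)) := Fintype.card_eq.1 hcard
  simp_rw [PiLp.norm_sq_eq_of_L2]
  rw [H1.avg_finsetSum, H1.avg_finsetSum, Finset.mul_sum]
  refine Finset.sum_le_sum fun ω _ => ?_
  have h := merge1 (K := Fin k) (L := L) (q := q) hC hG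
    (fun i : Fin k → Finset (Fin L) => y (fun l => e.symm (i l)) ω)
  have hM : (Fintype.card (Fin k → Fin L → ℤˣ) : ℝ) = (n : ℝ) ^ k := by
    rw [hn]
    simp
  have hn0 : (0 : ℝ) ≤ n := Nat.cast_nonneg n
  have hc : (C * ((Fintype.card (Fin k → Fin L → ℤˣ) : ℝ)) ^ (1 / 2 - 1 / q)) ^ 2 *
      ((Real.pi / 2) * G) =
      (C * √((Real.pi / 2) * G) * ((n : ℝ) ^ (1 / 2 - 1 / q)) ^ k) ^ 2 := by
    rw [hM, mul_pow _ _ 2, mul_pow _ _ 2, mul_pow _ _ 2,
      Real.sq_sqrt (mul_nonneg (by positivity) hG0)]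
    have : ((n : ℝ) ^ k) ^ (1 / 2 - 1 / q) = ((n : ℝ) ^ (1 / 2 - 1 / q)) ^ k := by
      rw [← Real.rpow_natCast, ← Real.rpow_mul hn0, mul_comm, Real.rpow_mul hn0, Real.rpow_natCast]
    rw [this]
    ring
  rw [hc] at h
  have hr : rsq (fun i : Fin k → Finset (Fin L) => y (fun l => e.symm (i l)) ω) =
      avg fun θ : (Fin k → Fin n) → ℤˣ => ‖(∑ i, sg (θ i) • y i) ω‖ ^ 2 := by
    have h1 := H1.rsq_equiv (Equiv.arrowCongr (Equiv.refl (Fin k)) e.symm)
      (fun i : Fin k → Fin n => y i ω)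
    have h2 : rsq (fun i : Fin k → Fin n => y i ω) =
        avg fun θ : (Fin k → Fin n) → ℤˣ => ‖(∑ i, sg (θ i) • y i) ω‖ ^ 2 := by
      unfold rsq
      refine H1.avg_congr fun θ => ?_
      simp
    rw [← h2, ← h1]
    rfl
  have hl : avg (fun ω' : Fin k → Finset (Fin L) → ℤˣ =>
      ‖∑ i : Fin k → Finset (Fin L), ww i ω' • y (fun l => e.symm (i l)) ω‖ ^ 2) =
      avg fun η : Fin k → Fin n → ℤˣ => ‖(∑ i, (∏ l, sg (η l (i l))) • y i) ω‖ ^ 2 := by
    rw [← H1.avg_equiv (Equiv.arrowCongr (Equiv.refl (Fin k))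
      (Equiv.arrowCongr e.symm (Equiv.refl ℤˣ)))]
    refine H1.avg_congr fun η => ?_
    congr 2
    rw [← Equiv.sum_comp (Equiv.arrowCongr (Equiv.refl (Fin k)) e.symm)]
    simp only [ww, WithLp.ofLp_sum, WithLp.ofLp_smul, Finset.sum_apply, Pi.smul_apply]
    refine Finset.sum_congr rfl fun i _ => ?_
    simp [Function.comp_def]
    rfl
  rw [← hl, ← hr]
  exact h

end merge1

end Vale.Agent.P111.H571
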