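import Vale.Agent.P111.R2.H571.Riesz
import Vale.Agent.P111.R2.H571.Merge1

/-! The logarithmic bound above the line. -/

set_option linter.unusedSectionVars false

namespace Vale.Agent.P111.H571

open Finset

section

variable {X Y : Type*} [NormedAddCommGroup X] [NormedSpace ℝ X] [NormedAddCommGroup Y]
  [NormedSpace ℝ Y] {V : X →L[ℝ] Y} {I : Type} [Fintype I] [DecidableEq I]

theorem bd_tau_of_card' {κ b B : ℝ} {D : ℕ} (hκ : 0 ≤ κ) (hb : 1 ≤ b) (hD : 1 ≤ D) (hB : 2 ≤ B)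
    (hκB : κ ≤ B ^ D) {J : Finset I} {v : Finset I → ℝ} (hv : Bd V v 1)
    (hcard : ∀ k : ℕ, k ≠ 0 →
      Bd V (fun S => (if #(S ∩ J) = k then 1 else 0) * v S) (κ * b ^ k)) :
    Bd V (fun S => tau #(S ∩ J) * v S) (2 * D * B * b) := by
  have hbB : 0 < b * B := by nlinarith
  have hbB1 : 1 ≤ b * B := by nlinarith
  obtain ⟨m, γ, ρ, hρ, hγ, h1, h0, hlarge⟩ := interp' D hD (1 / (b * B)) (by positivity)
    (by rw [div_le_one hbB]; exact hbB1)
  set α : ℕ → ℝ := fun k => ∑ j, γ j * ρ j ^ k with hα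
  have ha : Bd V (fun S => ∑ j, γ j * (ρ j ^ #(S ∩ J) * v S)) (∑ j, |γ j| * 1) :=
    Bd.sum Finset.univ fun j _ => (hv.mul_pow J (ρ j) (hρ j)).smul (γ j)
  have hb' : Bd V (fun S => ∑ k ∈ Finset.Ico (D + 1) (Fintype.card I + 1),
      (-α k) * ((if #(S ∩ J) = k then 1 else 0) * v S))
      (∑ k ∈ Finset.Ico (D + 1) (Fintype.card I + 1), |-α k| * (κ * b ^ k)) := by
    apply Bd.sum
    intro k hk
    rw [Finset.mem_Ico] at hk
    exact (hcard k (by omega)).smul _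
  refine ((ha.add hb').congr ?_).mono ?_
  · intro S
    have e1 : ∑ j, γ j * (ρ j ^ #(S ∩ J) * v S) = α #(S ∩ J) * v S := by
      simp only [hα, Finset.sum_mul, mul_assoc]
    have e2 : ∑ k ∈ Finset.Ico (D + 1) (Fintype.card I + 1),
        (-α k) * ((if #(S ∩ J) = k then 1 else 0) * v S) =
        if D < #(S ∩ J) then - α #(S ∩ J) * v S else 0 := by
      have e3 : ∀ k, (-α k) * ((if #(S ∩ J) = k then (1:ℝ) else 0) * v S) =
          if #(S ∩ J) = k then (-α k) * v S else 0 := by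
        intro k
        split_ifs <;> ring
      simp only [e3]
      rw [Finset.sum_ite_eq]
      have e4 : #(S ∩ J) ≤ Fintype.card I := Finset.card_le_univ _
      by_cases hlt : D < #(S ∩ J)
      · rw [if_pos (Finset.mem_Ico.mpr ⟨by omega, by omega⟩), if_pos hlt]
      · rw [if_neg (fun hc => hlt (by rw [Finset.mem_Ico] at hc; omega)), if_neg hlt]
    rw [e1, e2]
    split_ifs with h4
    · rw [tau_of_ne (by omega)]
      ring
    · rw [add_zero]
      congr 1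
      by_cases h5 : #(S ∩ J) = 1
      · rw [h5, tau_one]
        exact h1.symm
      · rw [tau_of_ne h5]
        exact (h0 _ (by omega) h5).symm
  · have e1 : ∑ j, |γ j| * 1 ≤ D * (b * B) := by
      simp only [mul_one]
      refine hγ.trans (le_of_eq ?_)
      field_simp
    have hB0 : (0:ℝ) < B := by linarith
    have hb0 : (0:ℝ) < b := by linarith
    have e2 : ∑ k ∈ Finset.Ico (D + 1) (Fintype.card I + 1), |-α k| * (κ * b ^ k) ≤
        ∑ k ∈ Finset.Ico (D + 1) (Fintype.card I + 1), D * κ * b * (1 / B) ^ (k - 1) := by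
      apply Finset.sum_le_sum
      intro k hk
      rw [Finset.mem_Ico] at hk
      rw [abs_neg]
      have e3 := hlarge k (by omega)
      obtain ⟨k', rfl⟩ : ∃ k', k = k' + 1 := ⟨k - 1, by omega⟩
      rw [Nat.add_sub_cancel] at e3 ⊢
      calc |α (k' + 1)| * (κ * b ^ (k' + 1))
          ≤ (D * (1 / (b * B)) ^ k') * (κ * b ^ (k' + 1)) := by gcongr
        _ = D * κ * b * (((1 / (b * B)) * b) ^ k') := by rw [mul_pow]; ring
        _ = _ := by
            congr 2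
            field_simp
    have e4 : ∑ k ∈ Finset.Ico (D + 1) (Fintype.card I + 1), (1 / B) ^ (k - 1) ≤
        B * (1 / B) ^ D := by
      have e5 : ∑ k ∈ Finset.Ico (D + 1) (Fintype.card I + 1), (1 / B) ^ (k - 1) =
          ∑ k ∈ Finset.Ico D (Fintype.card I), (1 / B) ^ k := by
        rw [← Finset.sum_Ico_add' (fun k => (1 / B) ^ (k - 1)) D (Fintype.card I) 1]
        simp only [Nat.add_sub_cancel]
      rw [e5]
      have hB1 : 1 / B < 1 := by rw [div_lt_one hB0]; linarith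
      refine (geom_sum_Ico_le_of_lt_one (by positivity) hB1).trans ?_
      have e6 : 1 / B ≤ 1 / 2 := one_div_le_one_div_of_le (by norm_num) hB
      rw [div_le_iff₀ (by linarith)]
      have e7 : 1 ≤ B * (1 - 1 / B) := by
        have : B * (1 - 1 / B) = B - 1 := by field_simp
        rw [this]; linarith
      have e8 : 0 ≤ (1 / B) ^ D := by positivity
      nlinarith
    have e9 : D * κ * b * (B * (1 / B) ^ D) ≤ D * (b * B) := by
      have e10 : κ * (1 / B) ^ D ≤ 1 := by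
        rw [one_div, inv_pow, ← div_eq_mul_inv, div_le_one (by positivity)]
        exact hκB
      calc D * κ * b * (B * (1 / B) ^ D) = D * (b * B) * (κ * (1 / B) ^ D) := by ring
        _ ≤ D * (b * B) * 1 := by gcongr
        _ = _ := mul_one _
    rw [← Finset.mul_sum] at e2
    have e11 : 0 ≤ D * κ * b := by positivity
    have e12 := mul_le_mul_of_nonneg_left e4 e11
    have : 2 * D * B * b = D * (b * B) + D * (b * B) := by ring
    rw [this]
    linarith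

/-- One step of the iteration, with single constants. -/
theorem next' {q r Q Q' κ : ℝ} (hq : 2 ≤ q) (hr : 2 ≤ r) (hQ : 1 ≤ Q) (hQ' : 1 ≤ Q')
    (hY : ∀ (Ω : Type) [Fintype Ω] (L n k : ℕ), n = 2 ^ L →
      Merge (Q * ((n : ℝ) ^ (1 / 2 - 1 / q)) ^ k) k n (PiLp 2 (fun _ : Ω => Y)))
    (hX : ∀ (Ω : Type) [Fintype Ω] (L n k : ℕ), n = 2 ^ L →
      Merge (Q' * ((n : ℝ) ^ (1 / 2 - 1 / r)) ^ k) k n (PiLp 2 (fun _ : Ω => X →L[ℝ] ℝ)))
    (h : PP V κ) (hκ : 1 ≤ κ) {L D : ℕ} {B : ℝ}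
    (hD : 1 ≤ D) (hB : 2 ≤ B) (hκB : κ * (Q * Q') ≤ B ^ D) :
    PP V (2 * D * B * (Real.exp 1 * ((2 : ℝ) ^ L) ^ (1 - 1 / q - 1 / r)) +
      12 * √3 * Real.exp 1 ^ 2 * κ ^ 2 / √((2 : ℝ) ^ L)) := by
  set n : ℕ := 2 ^ L with hn
  have hnr : ((2 : ℝ) ^ L) = (n : ℝ) := by rw [hn]; push_cast; rfl
  rw [hnr]
  have hn1 : 1 ≤ n := Nat.one_le_two_pow
  have hn0 : (1:ℝ) ≤ n := by exact_mod_cast hn1
  have hκ0 : 0 ≤ κ := by linarith
  have hs : 0 ≤ 1 / 2 - 1 / q := by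
    have : 1 / q ≤ 1 / 2 := one_div_le_one_div_of_le (by norm_num) hq
    linarith
  have ht : 0 ≤ 1 / 2 - 1 / r := by
    have : 1 / r ≤ 1 / 2 := one_div_le_one_div_of_le (by norm_num) hr
    linarith
  have hnst : 1 ≤ (n : ℝ) ^ (1 - 1 / q - 1 / r) := Real.one_le_rpow hn0 (by linarith)
  have he : 1 ≤ Real.exp 1 := Real.one_le_exp (by norm_num)
  have hQQ : 1 ≤ Q * Q' := one_le_mul_of_one_le_of_one_le hQ hQ'
  have hb : 1 ≤ Real.exp 1 * (n : ℝ) ^ (1 - 1 / q - 1 / r) :=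
    one_le_mul_of_one_le_of_one_le he hnst
  apply h.step (by omega) hκ (by positivity)
  intro I _ _ J v hJ hv
  apply bd_tau_of_card' (κ := κ * (Q * Q')) (by positivity) hb hD hB hκB hv.bd
  intro k hk
  have h1 := bd_card_eq_of_prod (V := V) hk J v (fun c => h.chaos hκ0 (by positivity)
    (by positivity) (by omega) (hY (I → ℤˣ) L n k hn) (hX (I → ℤˣ) L n k hn) hv.abs_le hv.bd J hJ c)
    (by positivity)
  refine h1.mono (le_of_eq ?_)
  have e1 : (n : ℝ) ^ (1 - 1 / q - 1 / r) = (n : ℝ) ^ (1 / 2 - 1 / q) * (n : ℝ) ^ (1 / 2 - 1 / r) := by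
    rw [← Real.rpow_add (by linarith)]
    congr 1
    ring
  rw [e1]
  simp only [mul_pow]
  ring

end

/-- Solving the recursion. -/
theorem endgame' {σ W : ℝ} (hσ0 : 0 ≤ σ) (hσ1 : σ < 1 / 2) (hW : 1 ≤ W) (P : ℝ → Prop)
    (hmono : ∀ a b, a ≤ b → P a → P b) (hclosed : ∀ a, (∀ b, a < b → P b) → P a)
    (hR : ∃ R, P R)
    (hstep : ∀ κ, 1 ≤ κ → P κ → ∀ (L D : ℕ) (B : ℝ), 1 ≤ D → 2 ≤ B → κ * W ≤ B ^ D →
        P (2 * D * B * (Real.exp 1 * ((2 : ℝ) ^ L) ^ σ) +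
          12 * √3 * Real.exp 1 ^ 2 * κ ^ 2 / √((2 : ℝ) ^ L))) :
    P ((max (8 * Real.exp 1 ^ 2 * (2 * (24 * √3 * Real.exp 1 ^ 2) ^ 2) ^ σ)
        ((16 * Real.exp 1 ^ 2 * (2 * (24 * √3 * Real.exp 1 ^ 2) ^ 2) ^ σ / (1 - 2 * σ)) ^ 2) *
          (1 + Real.log W)) ^ (1 / (1 - 2 * σ))) := by
  set E : ℝ := 24 * √3 * Real.exp 1 ^ 2 with hE
  have he1 : 1 ≤ Real.exp 1 := Real.one_le_exp (by norm_num)
  have he2 : 2 ≤ Real.exp 1 := by
    have := Real.add_one_le_exp (1 : ℝ)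
    linarith
  have hE1 : 1 ≤ E := by
    have h1 : 1 ≤ √3 := by
      rw [Real.one_le_sqrt]; norm_num
    have h3 : 1 ≤ Real.exp 1 ^ 2 := one_le_pow₀ he1
    have h4 : 1 ≤ √3 * Real.exp 1 ^ 2 := one_le_mul_of_one_le_of_one_le h1 h3
    rw [hE, mul_assoc]
    linarith
  set θ : ℝ := 1 - 2 * σ with hθ
  have hθ0 : 0 < θ := by linarith
  have hθ1 : θ ≤ 1 := by linarith
  set H : ℝ := 4 * Real.exp 1 ^ 2 * (2 * E ^ 2) ^ σ with hH
  have hEσ : 1 ≤ (2 * E ^ 2) ^ σ := by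
    apply Real.one_le_rpow _ hσ0
    have : 1 ≤ E ^ 2 := one_le_pow₀ hE1
    linarith
  have hH1 : 1 ≤ H := by
    have h3 : 1 ≤ Real.exp 1 ^ 2 := one_le_pow₀ he1
    rw [hH, mul_assoc]
    have := one_le_mul_of_one_le_of_one_le h3 hEσ
    linarith
  have hlW : 0 ≤ Real.log W := Real.log_nonneg hW
  have e8 : 8 * Real.exp 1 ^ 2 * (2 * E ^ 2) ^ σ = 2 * H := by rw [hH]; ring
  have e16 : 16 * Real.exp 1 ^ 2 * (2 * E ^ 2) ^ σ / θ = 4 * H / θ := by rw [hH]; ring
  rw [e8, e16]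
  set T : ℝ := max (2 * H) ((4 * H / θ) ^ 2) * (1 + Real.log W) with hT
  have hT1 : 1 ≤ T := by
    rw [hT]
    apply one_le_mul_of_one_le_of_one_le
    · exact le_max_of_le_left (by linarith)
    · linarith
  set S : Set ℝ := {κ | 1 ≤ κ ∧ P κ} with hS
  have hSne : S.Nonempty := by
    obtain ⟨R, hR⟩ := hR
    exact ⟨max 1 R, le_max_left _ _, hmono _ _ (le_max_right _ _) hR⟩
  have hSbdd : BddBelow S := ⟨1, fun x hx => hx.1⟩
  set κ : ℝ := sInf S with hκ
  have hκ1 : 1 ≤ κ := le_csInf hSne fun x hx => hx.1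
  have hPκ : P κ := by
    refine hclosed _ fun b hb => ?_
    obtain ⟨a, ha, hab⟩ := exists_lt_of_csInf_lt hSne hb
    exact hmono _ _ hab.le ha.2
  have hκle : ∀ t, P t → κ ≤ max 1 t := fun t ht =>
    csInf_le hSbdd ⟨le_max_left _ _, hmono _ _ (le_max_right _ _) ht⟩
  have hκ0 : 0 < κ := by linarith
  -- choose L
  have hx : 1 ≤ (E * κ) ^ 2 := one_le_pow₀ (one_le_mul_of_one_le_of_one_le hE1 hκ1)
  obtain ⟨n, hn1, hn2⟩ := exists_nat_pow_near hx (by norm_num : (1 : ℝ) < 2)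
  have hL2 : (2 : ℝ) ^ (n + 1) ≤ 2 * (E * κ) ^ 2 := by
    rw [pow_succ]; linarith
  -- choose D
  have hy1 : 1 ≤ κ * W := one_le_mul_of_one_le_of_one_le hκ1 hW
  obtain ⟨d, hd1, hd2⟩ := exists_nat_pow_near hy1 (by linarith : (1 : ℝ) < Real.exp 1)
  have h1 := hκle _ (hstep κ hκ1 hPκ (n + 1) (d + 1) (Real.exp 1) (by omega) he2 hd2.le)
  -- bound the second term
  have hT2 : 12 * √3 * Real.exp 1 ^ 2 * κ ^ 2 / √((2 : ℝ) ^ (n + 1)) ≤ κ / 2 := by
    have h2 : E * κ ≤ √((2 : ℝ) ^ (n + 1)) := by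
      apply Real.le_sqrt_of_sq_le
      exact hn2.le
    have h3 : 0 < √((2 : ℝ) ^ (n + 1)) := by positivity
    rw [div_le_iff₀ h3]
    calc 12 * √3 * Real.exp 1 ^ 2 * κ ^ 2 = κ / 2 * (E * κ) := by rw [hE]; ring
      _ ≤ _ := by gcongr
  -- bound D
  have hd : (d : ℝ) ≤ Real.log κ + Real.log W := by
    rw [← Real.log_mul hκ0.ne' (by linarith)]
    rw [Real.le_log_iff_exp_le (by positivity)]
    calc Real.exp (d : ℝ) = Real.exp 1 ^ d := by rw [← Real.exp_nat_mul, mul_one]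
      _ ≤ κ * W := hd1
  have hlκ : Real.log κ ≤ 2 / θ * κ ^ (θ / 2) := by
    have h2 := Real.log_le_rpow_div hκ0.le (by linarith : 0 < θ / 2)
    calc Real.log κ ≤ κ ^ (θ / 2) / (θ / 2) := h2
      _ = _ := by field_simp
  have h6 : ((2 : ℝ) ^ (n + 1)) ^ σ ≤ (2 * E ^ 2) ^ σ * κ ^ (2 * σ) := by
    calc ((2 : ℝ) ^ (n + 1)) ^ σ ≤ (2 * (E * κ) ^ 2) ^ σ := by
          apply Real.rpow_le_rpow (by positivity) hL2 hσ0
      _ = (2 * E ^ 2 * κ ^ 2) ^ σ := by congr 1; ring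
      _ = (2 * E ^ 2) ^ σ * (κ ^ 2) ^ σ := by
          rw [Real.mul_rpow (by positivity) (by positivity)]
      _ = (2 * E ^ 2) ^ σ * κ ^ (2 * σ) := by
          congr 1
          rw [← Real.rpow_natCast, ← Real.rpow_mul (by positivity)]
          norm_num
  have h11 : κ ≤ T ^ (1 / θ) := by
    have hT' : 1 ≤ T ^ (1 / θ) := Real.one_le_rpow hT1 (by positivity)
    rcases le_max_iff.1 h1 with h9 | h9
    · exact h9.trans hT'
    push_cast at h9
    have h10 : κ ≤ 2 * (2 * ((d : ℝ) + 1) * Real.exp 1 *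
        (Real.exp 1 * ((2 : ℝ) ^ (n + 1)) ^ σ)) := by linarith
    have h12 : κ ≤ (H * (1 + Real.log W + 2 / θ * κ ^ (θ / 2))) * κ ^ (2 * σ) := by
      calc κ ≤ 2 * (2 * ((d : ℝ) + 1) * Real.exp 1 *
            (Real.exp 1 * ((2 : ℝ) ^ (n + 1)) ^ σ)) := h10
        _ ≤ 2 * (2 * (1 + Real.log W + 2 / θ * κ ^ (θ / 2)) * Real.exp 1 *
            (Real.exp 1 * ((2 * E ^ 2) ^ σ * κ ^ (2 * σ)))) := by
            have : (d : ℝ) + 1 ≤ 1 + Real.log W + 2 / θ * κ ^ (θ / 2) := by linarith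
            gcongr
        _ = _ := by rw [hH]; ring
    have h13 : κ ^ θ ≤ H * (1 + Real.log W + 2 / θ * κ ^ (θ / 2)) := by
      have h14 : κ = κ ^ θ * κ ^ (2 * σ) := by
        rw [← Real.rpow_add hκ0, hθ]; simp
      have h15 : 0 < κ ^ (2 * σ) := Real.rpow_pos_of_pos hκ0 _
      have h16 : κ ^ θ * κ ^ (2 * σ) ≤ (H * (1 + Real.log W + 2 / θ * κ ^ (θ / 2))) * κ ^ (2 * σ) := by
        rw [← h14]; exact h12
      exact le_of_mul_le_mul_right h16 h15
    have h17 : κ ^ θ ≤ T := by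
      set u : ℝ := κ ^ (θ / 2) with hu
      have hu0 : 0 < u := Real.rpow_pos_of_pos hκ0 _
      have huu : κ ^ θ = u * u := by
        rw [hu, ← Real.rpow_add hκ0]; congr 1; ring
      rw [huu] at h13 ⊢
      rcases le_or_gt u (4 * H / θ) with hc | hc
      · calc u * u ≤ (4 * H / θ) * (4 * H / θ) := by gcongr
          _ = (4 * H / θ) ^ 2 * 1 := by ring
          _ ≤ T := by
              rw [hT]
              gcongr
              · exact le_max_right _ _
              · linarith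
      · have h18 : H * (2 / θ * u) ≤ u * u / 2 := by
          have : H * (2 / θ) ≤ u / 2 := by
            have e : H * (2 / θ) = (4 * H / θ) / 2 := by ring
            rw [e]; linarith
          calc H * (2 / θ * u) = (H * (2 / θ)) * u := by ring
            _ ≤ (u / 2) * u := by gcongr
            _ = _ := by ring
        have h19 : u * u ≤ 2 * H * (1 + Real.log W) := by nlinarith
        refine h19.trans ?_
        rw [hT]
        gcongr
        exact le_max_left _ _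
    calc κ = (κ ^ θ) ^ (1 / θ) := by
          rw [← Real.rpow_mul hκ0.le, mul_one_div, div_self hθ0.ne', Real.rpow_one]
      _ ≤ T ^ (1 / θ) := Real.rpow_le_rpow (by positivity) h17 (by positivity)
  exact hmono _ _ h11 hPκ

/-- The bound for finite rank operators. -/
theorem log_bound {q r : ℝ} (hq : 2 ≤ q) (hr : 2 ≤ r) (hqr : 1 / 2 < 1 / q + 1 / r) :
    ∃ A : ℝ, 1 ≤ A ∧ ∀ (X Y : Type*) [NormedAddCommGroup X] [NormedSpace ℝ X]
      [NormedAddCommGroup Y] [NormedSpace ℝ Y] (c d : ℝ), 1 ≤ c → 1 ≤ d →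
      CotypeWith q c Y → CotypeWith r d (X →L[ℝ] ℝ) →
      ∀ V : X →L[ℝ] Y, FiniteDimensional ℝ (LinearMap.range (V : X →ₗ[ℝ] Y)) →
        ‖V‖ ≤ 1 → PP V (A * (1 + Real.log (c * d)) ^ (1 / (2 / q + 2 / r - 1))) := by
  set σ : ℝ := 1 - 1 / q - 1 / r with hσ
  have hs : 1 / q ≤ 1 / 2 := one_div_le_one_div_of_le (by norm_num) hq
  have ht : 1 / r ≤ 1 / 2 := one_div_le_one_div_of_le (by norm_num) hr
  have hσ0 : 0 ≤ σ := by linarith
  have hσ1 : σ < 1 / 2 := by linarith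
  have hθ : 1 - 2 * σ = 2 / q + 2 / r - 1 := by rw [hσ]; ring
  have hθ0 : 0 < 1 - 2 * σ := by linarith
  set U : ℝ := max (8 * Real.exp 1 ^ 2 * (2 * (24 * √3 * Real.exp 1 ^ 2) ^ 2) ^ σ)
        ((16 * Real.exp 1 ^ 2 * (2 * (24 * √3 * Real.exp 1 ^ 2) ^ 2) ^ σ / (1 - 2 * σ)) ^ 2)
    with hU
  have hpi : 0 < Real.pi := Real.pi_pos
  have hpi2 : 1 ≤ Real.pi / 2 := by
    have := Real.two_le_pi
    linarith
  set W0 : ℝ := √((Real.pi / 2) * gq q) * √((Real.pi / 2) * gq r) with hW0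
  have hg1 := gq_one_le hq
  have hg2 := gq_one_le hr
  have hw1 : 1 ≤ √((Real.pi / 2) * gq q) := by
    rw [Real.one_le_sqrt]; exact one_le_mul_of_one_le_of_one_le hpi2 hg1
  have hw2 : 1 ≤ √((Real.pi / 2) * gq r) := by
    rw [Real.one_le_sqrt]; exact one_le_mul_of_one_le_of_one_le hpi2 hg2
  have hW01 : 1 ≤ W0 := one_le_mul_of_one_le_of_one_le hw1 hw2
  have hlW0 : 0 ≤ Real.log W0 := Real.log_nonneg hW01
  have hU0 : 0 ≤ U := le_max_of_le_left (by positivity)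
  refine ⟨max 1 ((U * (2 + Real.log W0)) ^ (1 / (1 - 2 * σ))), le_max_left _ _, ?_⟩
  intro X Y _ _ _ _ c d hc hd hY hX V hVf hV1
  rw [← hθ]
  have hcY := cotype_l2' hq hY
  have hcX := cotype_l2' hr hX
  have hgY := gsq_le_rsq' hq hcY
  have hgX := gsq_le_rsq' hr hcX
  set Q : ℝ := c * √((Real.pi / 2) * (gq q * c ^ 2)) with hQ
  set Q' : ℝ := d * √((Real.pi / 2) * (gq r * d ^ 2)) with hQ'
  have hQe : Q = c ^ 2 * √((Real.pi / 2) * gq q) := by
    have : (Real.pi / 2) * (gq q * c ^ 2) = c ^ 2 * ((Real.pi / 2) * gq q) := by ring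
    rw [hQ, this, Real.sqrt_mul (by positivity), Real.sqrt_sq (by linarith)]
    ring
  have hQe' : Q' = d ^ 2 * √((Real.pi / 2) * gq r) := by
    have : (Real.pi / 2) * (gq r * d ^ 2) = d ^ 2 * ((Real.pi / 2) * gq r) := by ring
    rw [hQ', this, Real.sqrt_mul (by positivity), Real.sqrt_sq (by linarith)]
    ring
  have hQ1 : 1 ≤ Q := by
    rw [hQe]; exact one_le_mul_of_one_le_of_one_le (one_le_pow₀ hc) hw1
  have hQ1' : 1 ≤ Q' := by
    rw [hQe']; exact one_le_mul_of_one_le_of_one_le (one_le_pow₀ hd) hw2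
  have hW1 : 1 ≤ Q * Q' := one_le_mul_of_one_le_of_one_le hQ1 hQ1'
  have key := endgame' hσ0 hσ1 hW1 (PP V)
    (fun a b hab ha I _ _ J v hv => (ha I J v hv).mono hab)
    (fun a ha I _ _ J v hv => bd_of_forall_gt fun b hb => ha b hb I J v hv)
    (by
      obtain ⟨R, hR0, hR⟩ := H1.finite_rank_bound V hVf
      refine ⟨R, ?_⟩
      intro I _ _ J v hv f g
      have := hR I (fun S => tau #(S ∩ J) * v S) (by
        intro S
        rw [abs_mul]
        exact mul_le_one₀ (abs_tau_le_one _) (abs_nonneg _) (hv.abs_le S)) f g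
      rw [mul_assoc] at this
      exact this)
    (by
      intro κ hκ hP L D B hD hB hκB
      exact next' hq hr hQ1 hQ1'
        (fun Ω _ L n k hn => merge_pilp' (by linarith) (by positivity) hcY hgY Ω hn)
        (fun Ω _ L n k hn => merge_pilp' (by linarith) (by positivity) hcX hgX Ω hn)
        hP hκ hD hB hκB)
  rw [← hU] at key
  have hcd : 1 ≤ c * d := one_le_mul_of_one_le_of_one_le hc hd
  have hlcd : 0 ≤ Real.log (c * d) := Real.log_nonneg hcd
  have hlog : 1 + Real.log (Q * Q') ≤ (2 + Real.log W0) * (1 + Real.log (c * d)) := by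
    have e1 : Q * Q' = (c * d) ^ 2 * W0 := by rw [hQe, hQe', hW0]; ring
    rw [e1, Real.log_mul (by positivity) (by linarith), Real.log_pow]
    push_cast
    nlinarith
  have hfin : (U * (1 + Real.log (Q * Q'))) ^ (1 / (1 - 2 * σ)) ≤
      max 1 ((U * (2 + Real.log W0)) ^ (1 / (1 - 2 * σ))) *
        (1 + Real.log (c * d)) ^ (1 / (1 - 2 * σ)) := by
    have hlQ : 0 ≤ Real.log (Q * Q') := Real.log_nonneg hW1
    calc (U * (1 + Real.log (Q * Q'))) ^ (1 / (1 - 2 * σ))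
        ≤ (U * ((2 + Real.log W0) * (1 + Real.log (c * d)))) ^ (1 / (1 - 2 * σ)) := by
          apply Real.rpow_le_rpow (by positivity) _ (by positivity)
          gcongr
      _ = (U * (2 + Real.log W0)) ^ (1 / (1 - 2 * σ)) *
            (1 + Real.log (c * d)) ^ (1 / (1 - 2 * σ)) := by
          rw [← mul_assoc, Real.mul_rpow (by positivity) (by positivity)]
      _ ≤ _ := by
          gcongr
          exact le_max_right _ _
  exact fun I _ _ J v hv => (key I J v hv).mono hfin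

end Vale.Agent.P111.H571
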