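import Vale.Agent.P111.R2.H571.Improve
import Vale.Agent.P111.R2.H571.Bap

/-! The linear bound in the logarithm above the line. -/

set_option linter.unusedSectionVars false

namespace Vale.Agent.P111.H571

open Finset

/-- The best constant satisfies a linear bound. -/
theorem endgame2 {σ W : ℝ} {n : ℕ} (hn1 : 1 ≤ n) (hn : 4056192 ≤ (n : ℝ) ^ (1 / 2 - σ))
    (hW : 1 ≤ W) (P : ℝ → Prop)
    (hmono : ∀ a b, a ≤ b → P a → P b) (hclosed : ∀ a, (∀ b, a < b → P b) → P a)
    (hR : ∃ R, P R)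
    (hstep : ∀ κ, 1 ≤ κ → P κ → ∀ (k L : ℕ) (R p : ℝ), 2 ≤ k → 1 ≤ L → 0 < p →
        k * n * p ≤ 1 → n * (p ^ 2 * (L : ℝ) ^ 2) ≤ 1 / 2 → 0 < R →
        κ * (W * ((n : ℝ) ^ σ) ^ k) ≤ R ^ k →
        P (4 * (2 * Real.exp 1 * (2 * R / (n * p)) + 55 * κ ^ 2 * (Real.pi / (L + 1))))) :
    P (√n * (2 + Real.log √n) * (1 + Real.log W)) := by
  have hn1' : (1 : ℝ) ≤ n := by exact_mod_cast hn1
  set s : ℝ := √n with hs
  have hs1 : 1 ≤ s := by rw [hs, Real.one_le_sqrt]; exact hn1'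
  have hss : s * s = n := Real.mul_self_sqrt (by linarith)
  have hls : 0 ≤ Real.log s := Real.log_nonneg hs1
  have hlW : 0 ≤ Real.log W := Real.log_nonneg hW
  have hA1 : 1 ≤ s * (2 + Real.log s) * (1 + Real.log W) := by
    refine one_le_mul_of_one_le_of_one_le (one_le_mul_of_one_le_of_one_le hs1 ?_) ?_ <;> linarith
  have he0 := Real.exp_pos 1
  have he1 := Real.exp_one_lt_d9
  set S : Set ℝ := {κ | 1 ≤ κ ∧ P κ} with hS
  have hSne : S.Nonempty := by
    obtain ⟨R, hR⟩ := hR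
    exact ⟨max 1 R, le_max_left _ _, hmono _ _ (le_max_right _ _) hR⟩
  have hSbdd : BddBelow S := ⟨1, fun x hx => hx.1⟩
  set κ : ℝ := sInf S with hκ
  have hκ1 : 1 ≤ κ := le_csInf hSne fun x hx => hx.1
  have hPκ : P κ := by
    refine hclosed _ fun b hb => ?_
    obtain ⟨a, ha, hab⟩ := exists_lt_of_csInf_lt hSne hb
    exact hmono _ _ hab.le ha.2
  have hκle : ∀ t, P t → κ ≤ max 1 t := fun t ht =>
    csInf_le hSbdd ⟨le_max_left _ _, hmono _ _ (le_max_right _ _) ht⟩
  have hκ0 : 0 < κ := by linarith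
  have hlog : Real.log (κ * W) = Real.log κ + Real.log W :=
    Real.log_mul hκ0.ne' (by linarith)
  have hlκ : 0 ≤ Real.log κ := Real.log_nonneg hκ1
  refine hmono κ _ ?_ hPκ
  rcases le_or_gt (s * (Real.log (κ * W) + 2)) (7040 * κ) with hc | hc
  · -- the improvement applies
    set L : ℕ := ⌈3520 * κ⌉₊ with hL
    have hL1 : 3520 * κ ≤ L := Nat.le_ceil _
    have hL2 : (L : ℝ) ≤ 3521 * κ := by
      have := Nat.ceil_lt_add_one (by positivity : 0 ≤ 3520 * κ)
      rw [← hL] at this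
      linarith
    have hL3 : 1 ≤ L := by
      have : (1 : ℝ) ≤ L := by linarith
      exact_mod_cast this
    have hL0 : (0 : ℝ) < L := by linarith
    set k : ℕ := ⌊Real.log (κ * W)⌋₊ + 2 with hk
    have hlog0 : 0 ≤ Real.log (κ * W) := by rw [hlog]; linarith
    have hk1 : (k : ℝ) ≤ Real.log (κ * W) + 2 := by
      rw [hk]
      push_cast
      have := Nat.floor_le hlog0
      linarith
    have hk2 : Real.log (κ * W) ≤ k := by
      rw [hk]
      push_cast
      have := Nat.lt_floor_add_one (Real.log (κ * W))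
      linarith
    have h := hstep κ hκ1 hPκ k L (Real.exp 1 * (n : ℝ) ^ σ) (1 / (2 * L * s)) (by omega) hL3
      (by positivity) ?_ ?_ (by positivity) ?_
    · have h2 : 4 * (2 * Real.exp 1 * (2 * (Real.exp 1 * (n : ℝ) ^ σ) / (n * (1 / (2 * L * s)))) +
          55 * κ ^ 2 * (Real.pi / (L + 1))) ≤ κ / 2 := by
        have e1 : 4 * (2 * Real.exp 1 * (2 * (Real.exp 1 * (n : ℝ) ^ σ) /
            (n * (1 / (2 * L * s))))) = 32 * Real.exp 1 ^ 2 * L * ((n : ℝ) ^ σ / s) := by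
          rw [← hss]
          field_simp
          ring
        have e2 : (n : ℝ) ^ σ / s = 1 / (n : ℝ) ^ (1 / 2 - σ) := by
          rw [Real.rpow_sub (by linarith), ← Real.sqrt_eq_rpow, ← hs]
          field_simp
        have e3 : (n : ℝ) ^ σ / s ≤ 1 / 4056192 := by
          rw [e2]
          exact one_div_le_one_div_of_le (by norm_num) hn
        have e4 : Real.exp 1 ^ 2 ≤ 9 := by nlinarith
        have e5 : 32 * Real.exp 1 ^ 2 * L * ((n : ℝ) ^ σ / s) ≤ κ / 4 := by
          calc 32 * Real.exp 1 ^ 2 * L * ((n : ℝ) ^ σ / s)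
              ≤ 32 * 9 * (3521 * κ) * (1 / 4056192) := by gcongr
            _ = κ / 4 := by ring
        have e6 : 55 * κ ^ 2 * (Real.pi / (L + 1)) ≤ κ / 16 := by
          have h1 : Real.pi / (L + 1) ≤ 4 / (3520 * κ) := by
            apply div_le_div₀ (by norm_num) Real.pi_le_four (by positivity)
            linarith
          calc 55 * κ ^ 2 * (Real.pi / (L + 1)) ≤ 55 * κ ^ 2 * (4 / (3520 * κ)) := by gcongr
            _ = κ / 16 := by field_simp; ring
        rw [mul_add, e1]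
        linarith
      have h3 := hκle _ (hmono _ _ h2 h)
      rcases le_max_iff.1 h3 with h4 | h4
      · linarith
      · linarith
    · -- k n p ≤ 1
      have e1 : (k : ℝ) * n * (1 / (2 * L * s)) = k * s / (2 * L) := by
        rw [← hss]
        field_simp
      rw [e1, div_le_one (by positivity)]
      calc (k : ℝ) * s ≤ (Real.log (κ * W) + 2) * s := by gcongr
        _ ≤ 7040 * κ := by linarith
        _ ≤ 2 * L := by linarith
    · have e1 : (n : ℝ) * ((1 / (2 * L * s)) ^ 2 * (L : ℝ) ^ 2) = 1 / 4 := by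
        rw [← hss]
        field_simp
        norm_num
      rw [e1]
      norm_num
    · have e1 : κ * W ≤ Real.exp 1 ^ k := by
        rw [← Real.exp_nat_mul, mul_one]
        rwa [← Real.log_le_iff_le_exp (by positivity)]
      rw [mul_pow, ← mul_assoc]
      gcongr
  · have h1 : Real.log (κ / s) ≤ κ / s - 1 := Real.log_le_sub_one_of_pos (by positivity)
    rw [Real.log_div hκ0.ne' (by linarith)] at h1
    have h2 : s * Real.log κ ≤ κ + s * Real.log s := by
      have h3 : Real.log κ ≤ κ / s + Real.log s := by linarith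
      calc s * Real.log κ ≤ s * (κ / s + Real.log s) := by gcongr
        _ = κ + s * Real.log s := by field_simp
    rw [hlog] at hc
    have h4 : 7040 * κ < κ + s * (2 + Real.log s + Real.log W) := by nlinarith
    have h5 : s * (2 + Real.log s + Real.log W) ≤ s * (2 + Real.log s) * (1 + Real.log W) := by
      have : 0 ≤ s * ((1 + Real.log s) * Real.log W) := by positivity
      nlinarith
    nlinarith

theorem exists_block' {θ : ℝ} (hθ : 0 < θ) :
    ∃ l : ℕ, 4056192 ≤ (((2 ^ l : ℕ) : ℝ)) ^ θ ∧ (l : ℝ) ≤ 22 / θ + 1 := by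
  refine ⟨⌈22 / θ⌉₊, ?_, (Nat.ceil_lt_add_one (by positivity)).le⟩
  have h1 : 22 / θ ≤ (⌈22 / θ⌉₊ : ℝ) := Nat.le_ceil _
  have h2 : (22 : ℝ) ≤ ⌈22 / θ⌉₊ * θ := by
    rw [div_le_iff₀ hθ] at h1
    exact h1
  push_cast
  rw [← Real.rpow_natCast (2 : ℝ) ⌈22 / θ⌉₊, ← Real.rpow_mul (by norm_num)]
  calc (4056192 : ℝ) ≤ 2 ^ (22 : ℝ) := by norm_num
    _ ≤ 2 ^ ((⌈22 / θ⌉₊ : ℝ) * θ) := Real.rpow_le_rpow_of_exponent_le (by norm_num) h2

theorem log_gq_le {q : ℝ} (hq : 2 ≤ q) : Real.log (gq q) ≤ 2.7726 + 1.9219 * q := by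
  have hl1 := Real.log_two_gt_d9
  have hl2 := Real.log_two_lt_d9
  have h4 : Real.log 4 = 2 * Real.log 2 := by
    rw [show (4 : ℝ) = 2 ^ 2 by norm_num, Real.log_pow]
    norm_num
  have hq0 : (0 : ℝ) < q := by linarith
  unfold gq
  rw [Real.log_mul (by norm_num) (by positivity), Real.log_rpow (by positivity),
    Real.log_mul (by norm_num) (by positivity), Real.log_mul (by norm_num) (by positivity),
    Real.log_exp, h4]
  have h1 : 2 / q * (Real.log 2 + (Real.log 2 + (q * (2 * Real.log 2)) ^ 2 / 2)) =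
      (2 / q) * (2 * Real.log 2) + 4 * (Real.log 2 * Real.log 2) * q := by
    field_simp
    ring
  rw [h1]
  have h2 : 2 / q ≤ 1 := by rw [div_le_one hq0]; exact hq
  have h3 : 2 / q * (2 * Real.log 2) ≤ 1 * (2 * Real.log 2) := by
    apply mul_le_mul_of_nonneg_right h2
    linarith
  have h5 : 4 * (Real.log 2 * Real.log 2) * q ≤ 1.9219 * q := by
    apply mul_le_mul_of_nonneg_right _ hq0.le
    nlinarith
  linarith

theorem const_le {q r : ℝ} (hq : 2 ≤ q) (hr : 2 ≤ r) (hqr : 1 / 2 < 1 / q + 1 / r) {l : ℕ}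
    (hl : (l : ℝ) ≤ 22 / (1 / q + 1 / r - 1 / 2) + 1) :
    √(((2 ^ l : ℕ) : ℝ)) * (2 + Real.log √(((2 ^ l : ℕ) : ℝ))) *
      (2 + Real.log (√((Real.pi / 2) * gq q) * √((Real.pi / 2) * gq r))) ≤
      Real.exp (12 / (1 / q + 1 / r - 1 / 2)) := by
  set θ : ℝ := 1 / q + 1 / r - 1 / 2 with hθ
  have hθ0 : 0 < θ := by linarith
  have hs : 1 / q ≤ 1 / 2 := one_div_le_one_div_of_le (by norm_num) hq
  have ht : 1 / r ≤ 1 / 2 := one_div_le_one_div_of_le (by norm_num) hr
  have hq0 : 0 < q := by linarith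
  have hr0 : 0 < r := by linarith
  set x : ℝ := 1 / θ with hx
  have hx2 : 2 ≤ x := by
    rw [hx, le_div_iff₀ hθ0]
    linarith
  have hqx : q ≤ x := by
    rw [hx, le_div_iff₀ hθ0]
    have : q * (1 / q) = 1 := by field_simp
    nlinarith
  have hrx : r ≤ x := by
    rw [hx, le_div_iff₀ hθ0]
    have : r * (1 / r) = 1 := by field_simp
    nlinarith
  have e22 : 22 / θ = 22 * x := by rw [hx]; ring
  have e12 : 12 / θ = 12 * x := by rw [hx]; ring
  rw [e22] at hl
  rw [e12]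
  have hl1 := Real.log_two_gt_d9
  have hl2 := Real.log_two_lt_d9
  have hlog : Real.log √(((2 ^ l : ℕ) : ℝ)) = l * Real.log 2 / 2 := by
    rw [Real.log_sqrt (by positivity)]
    push_cast
    rw [Real.log_pow]
  have hlogle : Real.log √(((2 ^ l : ℕ) : ℝ)) ≤ 7.8 * x := by
    rw [hlog]
    have hl0 : (0 : ℝ) ≤ l := by positivity
    nlinarith
  have hsq : √(((2 ^ l : ℕ) : ℝ)) ≤ Real.exp (7.8 * x) := by
    rw [← Real.log_le_iff_le_exp (by positivity)]
    exact hlogle
  have hlog0 : 0 ≤ Real.log √(((2 ^ l : ℕ) : ℝ)) := by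
    rw [hlog]
    positivity
  have hpi := Real.pi_le_four
  have hpi0 := Real.pi_pos
  have hg1 := gq_one_le hq
  have hg2 := gq_one_le hr
  have hlpi : Real.log (Real.pi / 2) ≤ 0.6932 := by
    have : Real.log (Real.pi / 2) ≤ Real.log 2 :=
      Real.log_le_log (by positivity) (by linarith)
    linarith
  have hW : Real.log (√((Real.pi / 2) * gq q) * √((Real.pi / 2) * gq r)) ≤ 3.47 + 1.93 * x := by
    have hw1 : 0 < (Real.pi / 2) * gq q := by positivity
    have hw2 : 0 < (Real.pi / 2) * gq r := by positivity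
    rw [Real.log_mul (Real.sqrt_pos.2 hw1).ne' (Real.sqrt_pos.2 hw2).ne', Real.log_sqrt hw1.le,
      Real.log_sqrt hw2.le, Real.log_mul (by positivity) (by linarith),
      Real.log_mul (by positivity) (by linarith)]
    have h1 := log_gq_le hq
    have h2 := log_gq_le hr
    linarith
  have hpi2 : 1 ≤ Real.pi / 2 := by
    have := Real.two_le_pi
    linarith
  have hw1 : 1 ≤ √((Real.pi / 2) * gq q) := by
    rw [Real.one_le_sqrt]; exact one_le_mul_of_one_le_of_one_le hpi2 hg1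
  have hw2 : 1 ≤ √((Real.pi / 2) * gq r) := by
    rw [Real.one_le_sqrt]; exact one_le_mul_of_one_le_of_one_le hpi2 hg2
  have hlW0 : 0 ≤ Real.log (√((Real.pi / 2) * gq q) * √((Real.pi / 2) * gq r)) :=
    Real.log_nonneg (one_le_mul_of_one_le_of_one_le hw1 hw2)
  have h1 : 2 + Real.log √(((2 ^ l : ℕ) : ℝ)) ≤ 8.8 * x := by linarith
  have h2 : 2 + Real.log (√((Real.pi / 2) * gq q) * √((Real.pi / 2) * gq r)) ≤ 4.9 * x := by
    linarith
  have h3 : 3.8 * x ≤ Real.exp (1.4 * x) := by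
    have h4 := Real.add_one_le_exp (1.4 * x - 1)
    have h5 : Real.exp (1.4 * x) = Real.exp 1 * Real.exp (1.4 * x - 1) := by
      rw [← Real.exp_add]
      congr 1
      ring
    have h6 := Real.exp_one_gt_d9
    rw [h5]
    nlinarith
  calc √(((2 ^ l : ℕ) : ℝ)) * (2 + Real.log √(((2 ^ l : ℕ) : ℝ))) *
      (2 + Real.log (√((Real.pi / 2) * gq q) * √((Real.pi / 2) * gq r)))
      ≤ Real.exp (7.8 * x) * (8.8 * x) * (4.9 * x) := by
        gcongr
    _ ≤ Real.exp (7.8 * x) * ((3.8 * x) * (3.8 * x) * (3.8 * x)) := by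
        rw [mul_assoc]
        apply mul_le_mul_of_nonneg_left _ (Real.exp_pos _).le
        have h4 : 0 ≤ x ^ 2 * (x - 2) := mul_nonneg (sq_nonneg x) (by linarith)
        nlinarith
    _ ≤ Real.exp (7.8 * x) * (Real.exp (1.4 * x) * Real.exp (1.4 * x) * Real.exp (1.4 * x)) := by
        gcongr
    _ = Real.exp (12 * x) := by
        rw [← Real.exp_add, ← Real.exp_add, ← Real.exp_add]
        congr 1
        ring

/-- The bound for finite rank operators, linear in the logarithm. -/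
theorem log_bound2 (hlk : LKStatement) (hker : KerStatement) {q r : ℝ} (hq : 2 ≤ q) (hr : 2 ≤ r)
    (hqr : 1 / 2 < 1 / q + 1 / r) :
    ∀ (X Y : Type*) [NormedAddCommGroup X] [NormedSpace ℝ X]
      [NormedAddCommGroup Y] [NormedSpace ℝ Y] (c d : ℝ), 1 ≤ c → 1 ≤ d →
      CotypeWith q c Y → CotypeWith r d (X →L[ℝ] ℝ) →
      ∀ V : X →L[ℝ] Y, FiniteDimensional ℝ (LinearMap.range (V : X →ₗ[ℝ] Y)) →
        ‖V‖ ≤ 1 → PP V (Real.exp (12 / (1 / q + 1 / r - 1 / 2)) * (1 + Real.log (c * d))) := by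
  set σ : ℝ := 1 - 1 / q - 1 / r with hσ
  have hσ1 : 0 < 1 / 2 - σ := by linarith
  obtain ⟨l, hl, hl2⟩ := exists_block' hσ1
  have hσ2 : 1 / 2 - σ = 1 / q + 1 / r - 1 / 2 := by rw [hσ]; ring
  rw [hσ2] at hl2
  have hcon := const_le hq hr hqr hl2
  set n : ℕ := 2 ^ l with hnd
  have hn1 : 1 ≤ n := Nat.one_le_two_pow
  have hn1' : (1 : ℝ) ≤ n := by exact_mod_cast hn1
  have hs1 : 1 ≤ √(n : ℝ) := by rw [Real.one_le_sqrt]; exact hn1'
  have hls : 0 ≤ Real.log √(n : ℝ) := Real.log_nonneg hs1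
  have hpi : 0 < Real.pi := Real.pi_pos
  have hpi2 : 1 ≤ Real.pi / 2 := by
    have := Real.two_le_pi
    linarith
  set W0 : ℝ := √((Real.pi / 2) * gq q) * √((Real.pi / 2) * gq r) with hW0
  have hg1 := gq_one_le hq
  have hg2 := gq_one_le hr
  have hw1 : 1 ≤ √((Real.pi / 2) * gq q) := by
    rw [Real.one_le_sqrt]; exact one_le_mul_of_one_le_of_one_le hpi2 hg1
  have hw2 : 1 ≤ √((Real.pi / 2) * gq r) := by
    rw [Real.one_le_sqrt]; exact one_le_mul_of_one_le_of_one_le hpi2 hg2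
  have hW01 : 1 ≤ W0 := one_le_mul_of_one_le_of_one_le hw1 hw2
  have hlW0 : 0 ≤ Real.log W0 := Real.log_nonneg hW01
  intro X Y _ _ _ _ c d hc hd hY hX V hVf hV1
  have hcY := cotype_l2' hq hY
  have hcX := cotype_l2' hr hX
  have hgY := gsq_le_rsq' hq hcY
  have hgX := gsq_le_rsq' hr hcX
  set Q : ℝ := c * √((Real.pi / 2) * (gq q * c ^ 2)) with hQ
  set Q' : ℝ := d * √((Real.pi / 2) * (gq r * d ^ 2)) with hQ'
  have hQe : Q = c ^ 2 * √((Real.pi / 2) * gq q) := by
    have : (Real.pi / 2) * (gq q * c ^ 2) = c ^ 2 * ((Real.pi / 2) * gq q) := by ring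
    rw [hQ, this, Real.sqrt_mul (by positivity), Real.sqrt_sq (by linarith)]
    ring
  have hQe' : Q' = d ^ 2 * √((Real.pi / 2) * gq r) := by
    have : (Real.pi / 2) * (gq r * d ^ 2) = d ^ 2 * ((Real.pi / 2) * gq r) := by ring
    rw [hQ', this, Real.sqrt_mul (by positivity), Real.sqrt_sq (by linarith)]
    ring
  have hQ1 : 1 ≤ Q := by
    rw [hQe]; exact one_le_mul_of_one_le_of_one_le (one_le_pow₀ hc) hw1
  have hQ1' : 1 ≤ Q' := by
    rw [hQe']; exact one_le_mul_of_one_le_of_one_le (one_le_pow₀ hd) hw2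
  have hW1 : 1 ≤ Q * Q' := one_le_mul_of_one_le_of_one_le hQ1 hQ1'
  have key := endgame2 (σ := σ) hn1 hl hW1 (PP V)
    (fun a b hab ha I _ _ J v hv => (ha I J v hv).mono hab)
    (fun a ha I _ _ J v hv => bd_of_forall_gt fun b hb => ha b hb I J v hv)
    (by
      obtain ⟨R, hR0, hR⟩ := H1.finite_rank_bound V hVf
      refine ⟨R, ?_⟩
      intro I _ _ J v hv f g
      have := hR I (fun S => tau #(S ∩ J) * v S) (by
        intro S
        rw [abs_mul]
        exact mul_le_one₀ (abs_tau_le_one _) (abs_nonneg _) (hv.abs_le S)) f g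
      rw [mul_assoc] at this
      exact this)
    (by
      intro κ hκ hP k L R p hk hL hp hknp hε hR hRk
      refine improve hlk hker hP hκ hk hn1 hL
        (Q := Q * ((n : ℝ) ^ (1 / 2 - 1 / q)) ^ k) (Q' := Q' * ((n : ℝ) ^ (1 / 2 - 1 / r)) ^ k)
        (by positivity) (by positivity)
        (fun Ω _ => merge_pilp' (by linarith) (by positivity) hcY hgY Ω hnd)
        (fun Ω _ => merge_pilp' (by linarith) (by positivity) hcX hgX Ω hnd)
        hp hknp hε hR ?_
      refine le_trans (le_of_eq ?_) hRk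
      have e1 : (n : ℝ) ^ σ = (n : ℝ) ^ (1 / 2 - 1 / q) * (n : ℝ) ^ (1 / 2 - 1 / r) := by
        rw [← Real.rpow_add (by linarith)]
        congr 1
        rw [hσ]
        ring
      rw [e1, mul_pow]
      ring)
  have hcd : 1 ≤ c * d := one_le_mul_of_one_le_of_one_le hc hd
  have hlcd : 0 ≤ Real.log (c * d) := Real.log_nonneg hcd
  have hlog : 1 + Real.log (Q * Q') ≤ (2 + Real.log W0) * (1 + Real.log (c * d)) := by
    have e1 : Q * Q' = (c * d) ^ 2 * W0 := by rw [hQe, hQe', hW0]; ring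
    rw [e1, Real.log_mul (by positivity) (by linarith), Real.log_pow]
    push_cast
    nlinarith
  have hfin : √(n : ℝ) * (2 + Real.log √(n : ℝ)) * (1 + Real.log (Q * Q')) ≤
      Real.exp (12 / (1 / q + 1 / r - 1 / 2)) * (1 + Real.log (c * d)) := by
    calc √(n : ℝ) * (2 + Real.log √(n : ℝ)) * (1 + Real.log (Q * Q'))
        ≤ √(n : ℝ) * (2 + Real.log √(n : ℝ)) * ((2 + Real.log W0) * (1 + Real.log (c * d))) := by
          gcongr
      _ = √(n : ℝ) * (2 + Real.log √(n : ℝ)) * (2 + Real.log W0) * (1 + Real.log (c * d)) := by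
          ring
      _ ≤ _ := by gcongr
  exact fun I _ _ J v hv => (key I J v hv).mono hfin

end Vale.Agent.P111.H571
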