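import Vale.Agent.P111.Bdl.B1

/-! The bounds of the remainder away from the centre. -/

set_option linter.unusedSectionVars false

namespace Vale.Agent.P111.H571

open Finset

section shift

variable {X Y : Type*} [NormedAddCommGroup X] [NormedSpace ℝ X] [NormedAddCommGroup Y]
  [NormedSpace ℝ Y] {V : X →L[ℝ] Y} {I : Type} [Fintype I] [DecidableEq I]

/-- Random subsets: `E u^|T ∩ J'| s^|T \ J'|`. -/
theorem avg_subset_pow (T : Finset I) (u s : ℝ) :
    (avg fun χ : I → Bool => u ^ #(T.filter fun x => χ x = true) *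
      s ^ #(T.filter fun x => ¬ χ x = true)) = ((u + s) / 2) ^ #T := by
  have h1 : ∀ χ : I → Bool, u ^ #(T.filter fun x => χ x = true) *
      s ^ #(T.filter fun x => ¬ χ x = true) =
      ∏ x, if x ∈ T then (if χ x = true then u else s) else 1 := by
    intro χ
    rw [Finset.prod_ite_mem, Finset.univ_inter, Finset.prod_ite, Finset.prod_const,
      Finset.prod_const]
  simp only [h1]
  rw [avg_pi_prod (fun x (b : Bool) => if x ∈ T then (if b = true then u else s) else 1)]
  have h2 : ∀ x : I, (avg fun b : Bool => if x ∈ T then (if b = true then u else s) else (1:ℝ)) =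
      if x ∈ T then (u + s) / 2 else 1 := by
    intro x
    split_ifs
    · simp [avg]
      ring
    · exact avg_const _
  simp only [h2]
  rw [Finset.prod_ite_mem, Finset.univ_inter, Finset.prod_const]

theorem hasDerivAt_pow_zero (j : ℕ) : HasDerivAt (fun z : ℝ => z ^ j) (tau j) 0 := by
  have h := hasDerivAt_pow j (0 : ℝ)
  have e : (j : ℝ) * 0 ^ (j - 1) = tau j := by
    rcases j with _ | _ | j
    · simp [tau]
    · simp [tau]
    · simp [tau]
  rwa [e] at h

theorem avg_subset_tau (T : Finset I) (s : ℝ) :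
    (avg fun χ : I → Bool => tau #(T.filter fun x => χ x = true) *
      s ^ #(T.filter fun x => ¬ χ x = true)) = #T * (s / 2) ^ (#T - 1) / 2 := by
  have h1 : HasDerivAt (fun z : ℝ => avg fun χ : I → Bool =>
      z ^ #(T.filter fun x => χ x = true) * s ^ #(T.filter fun x => ¬ χ x = true))
      (avg fun χ : I → Bool => tau #(T.filter fun x => χ x = true) *
        s ^ #(T.filter fun x => ¬ χ x = true)) 0 := by
    unfold avg
    simp only [smul_eq_mul]
    apply HasDerivAt.const_mul
    apply HasDerivAt.fun_sum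
    intro χ _
    exact (hasDerivAt_pow_zero _).mul_const _
  have h2 : HasDerivAt (fun z : ℝ => ((z + s) / 2) ^ #T)
      (#T * (s / 2) ^ (#T - 1) / 2) 0 := by
    have h3 : HasDerivAt (fun z : ℝ => (z + s) / 2) (1 / 2) 0 :=
      ((hasDerivAt_id (0:ℝ)).add_const s).div_const 2
    have h4 := h3.fun_pow #T
    refine h4.congr_deriv ?_
    rw [zero_add]
    ring
  simp only [avg_subset_pow] at h1
  exact h1.unique h2

/-- The restricted multiplier on a subset. -/
theorem aux_subset {J : Finset I} {v : Finset I → ℝ} (hv : Aux V J v) {s : ℝ} (hs : |s| ≤ 1)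
    (χ : I → Bool) :
    Aux V (J.filter fun x => χ x = true)
      (fun S => s ^ #(S ∩ (J.filter fun x => ¬ χ x = true)) * v S) := by
  refine ⟨?_, hv.bd.mul_pow _ s hs, ?_⟩
  · intro S
    rw [abs_mul, abs_pow]
    exact mul_le_one₀ (pow_le_one₀ (abs_nonneg _) hs) (abs_nonneg _) (hv.abs_le S)
  · intro S
    have h1 := (hv.subset (Finset.filter_subset (fun x => χ x = true) J)).dep S
    rw [h1]
    congr 3
    ext x
    simp only [Finset.mem_inter, Finset.mem_sdiff, Finset.mem_filter]
    tauto

theorem inter_filter (S J : Finset I) (χ : I → Bool) :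
    S ∩ (J.filter fun x => χ x = true) = (S ∩ J).filter fun x => χ x = true := by
  ext x
  simp only [Finset.mem_inter, Finset.mem_filter]
  tauto

theorem inter_filter_not (S J : Finset I) (χ : I → Bool) :
    S ∩ (J.filter fun x => ¬ χ x = true) = (S ∩ J).filter fun x => ¬ χ x = true := by
  ext x
  simp only [Finset.mem_inter, Finset.mem_filter]
  tauto

/-- The derivative at `s / 2`. -/
theorem bd_deriv {κ : ℝ} (h : PP V κ) {J : Finset I} {v : Finset I → ℝ}
    (hv : Aux V J v) {s : ℝ} (hs : |s| ≤ 1) :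
    Bd V (fun S => (#(S ∩ J) * (s / 2) ^ (#(S ∩ J) - 1) / 2) * v S) κ := by
  have h1 : ∀ χ : I → Bool, Bd V (fun S => (tau #((S ∩ J).filter fun x => χ x = true) *
      s ^ #((S ∩ J).filter fun x => ¬ χ x = true)) * v S) κ := by
    intro χ
    refine (h I _ _ (aux_subset hv hs χ)).congr ?_
    intro S
    rw [inter_filter, inter_filter_not]
    ring
  refine (Bd.avg_const h1).congr ?_
  intro S
  rw [avg_mul_right, avg_subset_tau]

/-- The remainder at `s / 2`. -/
theorem bd_rem_shift {κ : ℝ} (h : PP V κ) (hκ : 1 ≤ κ) {J : Finset I} {v : Finset I → ℝ}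
    (hv : Aux V J v) {s u : ℝ} (hs : |s| ≤ 1) (hu : |u| ≤ 1) :
    Bd V (fun S => (((u + s) / 2) ^ #(S ∩ J) - (s / 2) ^ #(S ∩ J) -
      u * (#(S ∩ J) * (s / 2) ^ (#(S ∩ J) - 1) / 2)) * v S)
      (12 * Real.exp 1 ^ 2 * κ ^ 2 * u ^ 2) := by
  have h1 : ∀ χ : I → Bool, Bd V (fun S => (rem2 u #((S ∩ J).filter fun x => χ x = true) *
      s ^ #((S ∩ J).filter fun x => ¬ χ x = true)) * v S)
      (12 * Real.exp 1 ^ 2 * κ ^ 2 * u ^ 2) := by
    intro χ
    refine (h.bd_rem2 hκ hu (aux_subset hv hs χ)).congr ?_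
    intro S
    rw [inter_filter, inter_filter_not]
    ring
  refine (Bd.avg_const h1).congr ?_
  intro S
  rw [avg_mul_right]
  congr 1
  have e1 : ∀ χ : I → Bool, rem2 u #((S ∩ J).filter fun x => χ x = true) *
      s ^ #((S ∩ J).filter fun x => ¬ χ x = true) =
      u ^ #((S ∩ J).filter fun x => χ x = true) *
        s ^ #((S ∩ J).filter fun x => ¬ χ x = true) -
      0 ^ #((S ∩ J).filter fun x => χ x = true) *
        s ^ #((S ∩ J).filter fun x => ¬ χ x = true) -
      u * (tau #((S ∩ J).filter fun x => χ x = true) *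
        s ^ #((S ∩ J).filter fun x => ¬ χ x = true)) := by
    intro χ
    unfold rem2
    rw [zero_pow_eq]
    ring
  simp only [e1]
  rw [avg_sub, avg_sub, avg_mul_left, avg_subset_tau, avg_subset_pow, avg_subset_pow, zero_add]

end shift

end Vale.Agent.P111.H571
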