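import Vale.Agent.P111.R2.H571.Chaos2

/-! The function `ρ sin (φ + p ∑ θ)` of the signs has Wiener norm at most `ρ exp (k n p)`. -/

set_option linter.unusedSectionVars false

namespace Vale.Agent.P111.H571

open Finset

section wiener

variable {k n : ℕ}

/-- The Walsh coefficients. -/
noncomputable def wa (ρ φ p : ℝ) (A : Finset (Fin k × Fin n)) : ℝ :=
  ρ * (Complex.exp (φ * Complex.I) * ((Complex.I * Real.sin p) ^ #A *
    (Real.cos p : ℂ) ^ #(Finset.univ \ A))).im

theorem exp_unit (p : ℝ) (u : ℤˣ) : Complex.exp ((p * sg u : ℝ) * Complex.I) =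
    Complex.I * Real.sin p * (sg u : ℂ) + Real.cos p := by
  rcases Int.units_eq_one_or u with h | h
  · subst h
    rw [sg_one, mul_one, Complex.exp_mul_I, ← Complex.ofReal_cos, ← Complex.ofReal_sin]
    push_cast
    ring
  · subst h
    rw [sg_neg_one, mul_neg_one, Complex.exp_mul_I, ← Complex.ofReal_cos, ← Complex.ofReal_sin,
      Real.cos_neg, Real.sin_neg]
    push_cast
    ring

theorem wa_expand (ρ φ p : ℝ) (θ : Fin k → Fin n → ℤˣ) :
    ρ * Real.sin (φ + p * ∑ l, ∑ j, sg (θ l j)) =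
      ∑ A : Finset (Fin k × Fin n), wa ρ φ p A * ∏ q ∈ A, sg (θ q.1 q.2) := by
  have h1 : Complex.exp ((φ + p * ∑ l, ∑ j, sg (θ l j) : ℝ) * Complex.I) =
      Complex.exp (φ * Complex.I) *
        ∏ q : Fin k × Fin n, (Complex.I * Real.sin p * (sg (θ q.1 q.2) : ℂ) + Real.cos p) := by
    simp only [← exp_unit]
    rw [← Complex.exp_sum, ← Complex.exp_add]
    congr 1
    rw [← Finset.sum_mul, ← add_mul]
    congr 1
    rw [Finset.mul_sum]
    push_cast
    congr 1
    rw [Fintype.sum_prod_type]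
    refine Finset.sum_congr rfl fun l _ => ?_
    rw [Finset.mul_sum]
  have h2 : Real.sin (φ + p * ∑ l, ∑ j, sg (θ l j)) =
      (Complex.exp ((φ + p * ∑ l, ∑ j, sg (θ l j) : ℝ) * Complex.I)).im := by
    rw [Complex.exp_ofReal_mul_I_im]
  rw [h2, h1, Finset.prod_add, Finset.powerset_univ, Finset.mul_sum, Complex.im_sum,
    Finset.mul_sum]
  refine Finset.sum_congr rfl fun A _ => ?_
  unfold wa
  rw [Finset.prod_mul_distrib, Finset.prod_const, Finset.prod_const]
  have h3 : (∏ q ∈ A, (sg (θ q.1 q.2) : ℂ)) = ((∏ q ∈ A, sg (θ q.1 q.2) : ℝ) : ℂ) := by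
    push_cast
    rfl
  rw [h3]
  have h4 : Complex.exp (φ * Complex.I) * ((Complex.I * Real.sin p) ^ #A *
      ((∏ q ∈ A, sg (θ q.1 q.2) : ℝ) : ℂ) * (Real.cos p : ℂ) ^ #(Finset.univ \ A)) =
      (Complex.exp (φ * Complex.I) * ((Complex.I * Real.sin p) ^ #A *
        (Real.cos p : ℂ) ^ #(Finset.univ \ A))) * ((∏ q ∈ A, sg (θ q.1 q.2) : ℝ) : ℂ) := by ring
  rw [h4, Complex.im_mul_ofReal]
  ring

theorem sum_abs_wa_le {ρ φ p : ℝ} (hρ : 0 ≤ ρ) (hp : 0 ≤ p) :
    ∑ A : Finset (Fin k × Fin n), |wa ρ φ p A| ≤ ρ * Real.exp (k * n * p) := by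
  have h1 : ∀ A : Finset (Fin k × Fin n), |wa ρ φ p A| ≤
      ρ * (|Real.sin p| ^ #A * |Real.cos p| ^ #(Finset.univ \ A)) := by
    intro A
    unfold wa
    rw [abs_mul, abs_of_nonneg hρ]
    gcongr
    refine (Complex.abs_im_le_norm _).trans ?_
    rw [norm_mul, Complex.norm_exp_ofReal_mul_I, one_mul, norm_mul, norm_pow, norm_pow, norm_mul,
      Complex.norm_I, one_mul, Complex.norm_real, Complex.norm_real, Real.norm_eq_abs,
      Real.norm_eq_abs]
  refine (Finset.sum_le_sum fun A _ => h1 A).trans ?_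
  rw [← Finset.mul_sum]
  gcongr
  have h2 := Finset.prod_add (fun _ : Fin k × Fin n => |Real.sin p|)
    (fun _ : Fin k × Fin n => |Real.cos p|) Finset.univ
  simp only [Finset.prod_const, Finset.powerset_univ] at h2
  rw [← h2, Finset.card_univ, Fintype.card_prod, Fintype.card_fin, Fintype.card_fin]
  have h3 : |Real.sin p| + |Real.cos p| ≤ Real.exp p := by
    have e1 : |Real.sin p| ≤ p := by
      have := Real.abs_sin_le_abs (x := p)
      rwa [abs_of_nonneg hp] at this
    have e2 := Real.abs_cos_le_one p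
    have e3 := Real.add_one_le_exp p
    linarith
  calc (|Real.sin p| + |Real.cos p|) ^ (k * n) ≤ Real.exp p ^ (k * n) := by gcongr
    _ = Real.exp (k * n * p) := by
        rw [← Real.exp_nat_mul]
        push_cast
        ring_nf

end wiener

end Vale.Agent.P111.H571
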