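import Vale.Agent.P111.R2.H571.Analytic
import Vale.Agent.P111.R2.H571.Wiener
import Vale.Agent.P111.R2.H571.Shift
import Mathlib.Analysis.Complex.ExponentialBounds

/-! Long chains of blocks of a fixed size improve the constant. -/

set_option linter.unusedSectionVars false

namespace Vale.Agent.P111.H571

open Finset

section scalar

/-- The polynomial. -/
noncomputable def hp (M : ℕ) (cc : ℕ → ℝ) (t : ℝ) : ℝ := ∑ a ∈ range (M + 1), t ^ a * cc a

/-- Its derivative. -/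
noncomputable def hd (M : ℕ) (cc : ℕ → ℝ) (t : ℝ) : ℝ :=
  ∑ a ∈ range (M + 1), (a * t ^ (a - 1)) * cc a

theorem hasDerivAt_hp (M : ℕ) (cc : ℕ → ℝ) (t : ℝ) : HasDerivAt (hp M cc) (hd M cc t) t := by
  unfold hp hd
  apply HasDerivAt.fun_sum
  intro a _
  exact (hasDerivAt_pow a t).mul_const _

theorem norm_exp_sub (x y : ℝ) :
    ‖Complex.exp (x * Complex.I) - Complex.exp (y * Complex.I)‖ =
      ‖Complex.exp (Complex.I * ((x - y : ℝ) : ℂ)) - 1‖ := by
  have e : Complex.exp (x * Complex.I) - Complex.exp (y * Complex.I) =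
      Complex.exp (y * Complex.I) * (Complex.exp (Complex.I * ((x - y : ℝ) : ℂ)) - 1) := by
    rw [mul_sub, ← Complex.exp_add, mul_one]
    congr 2
    push_cast
    ring
  rw [e, norm_mul, Complex.norm_exp_ofReal_mul_I, one_mul]

theorem abs_cos_sub_le (x y : ℝ) :
    |Real.cos x - Real.cos y| ≤ ‖Complex.exp (Complex.I * ((x - y : ℝ) : ℂ)) - 1‖ := by
  rw [← norm_exp_sub]
  have h := Complex.abs_re_le_norm (Complex.exp (x * Complex.I) - Complex.exp (y * Complex.I))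
  rwa [Complex.sub_re, Complex.exp_ofReal_mul_I_re, Complex.exp_ofReal_mul_I_re] at h

theorem abs_sin_sub_le (x y : ℝ) :
    |Real.sin x - Real.sin y| ≤ ‖Complex.exp (Complex.I * ((x - y : ℝ) : ℂ)) - 1‖ := by
  rw [← norm_exp_sub]
  have h := Complex.abs_im_le_norm (Complex.exp (x * Complex.I) - Complex.exp (y * Complex.I))
  rwa [Complex.sub_im, Complex.exp_ofReal_mul_I_im, Complex.exp_ofReal_mul_I_im] at h

/-- The scalar form of the improvement. -/
theorem scalar (hlk : LKStatement) (hker : KerStatement) {L M0 n k : ℕ} (hL : 1 ≤ L)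
    (hk : 2 ≤ k) (hn : 1 ≤ n) {p : ℝ} (hp0 : 0 < p)
    (hε : n * (p ^ 2 * (L : ℝ) ^ 2) ≤ 1 / 2) (cc : ℕ → ℝ) {κ R : ℝ} (hκ : 1 ≤ κ)
    (hR : 0 < R) (h1 : ∀ t, |t| ≤ 1 → |hp M0 cc t| ≤ 1)
    (h2 : ∀ s, |s| ≤ 1 → |hd M0 cc (s / 2)| ≤ 2 * κ)
    (h3 : ∀ s u, |s| ≤ 1 → |u| ≤ 1 → |hp M0 cc ((u + s) / 2) - hp M0 cc (s / 2) -
      u / 2 * hd M0 cc (s / 2)| ≤ 12 * Real.exp 1 ^ 2 * κ ^ 2 * u ^ 2)
    (h4 : ∀ φ : ℝ, |avg fun θ : Fin k → Fin n → ℤˣ => (∏ l, ∑ j, sg (θ l j)) *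
      hp M0 cc (1 / 4 * Real.sin (φ + p * ∑ l, ∑ j, sg (θ l j)))| ≤ R ^ k) :
    |hd M0 cc 0| ≤ 4 * (2 * Real.exp 1 * (2 * R / (n * p)) + 55 * κ ^ 2 * (Real.pi / (L + 1))) := by
  obtain ⟨c, hc⟩ := exists_tp M0 (max M0 L) (le_max_left _ _) cc (1 / 4)
  set M := max M0 L with hM
  have hc' : ∀ x : ℝ, ((hp M0 cc (1 / 4 * Real.sin x) : ℝ) : ℂ) = tp M c x := by
    intro x
    rw [← hc]
    unfold hp
    congr 1
    refine Finset.sum_congr rfl fun a _ => mul_comm _ _
  have hsin : ∀ x : ℝ, |1 / 4 * Real.sin x| ≤ 1 / 4 := by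
    intro x
    rw [abs_mul]
    have := Real.abs_sin_le_one x
    rw [abs_of_nonneg (by norm_num : (0:ℝ) ≤ 1 / 4)]
    linarith
  have hder : ∀ x : ℝ, tp M (dc c) x =
      ((1 / 4 * Real.cos x * hd M0 cc (1 / 4 * Real.sin x) : ℝ) : ℂ) := by
    intro x
    have a1 := hasDerivAt_tp M c x
    have a2 : HasDerivAt (fun y : ℝ => hp M0 cc (1 / 4 * Real.sin y))
        (hd M0 cc (1 / 4 * Real.sin x) * (1 / 4 * Real.cos x)) x :=
      (hasDerivAt_hp M0 cc _).comp x ((Real.hasDerivAt_sin x).const_mul (1 / 4))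
    have a3 := a2.ofReal_comp
    have a4 : HasDerivAt (tp M c)
        ((hd M0 cc (1 / 4 * Real.sin x) * (1 / 4 * Real.cos x) : ℝ) : ℂ) x := by
      refine a3.congr_of_eventuallyEq (Filter.Eventually.of_forall fun y => ?_)
      exact (hc' y).symm
    rw [a1.unique a4]
    congr 1
    ring
  -- Lipschitz
  have hlip : ∀ x0 y0 : ℝ, |x0| ≤ 1 / 4 → |y0| ≤ 1 / 4 →
      |hd M0 cc y0 - hd M0 cc x0| ≤ 96 * Real.exp 1 ^ 2 * κ ^ 2 * |y0 - x0| := by
    intro x0 y0 hx hy
    rw [abs_le] at hx hy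
    have b1 : |2 * x0| ≤ 1 := by rw [abs_le]; constructor <;> linarith
    have b2 : |2 * y0| ≤ 1 := by rw [abs_le]; constructor <;> linarith
    have b3 : |2 * (y0 - x0)| ≤ 1 := by rw [abs_le]; constructor <;> linarith
    have b4 : |2 * (x0 - y0)| ≤ 1 := by rw [abs_le]; constructor <;> linarith
    have c1 := h3 (2 * x0) (2 * (y0 - x0)) b1 b3
    have c2 := h3 (2 * y0) (2 * (x0 - y0)) b2 b4
    have e1 : (2 * (y0 - x0) + 2 * x0) / 2 = y0 := by ring
    have e2 : 2 * x0 / 2 = x0 := by ring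
    have e3 : (2 * (x0 - y0) + 2 * y0) / 2 = x0 := by ring
    have e4 : 2 * y0 / 2 = y0 := by ring
    have e5 : 2 * (y0 - x0) / 2 = y0 - x0 := by ring
    have e6 : 2 * (x0 - y0) / 2 = x0 - y0 := by ring
    rw [e1, e2, e5] at c1
    rw [e3, e4, e6] at c2
    have c3 := abs_add_le (hp M0 cc y0 - hp M0 cc x0 - (y0 - x0) * hd M0 cc x0)
      (hp M0 cc x0 - hp M0 cc y0 - (x0 - y0) * hd M0 cc y0)
    have e7 : (hp M0 cc y0 - hp M0 cc x0 - (y0 - x0) * hd M0 cc x0) +
      (hp M0 cc x0 - hp M0 cc y0 - (x0 - y0) * hd M0 cc y0) =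
      (y0 - x0) * (hd M0 cc y0 - hd M0 cc x0) := by ring
    rw [e7, abs_mul] at c3
    rcases eq_or_ne y0 x0 with hxy | hxy
    · rw [hxy]; simp
    · have hpos : 0 < |y0 - x0| := abs_pos.2 (sub_ne_zero.2 hxy)
      have hsq : |y0 - x0| * |y0 - x0| = (y0 - x0) ^ 2 := by rw [← sq, sq_abs]
      have c4 : |y0 - x0| * |hd M0 cc y0 - hd M0 cc x0| ≤
          |y0 - x0| * (96 * Real.exp 1 ^ 2 * κ ^ 2 * |y0 - x0|) := by
        have : |y0 - x0| * (96 * Real.exp 1 ^ 2 * κ ^ 2 * |y0 - x0|) =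
            96 * Real.exp 1 ^ 2 * κ ^ 2 * (y0 - x0) ^ 2 := by rw [← hsq]; ring
        rw [this]
        nlinarith
      exact le_of_mul_le_mul_left c4 hpos
  have he3 : Real.exp 1 ^ 2 ≤ 9 := by
    have h1 := Real.exp_one_lt_d9
    have h2 := Real.exp_pos 1
    nlinarith
  have hLip : ∀ x s : ℝ, ‖tp M (dc c) x - tp M (dc c) (x - s)‖ ≤
      55 * κ ^ 2 * ‖Complex.exp (Complex.I * s) - 1‖ := by
    intro x s
    rw [hder, hder, ← Complex.ofReal_sub, Complex.norm_real, Real.norm_eq_abs]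
    set y := x - s with hy
    have hchord : ‖Complex.exp (Complex.I * s) - 1‖ =
        ‖Complex.exp (Complex.I * ((x - y : ℝ) : ℂ)) - 1‖ := by
      have : x - y = s := by rw [hy]; ring
      rw [this]
    rw [hchord]
    set r := ‖Complex.exp (Complex.I * ((x - y : ℝ) : ℂ)) - 1‖ with hr
    have hr0 : 0 ≤ r := norm_nonneg _
    have d1 := abs_cos_sub_le x y
    have d2 := abs_sin_sub_le x y
    rw [← hr] at d1 d2
    have d3 := hlip (1 / 4 * Real.sin y) (1 / 4 * Real.sin x) (hsin y) (hsin x)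
    have d4 : |hd M0 cc (1 / 4 * Real.sin y)| ≤ 2 * κ := by
      have := hsin y
      rw [abs_le] at this
      have h5 := h2 (2 * (1 / 4 * Real.sin y)) (by rw [abs_le]; constructor <;> linarith)
      have e : 2 * (1 / 4 * Real.sin y) / 2 = 1 / 4 * Real.sin y := by ring
      rwa [e] at h5
    have d5 : |1 / 4 * Real.sin x - 1 / 4 * Real.sin y| ≤ 1 / 4 * r := by
      rw [← mul_sub, abs_mul, abs_of_nonneg (by norm_num : (0:ℝ) ≤ 1 / 4)]
      linarith
    have e : 1 / 4 * Real.cos x * hd M0 cc (1 / 4 * Real.sin x) -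
        1 / 4 * Real.cos y * hd M0 cc (1 / 4 * Real.sin y) =
        1 / 4 * Real.cos x * (hd M0 cc (1 / 4 * Real.sin x) - hd M0 cc (1 / 4 * Real.sin y)) +
          1 / 4 * (Real.cos x - Real.cos y) * hd M0 cc (1 / 4 * Real.sin y) := by ring
    rw [e]
    refine (abs_add_le _ _).trans ?_
    have f1 : |1 / 4 * Real.cos x * (hd M0 cc (1 / 4 * Real.sin x) -
        hd M0 cc (1 / 4 * Real.sin y))| ≤ 54 * κ ^ 2 * r := by
      rw [abs_mul, abs_mul, abs_of_nonneg (by norm_num : (0:ℝ) ≤ 1 / 4)]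
      have g1 := Real.abs_cos_le_one x
      calc 1 / 4 * |Real.cos x| * |hd M0 cc (1 / 4 * Real.sin x) - hd M0 cc (1 / 4 * Real.sin y)|
          ≤ 1 / 4 * 1 * (96 * 9 * κ ^ 2 * (1 / 4 * r)) := by
            refine mul_le_mul (by linarith) ?_ (abs_nonneg _) (by norm_num)
            refine d3.trans ?_
            gcongr
        _ = 54 * κ ^ 2 * r := by ring
    have f2 : |1 / 4 * (Real.cos x - Real.cos y) * hd M0 cc (1 / 4 * Real.sin y)| ≤
        κ ^ 2 * r := by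
      rw [abs_mul, abs_mul, abs_of_nonneg (by norm_num : (0:ℝ) ≤ 1 / 4)]
      calc 1 / 4 * |Real.cos x - Real.cos y| * |hd M0 cc (1 / 4 * Real.sin y)|
          ≤ 1 / 4 * r * (2 * κ) := by gcongr
        _ = κ / 2 * r := by ring
        _ ≤ κ ^ 2 * r := by
            gcongr
            nlinarith
    linarith
  -- block averages
  have hB : ∀ x, ‖tp M (fun m => sy n p m ^ k * c m) x‖ ≤ R ^ k := by
    intro x
    rw [← block_tp]
    have e : (avg fun θ : Fin k → Fin n → ℤˣ => ((∏ l, ∑ j, sg (θ l j) : ℝ) : ℂ) *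
        tp M c (x + p * ∑ l, ∑ j, sg (θ l j))) =
        ((avg fun θ : Fin k → Fin n → ℤˣ => (∏ l, ∑ j, sg (θ l j)) *
          hp M0 cc (1 / 4 * Real.sin (x + p * ∑ l, ∑ j, sg (θ l j))) : ℝ) : ℂ) := by
      simp only [← hc']
      unfold avg
      rw [Complex.real_smul, smul_eq_mul]
      push_cast
      rfl
    rw [e, Complex.norm_real, Real.norm_eq_abs]
    exact h4 x
  have h0 : ∀ x, ‖tp M c x‖ ≤ 1 := by
    intro x
    rw [← hc', Complex.norm_real, Real.norm_eq_abs]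
    apply h1
    have := hsin x
    linarith
  have key := analytic hlk hker hL (le_max_right _ _) hk hn hp0 hε c
    (by positivity : 0 ≤ 55 * κ ^ 2) hR h0 hLip hB
  rw [hder, Complex.norm_real, Real.norm_eq_abs, Real.cos_zero, Real.sin_zero, mul_one,
    mul_zero, abs_mul, abs_of_nonneg (by norm_num : (0:ℝ) ≤ 1 / 4)] at key
  linarith

end scalar

section main

variable {X Y : Type*} [NormedAddCommGroup X] [NormedSpace ℝ X] [NormedAddCommGroup Y]
  [NormedSpace ℝ Y] {V : X →L[ℝ] Y}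

/-- The improvement of the constant. -/
theorem improve (hlk : LKStatement) (hker : KerStatement) {κ : ℝ} (h : PP V κ) (hκ : 1 ≤ κ)
    {k n L : ℕ} (hk : 2 ≤ k) (hn : 1 ≤ n) (hL : 1 ≤ L) {Q Q' R p : ℝ} (hQ : 0 ≤ Q) (hQ' : 0 ≤ Q')
    (hmY : ∀ (Ω : Type) [Fintype Ω], Merge Q k n (PiLp 2 (fun _ : Ω => Y)))
    (hmX : ∀ (Ω : Type) [Fintype Ω], Merge Q' k n (PiLp 2 (fun _ : Ω => X →L[ℝ] ℝ)))
    (hp0 : 0 < p) (hknp : k * n * p ≤ 1) (hε : n * (p ^ 2 * (L : ℝ) ^ 2) ≤ 1 / 2)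
    (hR : 0 < R) (hRk : κ * Q * Q' ≤ R ^ k) :
    PP V (4 * (2 * Real.exp 1 * (2 * R / (n * p)) + 55 * κ ^ 2 * (Real.pi / (L + 1)))) := by
  intro I _ _ J v hv f g
  rcases eq_or_lt_of_le (mul_nonneg (nrm_nonneg f) (nrm_nonneg g)) with hN | hN
  · have h1 := h I J v hv f g
    rw [← hN, mul_zero] at h1 ⊢
    exact h1
  set N : ℝ := nrm f * nrm g with hNd
  set M0 := Fintype.card I with hM0
  set cc : ℕ → ℝ := fun a => (∑ S : Finset I, (if #(S ∩ J) = a then 1 else 0) * v S *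
    (wc S g) (V (wc S f))) / N with hcc
  have hmu : ∀ μ : ℕ → ℝ, ∑ S : Finset I, (μ #(S ∩ J) * v S) * (wc S g) (V (wc S f)) =
      N * ∑ a ∈ range (M0 + 1), μ a * cc a := by
    intro μ
    rw [Finset.mul_sum]
    have e1 : ∀ a, N * (μ a * cc a) = ∑ S : Finset I, (if #(S ∩ J) = a then
        μ a * v S * (wc S g) (V (wc S f)) else 0) := by
      intro a
      simp only [hcc]
      calc N * (μ a * ((∑ S : Finset I, (if #(S ∩ J) = a then 1 else 0) * v S *
            (wc S g) (V (wc S f))) / N))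
          = μ a * ∑ S : Finset I, (if #(S ∩ J) = a then 1 else 0) * v S *
            (wc S g) (V (wc S f)) := by field_simp
        _ = _ := by
            rw [Finset.mul_sum]
            refine Finset.sum_congr rfl fun S _ => ?_
            split_ifs
            · ring
            · ring
    simp only [e1]
    rw [Finset.sum_comm]
    refine Finset.sum_congr rfl fun S _ => ?_
    rw [Finset.sum_ite_eq, if_pos]
    rw [Finset.mem_range]
    have : #(S ∩ J) ≤ M0 := Finset.card_le_univ _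
    omega
  have hBd : ∀ (μ : ℕ → ℝ) (B : ℝ), Bd V (fun S => μ #(S ∩ J) * v S) B →
      |∑ a ∈ range (M0 + 1), μ a * cc a| ≤ B := by
    intro μ B hB
    have h1 := hB f g
    rw [hmu, abs_mul, abs_of_pos hN, ← hNd, mul_comm B] at h1
    exact le_of_mul_le_mul_left h1 hN
  have hκ0 : 0 ≤ κ := by linarith
  have key := scalar hlk hker (M0 := M0) hL hk hn hp0 hε cc hκ hR
    (by
      intro t ht
      exact hBd (fun a => t ^ a) 1 (hv.bd.mul_pow J t ht))
    (by
      intro s hs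
      have h1 := hBd (fun a => a * (s / 2) ^ (a - 1) / 2) κ (bd_deriv h hv hs)
      have e : hd M0 cc (s / 2) = 2 * ∑ a ∈ range (M0 + 1), a * (s / 2) ^ (a - 1) / 2 * cc a := by
        unfold hd
        rw [Finset.mul_sum]
        refine Finset.sum_congr rfl fun a _ => ?_
        ring
      rw [e, abs_mul, abs_of_pos (by norm_num : (0:ℝ) < 2)]
      linarith)
    (by
      intro s u hs hu
      have h1 := hBd (fun a => ((u + s) / 2) ^ a - (s / 2) ^ a -
        u * (a * (s / 2) ^ (a - 1) / 2)) _ (bd_rem_shift h hκ hv hs hu)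
      refine le_trans (le_of_eq ?_) h1
      congr 1
      unfold hp hd
      rw [Finset.mul_sum, ← Finset.sum_sub_distrib, ← Finset.sum_sub_distrib]
      refine Finset.sum_congr rfl fun a _ => ?_
      ring)
    (by
      intro φ
      have hw : ∑ A : Finset (Fin k × Fin n), |wa (1 / 4) φ p A| ≤ 1 := by
        refine (sum_abs_wa_le (by norm_num) hp0.le).trans ?_
        have e1 : Real.exp (k * n * p) ≤ Real.exp 1 := Real.exp_le_exp.2 hknp
        have e2 := Real.exp_one_lt_d9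
        linarith
      have h1 := hBd (fun a => avg fun θ : Fin k → Fin n → ℤˣ => (∏ l, ∑ j, sg (θ l j)) *
        (1 / 4 * Real.sin (φ + p * ∑ l, ∑ j, sg (θ l j))) ^ a) (κ * Q * Q')
        (bd_sub h hκ0 hQ hQ' (hmY (I → ℤˣ)) (hmX (I → ℤˣ)) hv.abs_le hv.bd J
          (fun θ => 1 / 4 * Real.sin (φ + p * ∑ l, ∑ j, sg (θ l j))) (wa (1 / 4) φ p) hw
          (fun θ => wa_expand _ _ _ _))
      refine le_trans (le_of_eq ?_) (h1.trans hRk)
      congr 1
      have e2 : ∀ a, (avg fun θ : Fin k → Fin n → ℤˣ => (∏ l, ∑ j, sg (θ l j)) *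
        (1 / 4 * Real.sin (φ + p * ∑ l, ∑ j, sg (θ l j))) ^ a) * cc a =
        avg fun θ : Fin k → Fin n → ℤˣ => (∏ l, ∑ j, sg (θ l j)) *
        (1 / 4 * Real.sin (φ + p * ∑ l, ∑ j, sg (θ l j))) ^ a * cc a := by
        intro a
        rw [avg_mul_right]
      simp only [e2]
      rw [← avg_sum]
      refine avg_congr fun θ => ?_
      unfold hp
      rw [Finset.mul_sum]
      refine Finset.sum_congr rfl fun a _ => ?_
      ring)
  have hfin := hmu tau
  have e9 : ∑ a ∈ range (M0 + 1), tau a * cc a = hd M0 cc 0 := by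
    unfold hd
    refine Finset.sum_congr rfl fun a _ => ?_
    congr 1
    rcases a with _ | _ | a
    · simp [tau]
    · simp [tau]
    · simp [tau]
  rw [hfin, e9, abs_mul, abs_of_pos hN, mul_comm N]
  exact mul_le_mul_of_nonneg_right key hN.le

end main

end Vale.Agent.P111.H571
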