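import Vale.Agent.P111.R2.H571.Riesz
import Vale.Agent.P111.R2.H571.Analytic

namespace Vale.Agent.P111.H571

open Finset

/-- Taylor's formula with the bound of the remainder, for a chain of derivatives. -/
theorem taylor_chain (B : ℝ) : ∀ (k : ℕ) (u : ℕ → ℝ → ℂ),
    (∀ j x, HasDerivAt (u j) (u (j + 1) x) x) → (∀ x, ‖u k x‖ ≤ B) → ∀ x, 0 ≤ x →
    ‖u 0 x - ∑ i ∈ range k, u i 0 * ((x ^ i / i.factorial : ℝ) : ℂ)‖ ≤ B * (x ^ k / k.factorial) := by
  intro k
  induction k with
  | zero =>
    intro u hu hk x hx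
    simpa using hk x
  | succ k ih =>
    intro u hu hk x hx
    have ih' := ih (fun j => u (j + 1)) (fun j x => hu (j + 1) x) hk
    set f : ℝ → ℂ := fun y => u 0 y - ∑ i ∈ range (k + 1), u i 0 * ((y ^ i / i.factorial : ℝ) : ℂ)
      with hf
    set f' : ℝ → ℂ := fun y => u 1 y - ∑ i ∈ range k, u (i + 1) 0 * ((y ^ i / i.factorial : ℝ) : ℂ)
      with hf'
    have hpow : ∀ (i : ℕ) (y : ℝ), HasDerivAt (fun y : ℝ => ((y ^ (i + 1) / (i + 1).factorial : ℝ)))
        (y ^ i / i.factorial) y := by
      intro i y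
      have := (hasDerivAt_pow (i + 1) y).div_const ((i + 1).factorial : ℝ)
      refine this.congr_deriv ?_
      rw [Nat.factorial_succ]
      push_cast
      have : (i.factorial : ℝ) ≠ 0 := by exact_mod_cast i.factorial_ne_zero
      field_simp
    have hder : ∀ y, HasDerivAt f (f' y) y := by
      intro y
      have h1 : HasDerivAt (fun y : ℝ => ∑ i ∈ range k, u (i + 1) 0 *
          ((y ^ (i + 1) / (i + 1).factorial : ℝ) : ℂ))
          (∑ i ∈ range k, u (i + 1) 0 * ((y ^ i / i.factorial : ℝ) : ℂ)) y := by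
        apply HasDerivAt.fun_sum
        intro i _
        exact (hpow i y).ofReal_comp.const_mul _
      have h2 := ((hu 0 y).sub h1).sub_const (u 0 0)
      refine h2.congr_of_eventuallyEq (Filter.Eventually.of_forall fun z => ?_)
      simp only [hf]
      rw [Finset.sum_range_succ']
      simp
      ring
    have hB : ∀ y, HasDerivAt (fun y : ℝ => B * (y ^ (k + 1) / (k + 1).factorial))
        (B * (y ^ k / k.factorial)) y := fun y => (hpow k y).const_mul B
    have h0 : ‖f 0‖ ≤ B * ((0:ℝ) ^ (k + 1) / (k + 1).factorial) := by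
      have : f 0 = 0 := by
        simp only [hf]
        rw [Finset.sum_range_succ']
        simp
      rw [this]
      simp
    have hmain := image_norm_le_of_norm_deriv_right_le_deriv_boundary (a := 0) (b := x) (f := f)
      (f' := f') (B := fun y => B * (y ^ (k + 1) / (k + 1).factorial))
      (B' := fun y => B * (y ^ k / k.factorial))
      (fun y _ => (hder y).continuousAt.continuousWithinAt)
      (fun y _ => (hder y).hasDerivWithinAt) h0 hB
      (fun y hy => ih' y hy.1)
    exact hmain (Set.right_mem_Icc.2 hx)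

/-- The two sided form. -/
theorem taylor_chain' (B : ℝ) (k : ℕ) (u : ℕ → ℝ → ℂ)
    (hu : ∀ j x, HasDerivAt (u j) (u (j + 1) x) x) (hk : ∀ x, ‖u k x‖ ≤ B) (x : ℝ) :
    ‖u 0 x - ∑ i ∈ range k, u i 0 * ((x ^ i / i.factorial : ℝ) : ℂ)‖ ≤
      B * (|x| ^ k / k.factorial) := by
  rcases le_total 0 x with hx | hx
  · rw [abs_of_nonneg hx]
    exact taylor_chain B k u hu hk x hx
  · have h := taylor_chain B k (fun j y => (-1) ^ j * u j (-y))
      (by
        intro j y
        have h1 : HasDerivAt (fun y : ℝ => u j (-y)) (-(u (j + 1) (-y))) y := by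
          have := HasDerivAt.scomp y (hu j (-y)) (hasDerivAt_neg y)
          rw [neg_smul, one_smul] at this
          exact this
        refine (h1.const_mul _).congr_deriv ?_
        rw [pow_succ]
        ring)
      (by
        intro y
        rw [norm_mul, norm_pow, norm_neg, norm_one, one_pow, one_mul]
        exact hk _) (-x) (by linarith)
    rw [abs_of_nonpos hx]
    refine le_trans (le_of_eq ?_) h
    congr 1
    have e : ∀ i ∈ range k, (-1) ^ i * u i (-0) * (((-x) ^ i / i.factorial : ℝ) : ℂ) =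
        u i 0 * ((x ^ i / i.factorial : ℝ) : ℂ) := by
      intro i _
      rw [neg_zero]
      have : ((-1 : ℂ)) ^ i * (-1) ^ i = 1 := by
        rw [← mul_pow]; simp
      rw [neg_pow x]
      push_cast
      linear_combination (u i 0 * (x ^ i / i.factorial)) * this
    rw [Finset.sum_congr rfl e]
    simp

theorem lk : LKStatement := by
  intro k hk Q M hQ hM u hu h0 hk'
  obtain ⟨D, rfl⟩ : ∃ D, k = D + 1 := ⟨k - 1, by omega⟩
  have hD : 1 ≤ D := by omega
  obtain ⟨m, γ, ρ, hρ, hγ, h1, h2, -⟩ := interp' D hD 1 one_pos le_rfl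
  set K : ℝ := ((D + 1 : ℕ) : ℝ) with hK
  have hK0 : 0 < K := by rw [hK]; positivity
  have he := Real.exp_pos 1
  set L : ℝ := K / (Real.exp 1 * Q) with hL
  have hL0 : 0 < L := by positivity
  -- the remainders
  set Rm : Fin m → ℂ := fun j => u 0 (L * ρ j) -
    ∑ i ∈ range (D + 1), u i 0 * (((L * ρ j) ^ i / i.factorial : ℝ) : ℂ) with hRm
  have hR1 : ∀ j, ‖Rm j‖ ≤ 1 := by
    intro j
    have h := taylor_chain' (Q ^ (D + 1)) (D + 1) u hu hk' (L * ρ j)
    refine h.trans ?_
    have e1 : |L * ρ j| ≤ L := by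
      rw [abs_mul, abs_of_pos hL0]
      have := mul_le_mul_of_nonneg_left (hρ j) hL0.le
      linarith
    calc Q ^ (D + 1) * (|L * ρ j| ^ (D + 1) / (D + 1).factorial)
        ≤ Q ^ (D + 1) * (L ^ (D + 1) / (D + 1).factorial) := by gcongr
      _ = (K ^ (D + 1) / (D + 1).factorial) / Real.exp 1 ^ (D + 1) := by
          rw [hL, div_pow, mul_pow]
          field_simp
      _ ≤ Real.exp K / Real.exp 1 ^ (D + 1) := by
          gcongr
          exact Real.pow_div_factorial_le_exp K hK0.le (D + 1)
      _ = 1 := by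
          rw [← Real.exp_nat_mul, mul_one, ← hK, div_self (Real.exp_pos _).ne']
  have hsum : (L : ℂ) * u 1 0 = ∑ j, (γ j : ℂ) * (u 0 (L * ρ j) - Rm j) := by
    have e1 : ∀ j, u 0 (L * ρ j) - Rm j =
        ∑ i ∈ range (D + 1), u i 0 * (((L * ρ j) ^ i / i.factorial : ℝ) : ℂ) := by
      intro j
      rw [hRm]
      ring
    simp only [e1, Finset.mul_sum]
    rw [Finset.sum_comm]
    have e2 : ∀ i ∈ range (D + 1), ∑ j, (γ j : ℂ) * (u i 0 *
        (((L * ρ j) ^ i / i.factorial : ℝ) : ℂ)) =
        u i 0 * ((L ^ i / i.factorial * ∑ j, γ j * ρ j ^ i : ℝ) : ℂ) := by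
      intro i _
      push_cast
      rw [Finset.mul_sum, Finset.mul_sum]
      refine Finset.sum_congr rfl fun j _ => ?_
      rw [mul_pow]
      ring
    rw [Finset.sum_congr rfl e2, Finset.sum_eq_single 1]
    · rw [h1]
      simp
      ring
    · intro i hi hi1
      rw [Finset.mem_range] at hi
      rw [h2 i (by omega) hi1]
      simp
    · intro h
      exact absurd (Finset.mem_range.2 (by omega)) h
  have hn : L * ‖u 1 0‖ ≤ D * (M + 1) := by
    have e1 : L * ‖u 1 0‖ = ‖(L : ℂ) * u 1 0‖ := by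
      rw [norm_mul, Complex.norm_real, Real.norm_of_nonneg hL0.le]
    rw [e1, hsum]
    refine (norm_sum_le _ _).trans ?_
    calc ∑ j, ‖(γ j : ℂ) * (u 0 (L * ρ j) - Rm j)‖ ≤ ∑ j, |γ j| * (M + 1) := by
          refine Finset.sum_le_sum fun j _ => ?_
          rw [norm_mul, Complex.norm_real, Real.norm_eq_abs]
          refine mul_le_mul_of_nonneg_left ?_ (abs_nonneg _)
          exact (norm_sub_le _ _).trans (add_le_add (h0 _) (hR1 j))
      _ ≤ D * (M + 1) := by
          rw [← Finset.sum_mul]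
          have : ∑ j, |γ j| ≤ D := by simpa using hγ
          gcongr
  have hfin : L * ‖u 1 0‖ ≤ L * (Real.exp 1 * Q * (M + 1)) := by
    refine hn.trans ?_
    have e1 : L * (Real.exp 1 * Q * (M + 1)) = K * (M + 1) := by
      rw [hL]
      field_simp
    rw [e1, hK]
    push_cast
    nlinarith
  exact le_of_mul_le_mul_left hfin hL0

end Vale.Agent.P111.H571
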