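import Vale.Agent.P111.Bdl.B1
import Vale.Agent.P111.QL.Defs
import Mathlib.Analysis.Complex.ExponentialBounds

/-! Spaces with `K`-convexity constant at least `log (c d) / log log (c d)`. -/

namespace Vale.Agent.P111.H571

open Finset

section auer

/-- Vectors and functionals of norm at most one giving an expansion of every vector. -/
structure Auer (κ : Type) [Fintype κ] (E : Type*) [NormedAddCommGroup E] [NormedSpace ℝ E] where
  e : κ → E
  φ : κ → (E →L[ℝ] ℝ)
  he : ∀ k, ‖e k‖ ≤ 1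
  hφ : ∀ k, ‖φ k‖ ≤ 1
  hsum : ∀ x, ∑ k, φ k x • e k = x

theorem avg_sq_sum {n : ℕ} (a : Fin n → ℝ) :
    (avg fun ε : Fin n → ℤˣ => (∑ i, sg (ε i) * a i) ^ 2) = ∑ i, a i ^ 2 := by
  have h : ∀ ε : Fin n → ℤˣ, (∑ i, sg (ε i) * a i) ^ 2 =
      ∑ i, ∑ j, (sg (ε i) * sg (ε j)) * (a i * a j) := by
    intro ε
    rw [sq, Finset.sum_mul_sum]
    refine Finset.sum_congr rfl fun i _ => Finset.sum_congr rfl fun j _ => by ring
  simp only [h]
  rw [avg_sum]
  refine Finset.sum_congr rfl fun i _ => ?_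
  rw [avg_sum, Finset.sum_eq_single i]
  · rw [avg_mul_right, avg_sg_mul_sg, if_pos rfl]; ring
  · intro j _ hj
    rw [avg_mul_right, avg_sg_mul_sg, if_neg (Ne.symm hj), zero_mul]
  · simp

theorem sum_rpow_le {n : ℕ} {q : ℝ} (hq : 2 ≤ q) (a : Fin n → ℝ) (ha : ∀ i, 0 ≤ a i) :
    (∑ i, a i ^ q) ^ (1 / q) ≤ (∑ i, a i ^ 2) ^ (1 / 2 : ℝ) := by
  set T := (∑ i, a i ^ 2) ^ (1 / 2 : ℝ) with hT
  have hq0 : q ≠ 0 := by linarith
  have hS : 0 ≤ ∑ i, a i ^ 2 := by positivity
  have hT0 : 0 ≤ T := by positivity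
  have hT2 : T ^ 2 = ∑ i, a i ^ 2 := by
    rw [hT, ← Real.sqrt_eq_rpow, Real.sq_sqrt hS]
  have hle : ∀ i, a i ≤ T := by
    intro i
    have : a i ^ 2 ≤ T ^ 2 := by
      rw [hT2]
      exact Finset.single_le_sum (f := fun i => a i ^ 2) (fun i _ => by positivity)
        (Finset.mem_univ i)
    exact le_of_sq_le_sq this hT0
  have hadd : ∀ t : ℝ, 0 ≤ t → t ^ (q - 2) * t ^ 2 = t ^ q := by
    intro t ht
    rw [← Real.rpow_natCast t 2, ← Real.rpow_add_of_nonneg ht (by linarith) (by norm_num)]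
    congr 1
    push_cast
    ring
  have h1 : ∑ i, a i ^ q ≤ T ^ q := by
    calc ∑ i, a i ^ q ≤ ∑ i, T ^ (q - 2) * a i ^ 2 := by
          refine Finset.sum_le_sum fun i _ => ?_
          rw [← hadd (a i) (ha i)]
          refine mul_le_mul_of_nonneg_right ?_ (sq_nonneg _)
          exact Real.rpow_le_rpow (ha i) (hle i) (by linarith)
      _ = T ^ (q - 2) * T ^ 2 := by rw [← Finset.mul_sum, hT2]
      _ = T ^ q := hadd T hT0
  calc (∑ i, a i ^ q) ^ (1 / q) ≤ (T ^ q) ^ (1 / q) :=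
        Real.rpow_le_rpow (Finset.sum_nonneg fun i _ => Real.rpow_nonneg (ha i) _) h1
          (by positivity)
    _ = T := by rw [← Real.rpow_mul hT0, mul_one_div, div_self hq0, Real.rpow_one]

variable {κ : Type} [Fintype κ] {E : Type*} [NormedAddCommGroup E] [NormedSpace ℝ E]

theorem Auer.cotype (A : Auer κ E) {q : ℝ} (hq : 2 ≤ q) :
    CotypeWith q (Fintype.card κ : ℝ) E := by
  intro n y
  set S : ℝ := avg fun ε : Fin n → ℤˣ => ‖∑ i, sg (ε i) • y i‖ ^ 2 with hS
  have hS0 : 0 ≤ S := avg_nonneg fun _ => by positivity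
  have h1 : ∀ k, ∑ i, (A.φ k (y i)) ^ 2 ≤ S := by
    intro k
    rw [← avg_sq_sum, hS]
    refine avg_mono fun ε => ?_
    have : ∑ i, sg (ε i) * A.φ k (y i) = A.φ k (∑ i, sg (ε i) • y i) := by simp [map_sum]
    rw [this, ← sq_abs]
    have h2 : |A.φ k (∑ i, sg (ε i) • y i)| ≤ ‖∑ i, sg (ε i) • y i‖ := by
      have := (A.φ k).le_opNorm (∑ i, sg (ε i) • y i)
      rw [Real.norm_eq_abs] at this
      exact this.trans (mul_le_of_le_one_left (norm_nonneg _) (A.hφ k))
    gcongr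
  have h2 : ∀ i, ‖y i‖ ^ 2 ≤ Fintype.card κ * ∑ k, (A.φ k (y i)) ^ 2 := by
    intro i
    have h3 : ‖y i‖ ≤ ∑ k, |A.φ k (y i)| := by
      calc ‖y i‖ = ‖∑ k, A.φ k (y i) • A.e k‖ := by rw [A.hsum]
        _ ≤ ∑ k, ‖A.φ k (y i) • A.e k‖ := norm_sum_le _ _
        _ ≤ ∑ k, |A.φ k (y i)| := by
            refine Finset.sum_le_sum fun k _ => ?_
            rw [norm_smul, Real.norm_eq_abs]
            exact mul_le_of_le_one_right (abs_nonneg _) (A.he k)
    calc ‖y i‖ ^ 2 ≤ (∑ k, |A.φ k (y i)|) ^ 2 := by gcongr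
      _ ≤ Fintype.card κ * ∑ k, |A.φ k (y i)| ^ 2 := by
          have := sq_sum_le_card_mul_sum_sq (s := Finset.univ) (f := fun k => |A.φ k (y i)|)
          simpa using this
      _ = _ := by simp [sq_abs]
  have h3 : ∑ i, ‖y i‖ ^ 2 ≤ (Fintype.card κ : ℝ) ^ 2 * S := by
    calc ∑ i, ‖y i‖ ^ 2 ≤ ∑ i, (Fintype.card κ : ℝ) * ∑ k, (A.φ k (y i)) ^ 2 :=
          Finset.sum_le_sum fun i _ => h2 i
      _ = Fintype.card κ * ∑ k, ∑ i, (A.φ k (y i)) ^ 2 := by
          rw [← Finset.mul_sum, Finset.sum_comm]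
      _ ≤ Fintype.card κ * ∑ _k : κ, S := by
          gcongr with k
          exact h1 k
      _ = _ := by
          rw [Finset.sum_const, Finset.card_univ, nsmul_eq_mul]
          ring
  refine (sum_rpow_le hq (fun i => ‖y i‖) fun i => norm_nonneg _).trans ?_
  rw [← Real.sqrt_eq_rpow, ← Real.sqrt_eq_rpow]
  refine Real.sqrt_le_iff.2 ⟨by positivity, ?_⟩
  rw [mul_pow, Real.sq_sqrt hS0]
  exact h3

/-- The dual system. -/
noncomputable def Auer.dual (A : Auer κ E) : Auer κ (E →L[ℝ] ℝ) where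
  e := A.φ
  φ k := ContinuousLinearMap.apply ℝ ℝ (A.e k)
  he := A.hφ
  hφ k := by
    refine ContinuousLinearMap.opNorm_le_bound _ zero_le_one fun ψ => ?_
    rw [ContinuousLinearMap.apply_apply, one_mul]
    refine (ψ.le_opNorm _).trans ?_
    exact mul_le_of_le_one_right (norm_nonneg _) (A.he k)
  hsum ψ := by
    ext x
    have h := congrArg ψ (A.hsum x)
    rw [map_sum] at h
    rw [← h]
    simp [mul_comm]

end auer

section space

/-- Functions on the cube of dimension `m²` without Walsh coefficients of order above `3 m`. -/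
noncomputable def Pm (m : ℕ) : Submodule ℝ ((Fin (m * m) → ℤˣ) → ℝ) where
  carrier := {F | ∀ T : Finset (Fin (m * m)), 3 * m < #T → wc T F = 0}
  add_mem' {F G} hF hG T hT := by
    have := map_add (wcL ℝ T) F G
    rw [wcL_apply, wcL_apply, wcL_apply] at this
    rw [this, hF T hT, hG T hT, add_zero]
  zero_mem' T _ := by
    have := map_zero (wcL ℝ T)
    rwa [wcL_apply] at this
  smul_mem' c F hF T hT := by
    have := map_smul (wcL ℝ T) c F
    rw [wcL_apply, wcL_apply] at this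
    rw [this, hF T hT, smul_zero]

theorem abs_walsh {I : Type} (S : Finset I) (ω : I → ℤˣ) : |walsh S ω| = 1 := by
  have h := walsh_mul_self S ω
  rw [← abs_mul_abs_self] at h
  have h0 := abs_nonneg (walsh S ω)
  nlinarith

theorem abs_wc_le {I : Type} [Fintype I] [DecidableEq I] (S : Finset I) (F : (I → ℤˣ) → ℝ) :
    |wc S F| ≤ ‖F‖ := by
  unfold wc
  refine (abs_avg_le _).trans ?_
  have h : ∀ ω : I → ℤˣ, |walsh S ω • F ω| ≤ ‖F‖ := by
    intro ω
    rw [smul_eq_mul, abs_mul, abs_walsh, one_mul]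
    exact norm_le_pi_norm F ω
  refine (avg_mono h).trans ?_
  rw [avg_const]

/-- The Walsh system of the space. -/
noncomputable def auerPm (m : ℕ) : Auer {S : Finset (Fin (m * m)) // #S ≤ 3 * m} (Pm m) where
  e S := ⟨fun ω => walsh S.1 ω, by
    intro T hT
    have h := wc_walsh_smul T S.1 (1 : ℝ)
    simp only [smul_eq_mul, mul_one] at h
    rw [h, if_neg]
    intro hTS
    have := S.2
    rw [← hTS] at this
    omega⟩
  φ S := (wcL ℝ S.1).comp (Pm m).subtypeL
  he S := by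
    rw [Submodule.coe_norm]
    refine (pi_norm_le_iff_of_nonneg zero_le_one).2 fun ω => ?_
    rw [Real.norm_eq_abs]
    exact (abs_walsh _ _).le
  hφ S := by
    refine ContinuousLinearMap.opNorm_le_bound _ zero_le_one fun F => ?_
    rw [one_mul, Real.norm_eq_abs]
    have := abs_wc_le S.1 (F : (Fin (m * m) → ℤˣ) → ℝ)
    simpa only [ContinuousLinearMap.comp_apply, Submodule.subtypeL_apply, wcL_apply,
      Submodule.coe_norm] using this
  hsum F := by
    apply Subtype.ext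
    funext ω
    have h1 := sum_walsh_smul_wc (F : (Fin (m * m) → ℤˣ) → ℝ) ω
    rw [← h1]
    have h2 : ∑ S : Finset (Fin (m * m)), walsh S ω • wc S (F : (Fin (m * m) → ℤˣ) → ℝ) =
        ∑ S ∈ Finset.univ.filter (fun S : Finset (Fin (m * m)) => #S ≤ 3 * m),
          walsh S ω • wc S (F : (Fin (m * m) → ℤˣ) → ℝ) := by
      symm
      apply Finset.sum_subset (Finset.filter_subset _ _)
      intro T _ hT
      rw [Finset.mem_filter, not_and] at hT
      have : 3 * m < #T := by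
        have := hT (Finset.mem_univ _)
        omega
      rw [F.2 T this, smul_zero]
    rw [h2, Finset.sum_subtype (p := fun S : Finset (Fin (m * m)) => #S ≤ 3 * m)
      (Finset.univ.filter (fun S : Finset (Fin (m * m)) => #S ≤ 3 * m)) (by simp)]
    simp only [Submodule.coe_sum, Finset.sum_apply, Submodule.coe_smul, Pi.smul_apply,
      ContinuousLinearMap.comp_apply, Submodule.subtypeL_apply, wcL_apply, smul_eq_mul]
    refine Finset.sum_congr rfl fun S _ => mul_comm _ _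

theorem card_le (m : ℕ) :
    Fintype.card {S : Finset (Fin (m * m)) // #S ≤ 3 * m} ≤ (m * m + 1) ^ (3 * m) := by
  classical
  rw [Fintype.card_subtype]
  have h1 : Finset.univ.filter (fun S : Finset (Fin (m * m)) => #S ≤ 3 * m) ⊆
      (Finset.range (3 * m + 1)).biUnion fun k =>
        Finset.powersetCard k (Finset.univ : Finset (Fin (m * m))) := by
    intro S hS
    rw [Finset.mem_filter] at hS
    rw [Finset.mem_biUnion]
    exact ⟨#S, Finset.mem_range.2 (by omega), Finset.mem_powersetCard.2 ⟨Finset.subset_univ _, rfl⟩⟩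
  refine (Finset.card_le_card h1).trans (Finset.card_biUnion_le.trans ?_)
  have h2 : (m * m + 1) ^ (3 * m) =
      ∑ k ∈ Finset.range (3 * m + 1), (m * m) ^ k * 1 ^ (3 * m - k) * (3 * m).choose k :=
    add_pow _ _ _
  rw [h2]
  refine Finset.sum_le_sum fun k hk => ?_
  rw [Finset.mem_range] at hk
  rw [Finset.card_powersetCard, Finset.card_univ, Fintype.card_fin, one_pow, mul_one]
  have h3 : (m * m).choose k ≤ (m * m) ^ k := Nat.choose_le_pow _ _
  have h4 : 1 ≤ (3 * m).choose k := Nat.choose_pos (by omega)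
  calc (m * m).choose k ≤ (m * m) ^ k * 1 := by rw [mul_one]; exact h3
    _ ≤ _ := Nat.mul_le_mul_left _ h4

/-- The coefficients of the truncated Riesz product. -/
noncomputable def bt (m : ℕ) (k : ℕ) : ℂ := (Complex.I / m) ^ k

/-- The truncated Riesz product, as a complex function. -/
noncomputable def Gc (m : ℕ) (x : Fin (m * m) → ℤˣ) : ℂ :=
  ∑ S ∈ Finset.univ.filter (fun S : Finset (Fin (m * m)) => #S ≤ 3 * m), bt m #S * walsh S x

theorem norm_bt {m : ℕ} (k : ℕ) : ‖bt m k‖ = (1 / (m : ℝ)) ^ k := by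
  unfold bt
  rw [norm_pow, norm_div, Complex.norm_I, Complex.norm_natCast]

theorem sum_pow_card {n : ℕ} (t : ℝ) :
    ∑ S : Finset (Fin n), t ^ #S = (1 + t) ^ n := by
  have h := Finset.prod_one_add (f := fun _ : Fin n => t) (Finset.univ : Finset (Fin n))
  rw [Finset.powerset_univ] at h
  simp only [Finset.prod_const, Finset.card_univ, Fintype.card_fin] at h
  exact h.symm

theorem norm_Gc_le {m : ℕ} (hm : 1 ≤ m) (x : Fin (m * m) → ℤˣ) : ‖Gc m x‖ ≤ 3 := by
  have hm0 : (0 : ℝ) < m := by exact_mod_cast hm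
  have hsplit := Finset.sum_filter_add_sum_filter_not
    (Finset.univ : Finset (Finset (Fin (m * m)))) (fun S => #S ≤ 3 * m)
    (fun S => bt m #S * (walsh S x : ℂ))
  have hall : ∑ S : Finset (Fin (m * m)), bt m #S * (walsh S x : ℂ) =
      ∏ i, (1 + Complex.I / m * (sg (x i) : ℂ)) := by
    rw [Finset.prod_one_add, Finset.powerset_univ]
    refine Finset.sum_congr rfl fun S _ => ?_
    unfold bt walsh
    rw [Finset.prod_mul_distrib, Finset.prod_const]
    push_cast
    rfl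
  have hf : ∀ i, ‖1 + Complex.I / m * (sg (x i) : ℂ)‖ ^ 2 = 1 + 1 / (m : ℝ) ^ 2 := by
    intro i
    have e : (1 : ℂ) + Complex.I / m * (sg (x i) : ℂ) = ((1 : ℝ) : ℂ) + ((sg (x i) / m : ℝ) : ℂ) * Complex.I := by
      push_cast
      ring
    rw [e, ← Complex.normSq_eq_norm_sq, Complex.normSq_add_mul_I, div_pow, sg_sq]
    norm_num
  have hA : ‖∑ S : Finset (Fin (m * m)), bt m #S * (walsh S x : ℂ)‖ ≤ 2 := by
    rw [hall, norm_prod]
    have h1 : (∏ i : Fin (m * m), ‖1 + Complex.I / m * (sg (x i) : ℂ)‖) ^ 2 ≤ 2 ^ 2 := by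
      rw [← Finset.prod_pow, Finset.prod_congr rfl fun i _ => hf i, Finset.prod_const,
        Finset.card_univ, Fintype.card_fin]
      have h2 : 1 + 1 / (m : ℝ) ^ 2 ≤ Real.exp (1 / (m : ℝ) ^ 2) := by
        have := Real.add_one_le_exp (1 / (m : ℝ) ^ 2)
        linarith
      calc (1 + 1 / (m : ℝ) ^ 2) ^ (m * m) ≤ Real.exp (1 / (m : ℝ) ^ 2) ^ (m * m) := by gcongr
        _ = Real.exp 1 := by
            rw [← Real.exp_nat_mul]
            congr 1
            push_cast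
            field_simp
        _ ≤ 2 ^ 2 := by
            have := Real.exp_one_lt_d9
            linarith
    exact le_of_sq_le_sq h1 (by norm_num)
  have hB : ‖∑ S ∈ Finset.univ.filter (fun S : Finset (Fin (m * m)) => ¬ #S ≤ 3 * m),
      bt m #S * (walsh S x : ℂ)‖ ≤ 1 := by
    have h1 : ∀ S : Finset (Fin (m * m)), ‖bt m #S * (walsh S x : ℂ)‖ = (1 / (m : ℝ)) ^ #S := by
      intro S
      rw [norm_mul, norm_bt, Complex.norm_real, Real.norm_eq_abs, abs_walsh, mul_one]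
    refine (norm_sum_le _ _).trans ?_
    simp only [h1]
    have h2 : ∑ S ∈ Finset.univ.filter (fun S : Finset (Fin (m * m)) => ¬ #S ≤ 3 * m),
        (1 / (m : ℝ)) ^ #S ≤ ∑ S : Finset (Fin (m * m)), (3 / (m : ℝ)) ^ #S * (1 / 3) ^ (3 * m) := by
      calc ∑ S ∈ Finset.univ.filter (fun S : Finset (Fin (m * m)) => ¬ #S ≤ 3 * m),
            (1 / (m : ℝ)) ^ #S
          ≤ ∑ S ∈ Finset.univ.filter (fun S : Finset (Fin (m * m)) => ¬ #S ≤ 3 * m),
            (3 / (m : ℝ)) ^ #S * (1 / 3) ^ (3 * m) := by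
            refine Finset.sum_le_sum fun S hS => ?_
            rw [Finset.mem_filter] at hS
            have h3 : (3 / (m : ℝ)) ^ #S = (1 / (m : ℝ)) ^ #S * 3 ^ #S := by
              rw [← mul_pow]; congr 1; ring
            have h4 : (1 : ℝ) ≤ 3 ^ #S * (1 / 3) ^ (3 * m) := by
              rw [one_div, inv_pow, ← div_eq_mul_inv, one_le_div (by positivity)]
              exact pow_le_pow_right₀ (by norm_num) (by omega)
            rw [h3, mul_assoc]
            exact le_mul_of_one_le_right (by positivity) h4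
        _ ≤ _ := Finset.sum_le_sum_of_subset_of_nonneg (Finset.filter_subset _ _)
            fun _ _ _ => by positivity
    refine h2.trans ?_
    rw [← Finset.sum_mul, sum_pow_card]
    have h5 : (1 + 3 / (m : ℝ)) ^ (m * m) ≤ Real.exp 1 ^ (3 * m) := by
      have h6 : 1 + 3 / (m : ℝ) ≤ Real.exp (3 / (m : ℝ)) := by
        have := Real.add_one_le_exp (3 / (m : ℝ))
        linarith
      calc (1 + 3 / (m : ℝ)) ^ (m * m) ≤ Real.exp (3 / (m : ℝ)) ^ (m * m) := by gcongr
        _ = Real.exp 1 ^ (3 * m) := by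
            rw [← Real.exp_nat_mul, ← Real.exp_nat_mul]
            congr 1
            push_cast
            field_simp
    calc (1 + 3 / (m : ℝ)) ^ (m * m) * (1 / 3) ^ (3 * m)
        ≤ Real.exp 1 ^ (3 * m) * (1 / 3) ^ (3 * m) := by gcongr
      _ = (Real.exp 1 * (1 / 3)) ^ (3 * m) := by rw [mul_pow]
      _ ≤ 1 := by
          refine pow_le_one₀ (by positivity) ?_
          have := Real.exp_one_lt_d9
          linarith
  have hG : Gc m x = (∑ S : Finset (Fin (m * m)), bt m #S * (walsh S x : ℂ)) -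
      ∑ S ∈ Finset.univ.filter (fun S : Finset (Fin (m * m)) => ¬ #S ≤ 3 * m),
        bt m #S * (walsh S x : ℂ) := by
    rw [← hsplit]
    unfold Gc
    ring
  rw [hG]
  refine (norm_sub_le _ _).trans ?_
  linarith

/-- The test function. -/
noncomputable def Ft (m : ℕ) (ε : Fin (m * m) → ℤˣ) : (Fin (m * m) → ℤˣ) → ℝ := fun x =>
  (Gc m (ε * x)).im

theorem Ft_eq (m : ℕ) (ε x : Fin (m * m) → ℤˣ) : Ft m ε x =
    ∑ S ∈ Finset.univ.filter (fun S : Finset (Fin (m * m)) => #S ≤ 3 * m),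
      walsh S x • ((bt m #S).im * walsh S ε) := by
  unfold Ft Gc
  rw [Complex.im_sum]
  refine Finset.sum_congr rfl fun S _ => ?_
  rw [Complex.im_mul_ofReal, walsh_mul, smul_eq_mul]
  ring

theorem wc_Ft (m : ℕ) (ε : Fin (m * m) → ℤˣ) (T : Finset (Fin (m * m))) :
    wc T (Ft m ε) = if #T ≤ 3 * m then (bt m #T).im * walsh T ε else 0 := by
  have h : Ft m ε = ∑ S ∈ Finset.univ.filter (fun S : Finset (Fin (m * m)) => #S ≤ 3 * m),
      fun x => walsh S x • ((bt m #S).im * walsh S ε) := by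
    funext x
    rw [Ft_eq, Finset.sum_apply]
  rw [← wcL_apply, h, map_sum]
  simp only [wcL_apply, wc_walsh_smul]
  rw [Finset.sum_ite_eq]
  simp

theorem Ft_mem (m : ℕ) (ε : Fin (m * m) → ℤˣ) : Ft m ε ∈ Pm m := by
  intro T hT
  rw [wc_Ft, if_neg (by omega)]

theorem wc_Ft_singleton {m : ℕ} (hm : 1 ≤ m) (ε : Fin (m * m) → ℤˣ) (i : Fin (m * m)) :
    wc {i} (Ft m ε) = 1 / m * sg (ε i) := by
  rw [wc_Ft, Finset.card_singleton, if_pos (by omega), walsh_singleton]
  congr 1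
  unfold bt
  rw [pow_one, Complex.div_natCast_im, Complex.I_im]

theorem norm_Ft_le {m : ℕ} (hm : 1 ≤ m) (ε : Fin (m * m) → ℤˣ) : ‖Ft m ε‖ ≤ 3 := by
  refine (pi_norm_le_iff_of_nonneg (by norm_num)).2 fun x => ?_
  rw [Real.norm_eq_abs]
  exact (Complex.abs_im_le_norm _).trans (norm_Gc_le hm _)

/-- Evaluation at a point of the cube. -/
noncomputable def evm (m : ℕ) (ω : Fin (m * m) → ℤˣ) : Pm m →L[ℝ] ℝ :=
  (ContinuousLinearMap.proj (R := ℝ) (φ := fun _ : Fin (m * m) → ℤˣ => ℝ) ω).comp (Pm m).subtypeL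

theorem evm_apply (m : ℕ) (ω : Fin (m * m) → ℤˣ) (F : Pm m) :
    evm m ω F = (F : (Fin (m * m) → ℤˣ) → ℝ) ω := rfl

theorem norm_evm_le (m : ℕ) (ω : Fin (m * m) → ℤˣ) : ‖evm m ω‖ ≤ 1 := by
  refine ContinuousLinearMap.opNorm_le_bound _ zero_le_one fun F => ?_
  rw [one_mul, evm_apply, Submodule.coe_norm]
  exact norm_le_pi_norm _ ω

theorem rad_evm {m : ℕ} (ε : Fin (m * m) → ℤˣ) (F : Pm m) :
    rad (evm m) ε F = ∑ i, sg (ε i) * wc {i} (F : (Fin (m * m) → ℤˣ) → ℝ) := by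
  unfold rad
  rw [_root_.sum_apply]
  refine Finset.sum_congr rfl fun i _ => ?_
  rw [_root_.smul_apply, smul_eq_mul, avg_apply]
  congr 1
  unfold wc
  refine avg_congr fun η => ?_
  rw [walsh_singleton, _root_.smul_apply, evm_apply]

theorem le_norm_rad {m : ℕ} (hm : 1 ≤ m) (ε : Fin (m * m) → ℤˣ) :
    (m : ℝ) / 3 ≤ ‖rad (evm m) ε‖ := by
  have hm0 : (0 : ℝ) < m := by exact_mod_cast hm
  have h1 : rad (evm m) ε ⟨Ft m ε, Ft_mem m ε⟩ = m := by
    rw [rad_evm]
    have : ∀ i : Fin (m * m), sg (ε i) * wc {i} (Ft m ε) = 1 / (m : ℝ) := by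
      intro i
      rw [wc_Ft_singleton hm]
      calc sg (ε i) * (1 / (m : ℝ) * sg (ε i)) = 1 / (m : ℝ) * (sg (ε i) * sg (ε i)) := by ring
        _ = _ := by rw [sg_mul_self, mul_one]
    simp only [this]
    rw [Finset.sum_const, Finset.card_univ, Fintype.card_fin, nsmul_eq_mul]
    push_cast
    field_simp
  have h2 := (rad (evm m) ε).le_opNorm ⟨Ft m ε, Ft_mem m ε⟩
  rw [h1, Submodule.coe_norm, Real.norm_of_nonneg hm0.le] at h2
  have h3 := norm_Ft_le hm ε
  have h4 : ‖rad (evm m) ε‖ * ‖Ft m ε‖ ≤ ‖rad (evm m) ε‖ * 3 := by gcongr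
  have h5 : (m : ℝ) ≤ ‖rad (evm m) ε‖ * 3 := h2.trans h4
  linarith

/-- The lower bound. -/
theorem lower {m : ℕ} (hm : 1 ≤ m) {K : ℝ} (hK : KConvexWith K (Pm m →L[ℝ] ℝ)) :
    (m : ℝ) / 3 ≤ K := by
  have hm0 : (0 : ℝ) < m := by exact_mod_cast hm
  have h := hK (m * m) (evm m)
  rw [← Real.sqrt_eq_rpow, ← Real.sqrt_eq_rpow] at h
  have h1 : (m : ℝ) / 3 ≤ √(avg fun ε => ‖rad (evm m) ε‖ ^ 2) := by
    apply Real.le_sqrt_of_sq_le
    have : ∀ ε : Fin (m * m) → ℤˣ, ((m : ℝ) / 3) ^ 2 ≤ ‖rad (evm m) ε‖ ^ 2 := by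
      intro ε
      have := le_norm_rad hm ε
      gcongr
    have h2 := avg_mono this
    rwa [avg_const] at h2
  have h2 : √(avg fun ε => ‖evm m ε‖ ^ 2) ≤ 1 := by
    rw [Real.sqrt_le_one]
    have : ∀ ε : Fin (m * m) → ℤˣ, ‖evm m ε‖ ^ 2 ≤ 1 := fun ε =>
      pow_le_one₀ (by positivity) (norm_evm_le m ε)
    have h2 := avg_mono this
    rwa [avg_const] at h2
  have h3 := h1.trans h
  have h4 : 0 ≤ √(avg fun ε => ‖evm m ε‖ ^ 2) := Real.sqrt_nonneg _
  rcases le_or_gt 0 K with hK0 | hK0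
  · exact h3.trans (mul_le_of_le_one_right hK0 h2)
  · exfalso
    have : K * √(avg fun ε => ‖evm m ε‖ ^ 2) ≤ 0 := mul_nonpos_of_nonpos_of_nonneg hK0.le h4
    have h5 : 0 < (m : ℝ) / 3 := by positivity
    linarith

end space

end Vale.Agent.P111.H571
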