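import Vale.Agent.P111.R2.H571.Lower

/-! The consequences of the lower bound. -/

namespace Vale.Agent.P111.H571

open Finset

theorem cotypeWith_mono {q C C' : ℝ} {Y : Type*} [NormedAddCommGroup Y] [NormedSpace ℝ Y]
    (h : CotypeWith q C Y) (hC : C ≤ C') : CotypeWith q C' Y := by
  intro n y
  refine (h n y).trans (mul_le_mul_of_nonneg_right hC ?_)
  exact Real.rpow_nonneg (avg_nonneg fun _ => sq_nonneg _) _

/-- The spaces with large constant. -/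
theorem lower_spaces (m : ℕ) (hm : 1 ≤ m) :
    ∃ (E : Type) (_ : NormedAddCommGroup E) (_ : NormedSpace ℝ E), FiniteDimensional ℝ E ∧
      (∀ q : ℝ, 2 ≤ q → CotypeWith q (((m : ℝ) ^ 2 + 1) ^ (3 * m)) E ∧
        CotypeWith q (((m : ℝ) ^ 2 + 1) ^ (3 * m)) (E →L[ℝ] ℝ)) ∧
      ∀ K : ℝ, KConvexWith K E → (m : ℝ) / 3 ≤ K := by
  have hcard : (Fintype.card {S : Finset (Fin (m * m)) // #S ≤ 3 * m} : ℝ) ≤
      ((m : ℝ) ^ 2 + 1) ^ (3 * m) := by
    have h := card_le m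
    have h2 : ((Fintype.card {S : Finset (Fin (m * m)) // #S ≤ 3 * m} : ℕ) : ℝ) ≤
        (((m * m + 1) ^ (3 * m) : ℕ) : ℝ) := by exact_mod_cast h
    refine h2.trans (le_of_eq ?_)
    push_cast
    ring
  refine ⟨Pm m →L[ℝ] ℝ, inferInstance, inferInstance, inferInstance, ?_, ?_⟩
  · intro q hq
    exact ⟨cotypeWith_mono ((auerPm m).dual.cotype hq) hcard,
      cotypeWith_mono ((auerPm m).dual.dual.cotype hq) hcard⟩
  · intro K hK
    exact lower hm hK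

/-- No exponent below one. -/
theorem lower_exponent (q r : ℝ) (hq : 2 ≤ q) (hr : 2 ≤ r) (A β : ℝ) (hβ : β < 1) :
    ∃ (E : Type) (_ : NormedAddCommGroup E) (_ : NormedSpace ℝ E) (c d : ℝ),
      FiniteDimensional ℝ E ∧ 1 ≤ c ∧ 1 ≤ d ∧ CotypeWith q c E ∧
      CotypeWith r d (E →L[ℝ] ℝ) ∧
      ∀ K : ℝ, KConvexWith K E → A * (1 + Real.log (c * d)) ^ β < K := by
  -- reduce to a nonnegative exponent
  set b : ℝ := max β (1 / 2) with hb
  have hb0 : 0 < b := lt_of_lt_of_le (by norm_num) (le_max_right _ _)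
  have hb1 : b < 1 := max_lt hβ (by norm_num)
  set δ : ℝ := (1 - b) / 4 with hδ
  have hδ0 : 0 < δ := by rw [hδ]; linarith
  -- growth
  have hgrow : ∀ m : ℕ, 1 ≤ m → 1 + Real.log ((((m : ℝ) ^ 2 + 1) ^ (3 * m)) *
      (((m : ℝ) ^ 2 + 1) ^ (3 * m))) ≤ (1 + 6 * (2 ^ δ / δ)) * (m : ℝ) ^ (1 + 2 * δ) := by
    intro m hm
    have hm1 : (1 : ℝ) ≤ m := by exact_mod_cast hm
    have hm0 : (0 : ℝ) < m := by linarith
    have h1 : Real.log ((((m : ℝ) ^ 2 + 1) ^ (3 * m)) * (((m : ℝ) ^ 2 + 1) ^ (3 * m))) =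
        6 * m * Real.log ((m : ℝ) ^ 2 + 1) := by
      rw [← pow_add, Real.log_pow]
      push_cast
      ring
    have h2 : Real.log ((m : ℝ) ^ 2 + 1) ≤ 2 ^ δ / δ * (m : ℝ) ^ (2 * δ) := by
      calc Real.log ((m : ℝ) ^ 2 + 1) ≤ ((m : ℝ) ^ 2 + 1) ^ δ / δ :=
            Real.log_le_rpow_div (by positivity) hδ0
        _ ≤ (2 * (m : ℝ) ^ 2) ^ δ / δ := by
            gcongr
            nlinarith
        _ = 2 ^ δ / δ * (m : ℝ) ^ (2 * δ) := by
            rw [Real.mul_rpow (by norm_num) (by positivity), ← Real.rpow_natCast (m : ℝ) 2,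
              ← Real.rpow_mul hm0.le]
            push_cast
            ring
    have h3 : (1 : ℝ) ≤ (m : ℝ) ^ (1 + 2 * δ) := Real.one_le_rpow hm1 (by linarith)
    have h4 : (m : ℝ) * (m : ℝ) ^ (2 * δ) = (m : ℝ) ^ (1 + 2 * δ) := by
      rw [Real.rpow_add hm0, Real.rpow_one]
    rw [h1]
    calc 1 + 6 * m * Real.log ((m : ℝ) ^ 2 + 1)
        ≤ 1 + 6 * m * (2 ^ δ / δ * (m : ℝ) ^ (2 * δ)) := by gcongr
      _ = 1 + 6 * (2 ^ δ / δ) * ((m : ℝ) * (m : ℝ) ^ (2 * δ)) := by ring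
      _ = 1 + 6 * (2 ^ δ / δ) * (m : ℝ) ^ (1 + 2 * δ) := by rw [h4]
      _ ≤ 1 * (m : ℝ) ^ (1 + 2 * δ) + 6 * (2 ^ δ / δ) * (m : ℝ) ^ (1 + 2 * δ) := by linarith
      _ = _ := by ring
  set C : ℝ := 1 + 6 * (2 ^ δ / δ) with hC
  have hC0 : 0 < C := by positivity
  -- the exponent of `m`
  set η : ℝ := (1 + 2 * δ) * b with hη
  have hη1 : η < 1 := by
    rw [hη, hδ]
    nlinarith
  have hη0 : 0 < 1 - η := by linarith
  -- choose m
  have hlim : Filter.Tendsto (fun m : ℕ => (m : ℝ) ^ (1 - η)) Filter.atTop Filter.atTop :=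
    (tendsto_rpow_atTop hη0).comp tendsto_natCast_atTop_atTop
  obtain ⟨m, hm1, hm2⟩ := ((Filter.eventually_ge_atTop 1).and
    (hlim.eventually_gt_atTop (3 * (|A| * C ^ b)))).exists
  have hmR : (1 : ℝ) ≤ m := by exact_mod_cast hm1
  have hm0 : (0 : ℝ) < m := by linarith
  obtain ⟨E, i1, i2, hfin, hcot, hK⟩ := lower_spaces m hm1
  have hc : (1 : ℝ) ≤ ((m : ℝ) ^ 2 + 1) ^ (3 * m) := by
    apply one_le_pow₀
    have : 0 ≤ (m : ℝ) ^ 2 := by positivity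
    linarith
  refine ⟨E, i1, i2, ((m : ℝ) ^ 2 + 1) ^ (3 * m), ((m : ℝ) ^ 2 + 1) ^ (3 * m), hfin, hc, hc,
    (hcot q hq).1, (hcot r hr).2, ?_⟩
  intro K hKK
  refine lt_of_lt_of_le ?_ (hK K hKK)
  set l : ℝ := 1 + Real.log ((((m : ℝ) ^ 2 + 1) ^ (3 * m)) * (((m : ℝ) ^ 2 + 1) ^ (3 * m)))
    with hl
  have hl1 : 1 ≤ l := by
    rw [hl]
    have : 0 ≤ Real.log ((((m : ℝ) ^ 2 + 1) ^ (3 * m)) * (((m : ℝ) ^ 2 + 1) ^ (3 * m))) :=
      Real.log_nonneg (one_le_mul_of_one_le_of_one_le hc hc)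
    linarith
  have hlg := hgrow m hm1
  calc A * l ^ β ≤ |A| * l ^ b := by
        have h1 : A ≤ |A| := le_abs_self A
        have h2 : l ^ β ≤ l ^ b := Real.rpow_le_rpow_of_exponent_le hl1 (le_max_left _ _)
        have h3 : 0 ≤ l ^ β := by positivity
        calc A * l ^ β ≤ |A| * l ^ β := by gcongr
          _ ≤ _ := by gcongr
    _ ≤ |A| * (C * (m : ℝ) ^ (1 + 2 * δ)) ^ b := by
        gcongr
    _ = (|A| * C ^ b) * (m : ℝ) ^ η := by
        rw [Real.mul_rpow hC0.le (by positivity), ← Real.rpow_mul hm0.le, hη]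
        ring
    _ < (m : ℝ) / 3 := by
        have h5 : (m : ℝ) = (m : ℝ) ^ (1 - η) * (m : ℝ) ^ η := by
          rw [← Real.rpow_add hm0]; simp
        have h6 : 0 < (m : ℝ) ^ η := Real.rpow_pos_of_pos hm0 _
        have h7 : 3 * (|A| * C ^ b) * (m : ℝ) ^ η < (m : ℝ) ^ (1 - η) * (m : ℝ) ^ η := by
          gcongr
        rw [← h5] at h7
        linarith

end Vale.Agent.P111.H571
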