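import Vale.Agent.P111.R2.H571.Lower2

/-! Spaces whose `K`-convexity constant is at least a multiple of the logarithm of the cotype
constants. -/

namespace Vale.Agent.P111.H571

open Finset

section hil

/-- Vectors and functionals which compare a space with a Hilbert space. -/
structure Hil (κ : Type) [Fintype κ] (E : Type*) [NormedAddCommGroup E] [NormedSpace ℝ E]
    (A B : ℝ) where
  e : κ → E
  φ : κ → (E →L[ℝ] ℝ)
  hA : ∀ x, ∑ k, (φ k x) ^ 2 ≤ A ^ 2 * ‖x‖ ^ 2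
  hB : ∀ c : κ → ℝ, ‖∑ k, c k • e k‖ ^ 2 ≤ B ^ 2 * ∑ k, (c k) ^ 2
  hsum : ∀ x, ∑ k, φ k x • e k = x

variable {κ : Type} [Fintype κ] {E : Type*} [NormedAddCommGroup E] [NormedSpace ℝ E] {A B : ℝ}

theorem Hil.cotype (h : Hil κ E A B) (hA0 : 0 ≤ A) (hB0 : 0 ≤ B) {q : ℝ} (hq : 2 ≤ q) :
    CotypeWith q (A * B) E := by
  intro n y
  set S : ℝ := avg fun ε : Fin n → ℤˣ => ‖∑ i, sg (ε i) • y i‖ ^ 2 with hS
  have hS0 : 0 ≤ S := avg_nonneg fun _ => by positivity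
  have h1 : ∑ k, ∑ i, (h.φ k (y i)) ^ 2 ≤ A ^ 2 * S := by
    have e1 : ∀ k, ∑ i, (h.φ k (y i)) ^ 2 =
        avg fun ε : Fin n → ℤˣ => (h.φ k (∑ i, sg (ε i) • y i)) ^ 2 := by
      intro k
      rw [← avg_sq_sum]
      refine avg_congr fun ε => ?_
      simp [map_sum]
    simp only [e1]
    rw [← avg_sum, hS, ← H1.avg_mul]
    exact avg_mono fun ε => h.hA _
  have h2 : ∀ i, ‖y i‖ ^ 2 ≤ B ^ 2 * ∑ k, (h.φ k (y i)) ^ 2 := by
    intro i
    have := h.hB fun k => h.φ k (y i)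
    rwa [h.hsum] at this
  have h3 : ∑ i, ‖y i‖ ^ 2 ≤ (A * B) ^ 2 * S := by
    calc ∑ i, ‖y i‖ ^ 2 ≤ ∑ i, B ^ 2 * ∑ k, (h.φ k (y i)) ^ 2 :=
          Finset.sum_le_sum fun i _ => h2 i
      _ = B ^ 2 * ∑ k, ∑ i, (h.φ k (y i)) ^ 2 := by
          rw [← Finset.mul_sum, Finset.sum_comm]
      _ ≤ B ^ 2 * (A ^ 2 * S) := by gcongr
      _ = _ := by ring
  refine (sum_rpow_le hq (fun i => ‖y i‖) fun i => norm_nonneg _).trans ?_
  rw [← Real.sqrt_eq_rpow, ← Real.sqrt_eq_rpow]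
  refine Real.sqrt_le_iff.2 ⟨by positivity, ?_⟩
  rw [mul_pow, Real.sq_sqrt hS0]
  exact h3

/-- The dual system. -/
noncomputable def Hil.dual (h : Hil κ E A B) (hA0 : 0 ≤ A) :
    Hil κ (E →L[ℝ] ℝ) B A where
  e := h.φ
  φ k := ContinuousLinearMap.apply ℝ ℝ (h.e k)
  hA ψ := by
    simp only [ContinuousLinearMap.apply_apply]
    set s : ℝ := ∑ k, (ψ (h.e k)) ^ 2 with hs
    have hs0 : 0 ≤ s := Finset.sum_nonneg fun _ _ => sq_nonneg _
    have h1 : s = ψ (∑ k, ψ (h.e k) • h.e k) := by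
      rw [map_sum, hs]
      refine Finset.sum_congr rfl fun k _ => ?_
      rw [map_smul, smul_eq_mul, sq]
    have h2 : s ≤ ‖ψ‖ * ‖∑ k, ψ (h.e k) • h.e k‖ := by
      have := ψ.le_opNorm (∑ k, ψ (h.e k) • h.e k)
      rw [← h1, Real.norm_of_nonneg hs0] at this
      exact this
    have h3 := h.hB fun k => ψ (h.e k)
    rw [← hs] at h3
    rcases eq_or_lt_of_le hs0 with h0 | h0
    · rw [← h0]; positivity
    · have h4 : s ^ 2 ≤ ‖ψ‖ ^ 2 * (B ^ 2 * s) := by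
        calc s ^ 2 ≤ (‖ψ‖ * ‖∑ k, ψ (h.e k) • h.e k‖) ^ 2 := by gcongr
          _ = ‖ψ‖ ^ 2 * ‖∑ k, ψ (h.e k) • h.e k‖ ^ 2 := by ring
          _ ≤ _ := by gcongr
      have h5 : s * s ≤ (B ^ 2 * ‖ψ‖ ^ 2) * s := by nlinarith
      exact le_of_mul_le_mul_right h5 h0
  hB c := by
    have h1 : ‖∑ k, c k • h.φ k‖ ≤ A * √(∑ k, (c k) ^ 2) := by
      refine ContinuousLinearMap.opNorm_le_bound _ (by positivity) fun x => ?_
      have h2 : (∑ k, c k • h.φ k) x = ∑ k, c k * h.φ k x := by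
        rw [_root_.sum_apply]
        refine Finset.sum_congr rfl fun k _ => ?_
        rw [_root_.smul_apply, smul_eq_mul]
      rw [h2, Real.norm_eq_abs]
      apply abs_le_of_sq_le_sq _ (by positivity)
      calc (∑ k, c k * h.φ k x) ^ 2 ≤ (∑ k, (c k) ^ 2) * ∑ k, (h.φ k x) ^ 2 :=
            Finset.sum_mul_sq_le_sq_mul_sq _ _ _
        _ ≤ (∑ k, (c k) ^ 2) * (A ^ 2 * ‖x‖ ^ 2) := by
            gcongr
            exact h.hA x
        _ = (A * √(∑ k, (c k) ^ 2) * ‖x‖) ^ 2 := by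
            rw [mul_pow, mul_pow, Real.sq_sqrt (Finset.sum_nonneg fun _ _ => sq_nonneg _)]
            ring
    calc ‖∑ k, c k • h.φ k‖ ^ 2 ≤ (A * √(∑ k, (c k) ^ 2)) ^ 2 := by gcongr
      _ = _ := by rw [mul_pow, Real.sq_sqrt (Finset.sum_nonneg fun _ _ => sq_nonneg _)]
  hsum ψ := by
    ext x
    have h2 := congrArg ψ (h.hsum x)
    rw [map_sum] at h2
    rw [← h2]
    simp [mul_comm]

end hil

section space

/-- The weight. -/
noncomputable def wt (m : ℕ) (k : ℕ) : ℝ := (√(1 / (m : ℝ))) ^ k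

theorem wt_pos {m : ℕ} (hm : 1 ≤ m) (k : ℕ) : 0 < wt m k := by
  have hm0 : (0 : ℝ) < m := by exact_mod_cast hm
  unfold wt
  positivity

theorem wt_sq {m : ℕ} (k : ℕ) : wt m k ^ 2 = (1 / (m : ℝ)) ^ k := by
  unfold wt
  rw [← pow_mul, mul_comm k 2, pow_mul, Real.sq_sqrt (by positivity)]

theorem sum_wt_sq {m : ℕ} (hm : 1 ≤ m) :
    ∑ S : Finset (Fin (m * m)), wt m #S ^ 2 ≤ Real.exp m := by
  have hm0 : (0 : ℝ) < m := by exact_mod_cast hm
  simp only [wt_sq]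
  rw [sum_pow_card]
  have h2 : 1 + 1 / (m : ℝ) ≤ Real.exp (1 / (m : ℝ)) := by
    have := Real.add_one_le_exp (1 / (m : ℝ))
    linarith
  calc (1 + 1 / (m : ℝ)) ^ (m * m) ≤ Real.exp (1 / (m : ℝ)) ^ (m * m) := by gcongr
    _ = Real.exp m := by
        rw [← Real.exp_nat_mul]
        congr 1
        push_cast
        field_simp

/-- The Hilbert space. -/
abbrev Hm (m : ℕ) : Type := EuclideanSpace ℝ (Finset (Fin (m * m)))

/-- Functions on the cube together with their weighted Walsh coefficients. -/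
noncomputable def Em (m : ℕ) : Submodule ℝ (((Fin (m * m) → ℤˣ) → ℝ) × Hm m) where
  carrier := {p | ∀ S : Finset (Fin (m * m)),
    wt m #S * p.2 S = Real.exp (-(m / 2 : ℝ)) * wc S p.1}
  add_mem' {p r} hp hr S := by
    have h := map_add (wcL ℝ S) p.1 r.1
    rw [wcL_apply, wcL_apply, wcL_apply] at h
    have h1 : (p + r).1 = p.1 + r.1 := rfl
    have h2 : (p + r).2 S = p.2 S + r.2 S := rfl
    rw [h1, h2, h, mul_add, mul_add, hp S, hr S]
  zero_mem' S := by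
    have h := map_zero (wcL ℝ S)
    rw [wcL_apply] at h
    have h1 : (0 : ((Fin (m * m) → ℤˣ) → ℝ) × Hm m).1 = 0 := rfl
    have h2 : (0 : ((Fin (m * m) → ℤˣ) → ℝ) × Hm m).2 S = 0 := rfl
    rw [h1, h2, h, mul_zero, mul_zero]
  smul_mem' c p hp S := by
    have h := map_smul (wcL ℝ S) c p.1
    rw [wcL_apply, wcL_apply] at h
    have h1 : (c • p).1 = c • p.1 := rfl
    have h2 : (c • p).2 S = c * p.2 S := rfl
    rw [h1, h2, h, smul_eq_mul]
    linear_combination c * hp S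

theorem norm_fst_le {m : ℕ} (x : Em m) : ‖(x : ((Fin (m * m) → ℤˣ) → ℝ) × Hm m).1‖ ≤ ‖x‖ := by
  rw [Submodule.coe_norm, Prod.norm_def]
  exact le_max_left _ _

theorem norm_snd_le {m : ℕ} (x : Em m) : ‖(x : ((Fin (m * m) → ℤˣ) → ℝ) × Hm m).2‖ ≤ ‖x‖ := by
  rw [Submodule.coe_norm, Prod.norm_def]
  exact le_max_right _ _

theorem wc_walsh_fun {n : ℕ} (T S : Finset (Fin n)) (a : ℝ) :
    wc T (fun ω : Fin n → ℤˣ => a * walsh S ω) = if T = S then a else 0 := by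
  have h := wc_walsh_smul T S a
  simp only [smul_eq_mul] at h
  rw [← h]
  congr 1
  funext ω
  ring

/-- The basis. -/
noncomputable def bas (m : ℕ) (S : Finset (Fin (m * m))) :
    ((Fin (m * m) → ℤˣ) → ℝ) × Hm m :=
  (fun ω => (Real.exp (m / 2 : ℝ) * wt m #S) * walsh S ω, EuclideanSpace.single S 1)

theorem bas_mem (m : ℕ) (S : Finset (Fin (m * m))) : bas m S ∈ Em m := by
  intro T
  have h1 : (bas m S).1 = fun ω => (Real.exp (m / 2 : ℝ) * wt m #S) * walsh S ω := rfl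
  have h2 : (bas m S).2 T = if T = S then 1 else 0 := by
    change (EuclideanSpace.single S (1 : ℝ)) T = _
    simp
  rw [h1, h2, wc_walsh_fun]
  split_ifs with h
  · rw [h, ← mul_assoc, ← Real.exp_add]
    simp
  · simp

/-- The comparison with the Hilbert space. -/
noncomputable def hilEm {m : ℕ} (hm : 1 ≤ m) :
    Hil (Finset (Fin (m * m))) (Em m) 1 (Real.exp m) where
  e S := ⟨bas m S, bas_mem m S⟩
  φ S := ((EuclideanSpace.proj S).comp
    (ContinuousLinearMap.snd ℝ ((Fin (m * m) → ℤˣ) → ℝ) (Hm m))).comp (Em m).subtypeL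
  hA x := by
    have h := norm_snd_le x
    have h1 : ∑ S, ((x : ((Fin (m * m) → ℤˣ) → ℝ) × Hm m).2 S) ^ 2 =
        ‖(x : ((Fin (m * m) → ℤˣ) → ℝ) × Hm m).2‖ ^ 2 := by
      rw [EuclideanSpace.real_norm_sq_eq]
    calc _ = ∑ S, ((x : ((Fin (m * m) → ℤˣ) → ℝ) × Hm m).2 S) ^ 2 := rfl
      _ = ‖(x : ((Fin (m * m) → ℤˣ) → ℝ) × Hm m).2‖ ^ 2 := h1
      _ ≤ 1 ^ 2 * ‖x‖ ^ 2 := by
          rw [one_pow, one_mul]
          gcongr
  hB c := by
    have hc0 : 0 ≤ ∑ S, (c S) ^ 2 := Finset.sum_nonneg fun _ _ => sq_nonneg _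
    have he1 : 1 ≤ Real.exp m := Real.one_le_exp (by positivity)
    have h1 : ‖∑ S, c S • (⟨bas m S, bas_mem m S⟩ : Em m)‖ ≤
        Real.exp m * √(∑ S, (c S) ^ 2) := by
      rw [Submodule.coe_norm, Prod.norm_def]
      apply max_le
      · refine (pi_norm_le_iff_of_nonneg (by positivity)).2 fun ω => ?_
        have e1 : (((∑ S, c S • (⟨bas m S, bas_mem m S⟩ : Em m) : Em m) :
            ((Fin (m * m) → ℤˣ) → ℝ) × Hm m)).1 ω =
            ∑ S, c S * ((Real.exp (m / 2 : ℝ) * wt m #S) * walsh S ω) := by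
          rw [Submodule.coe_sum, Prod.fst_sum, Finset.sum_apply]
          rfl
        rw [e1, Real.norm_eq_abs]
        apply abs_le_of_sq_le_sq _ (by positivity)
        calc (∑ S, c S * ((Real.exp (m / 2 : ℝ) * wt m #S) * walsh S ω)) ^ 2
            ≤ (∑ S, (c S) ^ 2) * ∑ S, ((Real.exp (m / 2 : ℝ) * wt m #S) * walsh S ω) ^ 2 :=
              Finset.sum_mul_sq_le_sq_mul_sq _ _ _
          _ = (∑ S, (c S) ^ 2) * (Real.exp m * ∑ S : Finset (Fin (m * m)), wt m #S ^ 2) := by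
              congr 1
              rw [Finset.mul_sum]
              refine Finset.sum_congr rfl fun S _ => ?_
              have e2 : walsh S ω ^ 2 = 1 := by rw [sq, walsh_mul_self]
              have e3 : Real.exp (m / 2 : ℝ) ^ 2 = Real.exp m := by
                rw [← Real.exp_nat_mul]
                congr 1
                push_cast
                ring
              rw [mul_pow, mul_pow, e2, e3, mul_one]
          _ ≤ (∑ S, (c S) ^ 2) * (Real.exp m * Real.exp m) := by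
              gcongr
              exact sum_wt_sq hm
          _ = (Real.exp m * √(∑ S, (c S) ^ 2)) ^ 2 := by
              rw [mul_pow, Real.sq_sqrt hc0]
              ring
      · have e1 : ∀ T, ((((∑ S, c S • (⟨bas m S, bas_mem m S⟩ : Em m) : Em m) :
            ((Fin (m * m) → ℤˣ) → ℝ) × Hm m)).2) T = c T := by
          intro T
          rw [Submodule.coe_sum, Prod.snd_sum]
          have : ∀ S, ((c S • (⟨bas m S, bas_mem m S⟩ : Em m) : Em m) :
              ((Fin (m * m) → ℤˣ) → ℝ) × Hm m).2 = c S • EuclideanSpace.single S (1 : ℝ) := by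
            intro S
            rfl
          simp only [this]
          simp [Pi.single_apply]
        rw [EuclideanSpace.norm_eq]
        have e2 : ∑ T, ‖((((∑ S, c S • (⟨bas m S, bas_mem m S⟩ : Em m) : Em m) :
            ((Fin (m * m) → ℤˣ) → ℝ) × Hm m)).2) T‖ ^ 2 = ∑ T, (c T) ^ 2 := by
          refine Finset.sum_congr rfl fun T _ => ?_
          rw [e1, Real.norm_eq_abs, sq_abs]
        rw [e2]
        exact le_mul_of_one_le_left (Real.sqrt_nonneg _) he1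
    calc ‖∑ S, c S • (⟨bas m S, bas_mem m S⟩ : Em m)‖ ^ 2
        ≤ (Real.exp m * √(∑ S, (c S) ^ 2)) ^ 2 := by gcongr
      _ = _ := by rw [mul_pow, Real.sq_sqrt hc0]
  hsum x := by
    apply Subtype.ext
    have hx := x.2
    have hw : ∀ S, (x : ((Fin (m * m) → ℤˣ) → ℝ) × Hm m).2 S * (Real.exp (m / 2 : ℝ) * wt m #S) =
        wc S (x : ((Fin (m * m) → ℤˣ) → ℝ) × Hm m).1 := by
      intro S
      have h1 := hx S
      have h2 : Real.exp (m / 2 : ℝ) * Real.exp (-(m / 2 : ℝ)) = 1 := by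
        rw [← Real.exp_add]; simp
      linear_combination Real.exp (m / 2 : ℝ) * h1 +
        wc S (x : ((Fin (m * m) → ℤˣ) → ℝ) × Hm m).1 * h2
    apply Prod.ext
    · funext ω
      rw [Submodule.coe_sum, Prod.fst_sum, Finset.sum_apply]
      have h1 := sum_walsh_smul_wc (x : ((Fin (m * m) → ℤˣ) → ℝ) × Hm m).1 ω
      rw [← h1]
      refine Finset.sum_congr rfl fun S _ => ?_
      change (x : ((Fin (m * m) → ℤˣ) → ℝ) × Hm m).2 S *
        ((Real.exp (m / 2 : ℝ) * wt m #S) * walsh S ω) = walsh S ω * _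
      rw [← hw S]
      ring
    · rw [Submodule.coe_sum, Prod.snd_sum]
      have : ∀ S, (((((EuclideanSpace.proj S).comp
          (ContinuousLinearMap.snd ℝ ((Fin (m * m) → ℤˣ) → ℝ) (Hm m))).comp (Em m).subtypeL) x •
          (⟨bas m S, bas_mem m S⟩ : Em m) : Em m) : ((Fin (m * m) → ℤˣ) → ℝ) × Hm m).2 =
          (x : ((Fin (m * m) → ℤˣ) → ℝ) × Hm m).2 S • EuclideanSpace.single S (1 : ℝ) := by
        intro S
        rfl
      simp only [this]
      ext T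
      simp [Pi.single_apply]

/-- The Riesz product, as a complex function. -/
noncomputable def Gr (m : ℕ) (x : Fin (m * m) → ℤˣ) : ℂ :=
  ∑ S : Finset (Fin (m * m)), bt m #S * walsh S x

theorem norm_Gr_le {m : ℕ} (hm : 1 ≤ m) (x : Fin (m * m) → ℤˣ) : ‖Gr m x‖ ≤ 2 := by
  have hm0 : (0 : ℝ) < m := by exact_mod_cast hm
  have hall : Gr m x = ∏ i, (1 + Complex.I / m * (sg (x i) : ℂ)) := by
    unfold Gr
    rw [Finset.prod_one_add, Finset.powerset_univ]
    refine Finset.sum_congr rfl fun S _ => ?_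
    unfold bt walsh
    rw [Finset.prod_mul_distrib, Finset.prod_const]
    push_cast
    rfl
  have hf : ∀ i, ‖1 + Complex.I / m * (sg (x i) : ℂ)‖ ^ 2 = 1 + 1 / (m : ℝ) ^ 2 := by
    intro i
    have e : (1 : ℂ) + Complex.I / m * (sg (x i) : ℂ) =
        ((1 : ℝ) : ℂ) + ((sg (x i) / m : ℝ) : ℂ) * Complex.I := by
      push_cast
      ring
    rw [e, ← Complex.normSq_eq_norm_sq, Complex.normSq_add_mul_I, div_pow, sg_sq]
    norm_num
  rw [hall, norm_prod]
  have h1 : (∏ i : Fin (m * m), ‖1 + Complex.I / m * (sg (x i) : ℂ)‖) ^ 2 ≤ 2 ^ 2 := by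
    rw [← Finset.prod_pow, Finset.prod_congr rfl fun i _ => hf i, Finset.prod_const,
      Finset.card_univ, Fintype.card_fin]
    have h2 : 1 + 1 / (m : ℝ) ^ 2 ≤ Real.exp (1 / (m : ℝ) ^ 2) := by
      have := Real.add_one_le_exp (1 / (m : ℝ) ^ 2)
      linarith
    calc (1 + 1 / (m : ℝ) ^ 2) ^ (m * m) ≤ Real.exp (1 / (m : ℝ) ^ 2) ^ (m * m) := by gcongr
      _ = Real.exp 1 := by
          rw [← Real.exp_nat_mul]
          congr 1
          push_cast
          field_simp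
      _ ≤ 2 ^ 2 := by
          have := Real.exp_one_lt_d9
          linarith
  exact le_of_sq_le_sq h1 (by norm_num)

/-- The test function. -/
noncomputable def Fr (m : ℕ) (ε : Fin (m * m) → ℤˣ) : (Fin (m * m) → ℤˣ) → ℝ := fun x =>
  (Gr m (ε * x)).im

theorem wc_Fr (m : ℕ) (ε : Fin (m * m) → ℤˣ) (T : Finset (Fin (m * m))) :
    wc T (Fr m ε) = (bt m #T).im * walsh T ε := by
  have h : Fr m ε = ∑ S : Finset (Fin (m * m)),
      fun x => walsh S x • ((bt m #S).im * walsh S ε) := by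
    funext x
    rw [Finset.sum_apply]
    unfold Fr Gr
    rw [Complex.im_sum]
    refine Finset.sum_congr rfl fun S _ => ?_
    rw [Complex.im_mul_ofReal, walsh_mul, smul_eq_mul]
    ring
  rw [← wcL_apply, h, map_sum]
  simp only [wcL_apply, wc_walsh_smul]
  rw [Finset.sum_ite_eq]
  simp

theorem wc_Fr_singleton {m : ℕ} (ε : Fin (m * m) → ℤˣ) (i : Fin (m * m)) :
    wc {i} (Fr m ε) = 1 / m * sg (ε i) := by
  rw [wc_Fr, Finset.card_singleton, walsh_singleton]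
  congr 1
  unfold bt
  rw [pow_one, Complex.div_natCast_im, Complex.I_im]

theorem norm_Fr_le {m : ℕ} (hm : 1 ≤ m) (ε : Fin (m * m) → ℤˣ) : ‖Fr m ε‖ ≤ 2 := by
  refine (pi_norm_le_iff_of_nonneg (by norm_num)).2 fun x => ?_
  rw [Real.norm_eq_abs]
  exact (Complex.abs_im_le_norm _).trans (norm_Gr_le hm _)

/-- The test element. -/
noncomputable def Te (m : ℕ) (ε : Fin (m * m) → ℤˣ) : ((Fin (m * m) → ℤˣ) → ℝ) × Hm m :=
  (Fr m ε, WithLp.toLp 2 fun S => Real.exp (-(m / 2 : ℝ)) * wc S (Fr m ε) / wt m #S)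

theorem Te_mem {m : ℕ} (hm : 1 ≤ m) (ε : Fin (m * m) → ℤˣ) : Te m ε ∈ Em m := by
  intro S
  have h := (wt_pos hm #S).ne'
  change wt m #S * (Real.exp (-(m / 2 : ℝ)) * wc S (Fr m ε) / wt m #S) =
    Real.exp (-(m / 2 : ℝ)) * wc S (Fr m ε)
  field_simp

theorem norm_Te_le {m : ℕ} (hm : 1 ≤ m) (ε : Fin (m * m) → ℤˣ) :
    ‖(⟨Te m ε, Te_mem hm ε⟩ : Em m)‖ ≤ 2 := by
  rw [Submodule.coe_norm, Prod.norm_def]
  apply max_le (norm_Fr_le hm ε)
  rw [EuclideanSpace.norm_eq]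
  have h1 : ∀ S, ‖((Te m ε).2) S‖ ^ 2 ≤ Real.exp (-m : ℝ) * wt m #S ^ 2 := by
    intro S
    have h := wt_pos hm #S
    have e1 : ((Te m ε).2) S = Real.exp (-(m / 2 : ℝ)) * wc S (Fr m ε) / wt m #S := rfl
    have e3 : Real.exp (-(m / 2 : ℝ)) ^ 2 = Real.exp (-m : ℝ) := by
      rw [← Real.exp_nat_mul]
      congr 1
      push_cast
      ring
    have e4 : (wc S (Fr m ε)) ^ 2 ≤ (wt m #S ^ 2) ^ 2 := by
      have e5 : |wc S (Fr m ε)| ≤ wt m #S ^ 2 := by
        rw [wc_Fr, abs_mul, abs_walsh, mul_one, wt_sq, ← norm_bt]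
        exact Complex.abs_im_le_norm _
      rw [← sq_abs]
      gcongr
    rw [e1, Real.norm_eq_abs, sq_abs, div_pow, mul_pow, e3, div_le_iff₀ (by positivity)]
    calc Real.exp (-m : ℝ) * wc S (Fr m ε) ^ 2 ≤ Real.exp (-m : ℝ) * (wt m #S ^ 2) ^ 2 := by
          gcongr
      _ = _ := by ring
  have h2 : ∑ S, ‖((Te m ε).2) S‖ ^ 2 ≤ 1 := by
    calc ∑ S, ‖((Te m ε).2) S‖ ^ 2 ≤
        ∑ S : Finset (Fin (m * m)), Real.exp (-m : ℝ) * wt m #S ^ 2 :=
          Finset.sum_le_sum fun S _ => h1 S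
      _ = Real.exp (-m : ℝ) * ∑ S : Finset (Fin (m * m)), wt m #S ^ 2 := by
          rw [Finset.mul_sum]
      _ ≤ Real.exp (-m : ℝ) * Real.exp m := by
          gcongr
          exact sum_wt_sq hm
      _ = 1 := by rw [← Real.exp_add]; simp
  have h3 : √(∑ S, ‖((Te m ε).2) S‖ ^ 2) ≤ 1 := by
    rw [Real.sqrt_le_one]
    exact h2
  exact h3.trans (by norm_num)

/-- Evaluation at a point of the cube. -/
noncomputable def evr (m : ℕ) (ω : Fin (m * m) → ℤˣ) : Em m →L[ℝ] ℝ :=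
  ((ContinuousLinearMap.proj (R := ℝ) (φ := fun _ : Fin (m * m) → ℤˣ => ℝ) ω).comp
    (ContinuousLinearMap.fst ℝ ((Fin (m * m) → ℤˣ) → ℝ) (Hm m))).comp (Em m).subtypeL

theorem evr_apply (m : ℕ) (ω : Fin (m * m) → ℤˣ) (F : Em m) :
    evr m ω F = (F : ((Fin (m * m) → ℤˣ) → ℝ) × Hm m).1 ω := rfl

theorem norm_evr_le (m : ℕ) (ω : Fin (m * m) → ℤˣ) : ‖evr m ω‖ ≤ 1 := by
  refine ContinuousLinearMap.opNorm_le_bound _ zero_le_one fun F => ?_
  rw [one_mul, evr_apply]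
  exact (norm_le_pi_norm _ ω).trans (norm_fst_le F)

theorem rad_evr {m : ℕ} (ε : Fin (m * m) → ℤˣ) (F : Em m) :
    rad (evr m) ε F = ∑ i, sg (ε i) * wc {i} (F : ((Fin (m * m) → ℤˣ) → ℝ) × Hm m).1 := by
  unfold rad
  rw [_root_.sum_apply]
  refine Finset.sum_congr rfl fun i _ => ?_
  rw [_root_.smul_apply, smul_eq_mul, avg_apply]
  congr 1
  unfold wc
  refine avg_congr fun η => ?_
  rw [walsh_singleton, _root_.smul_apply, evr_apply]

theorem le_norm_rad_evr {m : ℕ} (hm : 1 ≤ m) (ε : Fin (m * m) → ℤˣ) :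
    (m : ℝ) / 2 ≤ ‖rad (evr m) ε‖ := by
  have hm0 : (0 : ℝ) < m := by exact_mod_cast hm
  have h1 : rad (evr m) ε ⟨Te m ε, Te_mem hm ε⟩ = m := by
    rw [rad_evr]
    have : ∀ i : Fin (m * m), sg (ε i) * wc {i} (Te m ε).1 = 1 / (m : ℝ) := by
      intro i
      change sg (ε i) * wc {i} (Fr m ε) = 1 / (m : ℝ)
      rw [wc_Fr_singleton]
      calc sg (ε i) * (1 / (m : ℝ) * sg (ε i)) = 1 / (m : ℝ) * (sg (ε i) * sg (ε i)) := by ring
        _ = _ := by rw [sg_mul_self, mul_one]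
    simp only [this]
    rw [Finset.sum_const, Finset.card_univ, Fintype.card_fin, nsmul_eq_mul]
    push_cast
    field_simp
  have h2 := (rad (evr m) ε).le_opNorm ⟨Te m ε, Te_mem hm ε⟩
  rw [h1, Real.norm_of_nonneg hm0.le] at h2
  have h3 := norm_Te_le hm ε
  have h4 : ‖rad (evr m) ε‖ * ‖(⟨Te m ε, Te_mem hm ε⟩ : Em m)‖ ≤ ‖rad (evr m) ε‖ * 2 := by gcongr
  have h5 : (m : ℝ) ≤ ‖rad (evr m) ε‖ * 2 := h2.trans h4
  linarith

/-- The lower bound. -/
theorem lower_sharp {m : ℕ} (hm : 1 ≤ m) {K : ℝ} (hK : KConvexWith K (Em m →L[ℝ] ℝ)) :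
    (m : ℝ) / 2 ≤ K := by
  have hm0 : (0 : ℝ) < m := by exact_mod_cast hm
  have h := hK (m * m) (evr m)
  rw [← Real.sqrt_eq_rpow, ← Real.sqrt_eq_rpow] at h
  have h1 : (m : ℝ) / 2 ≤ √(avg fun ε => ‖rad (evr m) ε‖ ^ 2) := by
    apply Real.le_sqrt_of_sq_le
    have : ∀ ε : Fin (m * m) → ℤˣ, ((m : ℝ) / 2) ^ 2 ≤ ‖rad (evr m) ε‖ ^ 2 := by
      intro ε
      have := le_norm_rad_evr hm ε
      gcongr
    have h2 := avg_mono this
    rwa [avg_const] at h2
  have h2 : √(avg fun ε => ‖evr m ε‖ ^ 2) ≤ 1 := by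
    rw [Real.sqrt_le_one]
    have : ∀ ε : Fin (m * m) → ℤˣ, ‖evr m ε‖ ^ 2 ≤ 1 := fun ε =>
      pow_le_one₀ (by positivity) (norm_evr_le m ε)
    have h2 := avg_mono this
    rwa [avg_const] at h2
  have h3 := h1.trans h
  have h4 : 0 ≤ √(avg fun ε => ‖evr m ε‖ ^ 2) := Real.sqrt_nonneg _
  rcases le_or_gt 0 K with hK0 | hK0
  · exact h3.trans (mul_le_of_le_one_right hK0 h2)
  · exfalso
    have : K * √(avg fun ε => ‖evr m ε‖ ^ 2) ≤ 0 := mul_nonpos_of_nonpos_of_nonneg hK0.le h4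
    have h5 : 0 < (m : ℝ) / 2 := by positivity
    linarith

/-- The spaces with large constant. -/
theorem lower_spaces_sharp (m : ℕ) (hm : 1 ≤ m) :
    ∃ (E : Type) (_ : NormedAddCommGroup E) (_ : NormedSpace ℝ E), FiniteDimensional ℝ E ∧
      (∀ q : ℝ, 2 ≤ q → CotypeWith q (Real.exp m) E ∧
        CotypeWith q (Real.exp m) (E →L[ℝ] ℝ)) ∧
      ∀ K : ℝ, KConvexWith K E → (m : ℝ) / 2 ≤ K := by
  have he := Real.exp_pos (m : ℝ)
  refine ⟨Em m →L[ℝ] ℝ, inferInstance, inferInstance, inferInstance, ?_, ?_⟩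
  · intro q hq
    refine ⟨cotypeWith_mono (((hilEm hm).dual zero_le_one).cotype he.le zero_le_one hq)
      (by rw [mul_one]), cotypeWith_mono ((((hilEm hm).dual zero_le_one).dual he.le).cotype
      zero_le_one he.le hq) (by rw [one_mul])⟩
  · intro K hK
    exact lower_sharp hm hK

/-- The spaces with large constant, in terms of a given bound of the cotype constants. -/
theorem lower_spaces_of_le (c : ℝ) (hc : Real.exp 1 ≤ c) :
    ∃ (E : Type) (_ : NormedAddCommGroup E) (_ : NormedSpace ℝ E), FiniteDimensional ℝ E ∧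
      (∀ q : ℝ, 2 ≤ q → CotypeWith q c E ∧ CotypeWith q c (E →L[ℝ] ℝ)) ∧
      ∀ K : ℝ, KConvexWith K E → (1 + Real.log (c * c)) / 12 ≤ K := by
  have he := Real.exp_pos 1
  have hc0 : 0 < c := by linarith
  have hl1 : 1 ≤ Real.log c := by rwa [Real.le_log_iff_exp_le hc0]
  set m : ℕ := ⌊Real.log c⌋₊ with hm
  have h1 : (m : ℝ) ≤ Real.log c := Nat.floor_le (by linarith)
  have h2 : Real.log c < m + 1 := Nat.lt_floor_add_one _
  have h3 : 1 ≤ m := by
    rw [hm]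
    exact Nat.le_floor (by exact_mod_cast hl1)
  have h3' : (1 : ℝ) ≤ m := by exact_mod_cast h3
  have h4 : Real.exp m ≤ c := by
    calc Real.exp m ≤ Real.exp (Real.log c) := Real.exp_le_exp.2 h1
      _ = c := Real.exp_log hc0
  obtain ⟨E, i1, i2, hfin, hcot, hK⟩ := lower_spaces_sharp m h3
  refine ⟨E, i1, i2, hfin, fun q hq => ⟨cotypeWith_mono (hcot q hq).1 h4,
    cotypeWith_mono (hcot q hq).2 h4⟩, ?_⟩
  intro K hKK
  refine le_trans ?_ (hK K hKK)
  rw [Real.log_mul hc0.ne' hc0.ne']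
  linarith

end space

end Vale.Agent.P111.H571
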