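import Vale.Agent.P111.Bdl.B1

/-! The interpolation formula of M. Riesz at the centre: the first coefficient of a polynomial of
degree at most `D` is a combination of its values in `[-ρ₀, ρ₀]` with total weight `D / ρ₀`. -/

namespace Vale.Agent.P111.H571

open Finset Complex Polynomial

section roots

variable (D : ℕ)

/-- A primitive root of unity of order `4 D`. -/
noncomputable def xi : ℂ := Complex.exp (2 * Real.pi * I / (4 * D : ℕ))

/-- Its odd powers. -/
noncomputable def ze (j : ℕ) : ℂ := xi D ^ (2 * j + 1)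

/-- The Riesz weights. -/
noncomputable def aw (j : ℕ) : ℝ := 1 / (D * normSq (1 - ze D j))

variable {D}

theorem xi_prim (hD : 1 ≤ D) : IsPrimitiveRoot (xi D) (4 * D) :=
  Complex.isPrimitiveRoot_exp (4 * D) (by omega)

theorem norm_xi (hD : 1 ≤ D) : ‖xi D‖ = 1 :=
  (xi_prim hD).norm'_eq_one (by omega)

theorem norm_ze (hD : 1 ≤ D) (j : ℕ) : ‖ze D j‖ = 1 := by
  unfold ze
  rw [norm_pow, norm_xi hD, one_pow]

theorem xi_half (hD : 1 ≤ D) : xi D ^ (2 * D) = -1 := by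
  have h1 : (xi D ^ (2 * D)) ^ 2 = 1 := by
    rw [← pow_mul]
    have : 2 * D * 2 = 4 * D := by ring
    rw [this]
    exact (xi_prim hD).pow_eq_one
  have h2 : xi D ^ (2 * D) ≠ 1 :=
    (xi_prim hD).pow_ne_one_of_pos_of_lt (by omega) (by omega)
  have h3 : (xi D ^ (2 * D) - 1) * (xi D ^ (2 * D) + 1) = 0 := by
    have : (xi D ^ (2 * D) - 1) * (xi D ^ (2 * D) + 1) = (xi D ^ (2 * D)) ^ 2 - 1 := by ring
    rw [this, h1, sub_self]
  rcases mul_eq_zero.1 h3 with h | h
  · exact absurd (sub_eq_zero.1 h) h2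
  · exact eq_neg_of_add_eq_zero_left h

theorem ze_pow_two_mul (hD : 1 ≤ D) (j : ℕ) : ze D j ^ (2 * D) = -1 := by
  unfold ze
  rw [← pow_mul, mul_comm, pow_mul, xi_half hD, Odd.neg_one_pow ⟨j, rfl⟩]

theorem ze_ne_zero (hD : 1 ≤ D) (j : ℕ) : ze D j ≠ 0 := by
  intro h
  have := norm_ze hD j
  rw [h, norm_zero] at this
  exact one_ne_zero this.symm

theorem ze_ne_one (hD : 1 ≤ D) (j : ℕ) : ze D j ≠ 1 := by
  intro h
  have := ze_pow_two_mul hD j
  rw [h, one_pow] at this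
  norm_num at this

theorem sum_ze_pow (hD : 1 ≤ D) {k : ℕ} (hk : 0 < k) (hk2 : k < 2 * D) :
    ∑ j ∈ range (2 * D), ze D j ^ k = 0 := by
  have h1 : ∀ j, ze D j ^ k = xi D ^ k * (xi D ^ (2 * k)) ^ j := by
    intro j
    unfold ze
    rw [← pow_mul, ← pow_mul, ← pow_add]
    congr 1
    ring
  simp only [h1]
  rw [← Finset.mul_sum]
  have h2 : xi D ^ (2 * k) ≠ 1 :=
    (xi_prim hD).pow_ne_one_of_pos_of_lt (by omega) (by omega)
  have h3 : (xi D ^ (2 * k)) ^ (2 * D) = 1 := by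
    rw [← pow_mul]
    have : 2 * k * (2 * D) = 4 * D * k := by ring
    rw [this, pow_mul, (xi_prim hD).pow_eq_one, one_pow]
  rw [geom_sum_eq h2, h3, sub_self, zero_div, mul_zero]

/-- The weight times the square of `1 - ζ`. -/
theorem aw_mul (hD : 1 ≤ D) (j : ℕ) : (aw D j : ℂ) * (1 - ze D j) ^ 2 = -(ze D j) / D := by
  have hz := ze_ne_zero hD j
  have hz1 : (1 : ℂ) - ze D j ≠ 0 := sub_ne_zero.2 (ze_ne_one hD j).symm
  have hc : (starRingEnd ℂ) (ze D j) = (ze D j)⁻¹ := by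
    rw [Complex.inv_def, Complex.normSq_eq_norm_sq, norm_ze hD j]
    simp
  have hn : (normSq (1 - ze D j) : ℂ) = (1 - ze D j) * (1 - (ze D j)⁻¹) := by
    rw [Complex.normSq_eq_conj_mul_self, map_sub, map_one, hc, mul_comm]
  have hD0 : (D : ℂ) ≠ 0 := by
    exact_mod_cast (by omega : D ≠ 0)
  have hn0 : (1 : ℂ) - (ze D j)⁻¹ ≠ 0 := by
    rw [sub_ne_zero]
    intro h
    exact ze_ne_one hD j (by rw [← inv_inv (ze D j), ← h, inv_one])
  have e : (1 : ℂ) - (ze D j)⁻¹ = -(1 - ze D j) / ze D j := by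
    field_simp
    ring
  unfold aw
  push_cast
  rw [hn, e]
  field_simp

theorem aw_pos (hD : 1 ≤ D) (j : ℕ) : 0 < aw D j := by
  unfold aw
  have h1 : 0 < normSq (1 - ze D j) := normSq_pos.2 (sub_ne_zero.2 (ze_ne_one hD j).symm)
  have h2 : (0 : ℝ) < D := by exact_mod_cast hD
  positivity

/-- The moments of the weights. -/
noncomputable def GG (D m : ℕ) : ℂ := ∑ j ∈ range (2 * D), (aw D j : ℂ) * ze D j ^ m

theorem GG_rec (hD : 1 ≤ D) (m : ℕ) :
    GG D m - GG D (m + 1) - (GG D (m + 1) - GG D (m + 2)) =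
      -(1 / D : ℂ) * ∑ j ∈ range (2 * D), ze D j ^ (m + 1) := by
  unfold GG
  rw [← Finset.sum_sub_distrib, ← Finset.sum_sub_distrib, ← Finset.sum_sub_distrib, Finset.mul_sum]
  refine Finset.sum_congr rfl fun j _ => ?_
  have := aw_mul hD j
  calc (aw D j : ℂ) * ze D j ^ m - aw D j * ze D j ^ (m + 1) -
        (aw D j * ze D j ^ (m + 1) - aw D j * ze D j ^ (m + 2))
      = ((aw D j : ℂ) * (1 - ze D j) ^ 2) * ze D j ^ m := by ring
    _ = -(ze D j) / D * ze D j ^ m := by rw [this]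
    _ = _ := by ring

theorem GG_add (hD : 1 ≤ D) (m : ℕ) : GG D (m + 2 * D) = - GG D m := by
  unfold GG
  rw [← Finset.sum_neg_distrib]
  refine Finset.sum_congr rfl fun j _ => ?_
  rw [pow_add, ze_pow_two_mul hD j]
  ring

theorem GG_diff (hD : 1 ≤ D) : ∀ m, m < 2 * D → GG D m - GG D (m + 1) = 1 := by
  have hD0 : (D : ℂ) ≠ 0 := by
    exact_mod_cast (by omega : D ≠ 0)
  have h1 : ∀ m, m < 2 * D → GG D m - GG D (m + 1) = GG D 0 - GG D 1 := by
    intro m
    induction m with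
    | zero => intro _; rfl
    | succ m ih =>
      intro hm
      have h2 := GG_rec hD m
      rw [sum_ze_pow hD (by omega) hm, mul_zero] at h2
      rw [← ih (by omega)]
      exact (sub_eq_zero.1 h2).symm
  have h3 := GG_rec hD (2 * D - 1)
  have e1 : 2 * D - 1 + 1 = 2 * D := by omega
  have e2 : 2 * D - 1 + 2 = 1 + 2 * D := by omega
  rw [e1, e2] at h3
  have h4 : ∑ j ∈ range (2 * D), ze D j ^ (2 * D) = -(2 * D : ℂ) := by
    simp only [ze_pow_two_mul hD]
    simp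
  have h5 : GG D (2 * D) = - GG D 0 := by
    have := GG_add hD 0
    rwa [zero_add] at this
  have h6 := h1 (2 * D - 1) (by omega)
  rw [e1] at h6
  rw [h6, h4, h5, GG_add hD 1] at h3
  have h7 : GG D 0 - GG D 1 = 1 := by
    have h8 : -(1 / D : ℂ) * -(2 * D : ℂ) = 2 := by
      field_simp
    rw [h8] at h3
    linear_combination (1 / 2 : ℂ) * h3
  intro m hm
  rw [h1 m hm, h7]

theorem GG_eq (hD : 1 ≤ D) (m : ℕ) (hm : m ≤ 2 * D) : GG D m = D - m := by
  have h1 : ∀ m, m ≤ 2 * D → GG D m = GG D 0 - m := by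
    intro m
    induction m with
    | zero => intro _; simp
    | succ m ih =>
      intro hm
      have h2 := GG_diff hD m (by omega)
      have h3 := ih (by omega)
      push_cast
      linear_combination h3 - h2
  have h2 : GG D (2 * D) = - GG D 0 := by
    have := GG_add hD 0
    rwa [zero_add] at this
  have h3 := h1 (2 * D) le_rfl
  have h4 : GG D 0 = D := by
    rw [h2] at h3
    push_cast at h3
    linear_combination (-1 / 2 : ℂ) * h3
  rw [h1 m hm, h4]

/-- The functional on polynomials of degree at most `2 D`. -/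
theorem sum_aw_eval (hD : 1 ≤ D) (P : ℂ[X]) (hP : P.natDegree ≤ 2 * D) :
    ∑ j ∈ range (2 * D), (aw D j : ℂ) * P.eval (ze D j) =
      D * P.eval 1 - (derivative P).eval 1 := by
  have h1 : ∀ z : ℂ, P.eval z = ∑ m ∈ range (2 * D + 1), P.coeff m * z ^ m := fun z =>
    eval_eq_sum_range' (by omega) z
  have h2 : (derivative P).eval 1 = ∑ m ∈ range (2 * D + 1), P.coeff m * m := by
    rw [derivative_eval, Polynomial.sum_over_range' _ _ (2 * D + 1) (by omega)]
    · refine Finset.sum_congr rfl fun m _ => ?_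
      simp
    · intro n; simp
  simp only [h1]
  rw [h2]
  simp only [Finset.mul_sum, one_pow, mul_one]
  rw [Finset.sum_comm, ← Finset.sum_sub_distrib]
  refine Finset.sum_congr rfl fun m hm => ?_
  rw [Finset.mem_range] at hm
  have h3 := GG_eq hD m (by omega)
  unfold GG at h3
  calc ∑ j ∈ range (2 * D), (aw D j : ℂ) * (P.coeff m * ze D j ^ m)
      = P.coeff m * ∑ j ∈ range (2 * D), (aw D j : ℂ) * ze D j ^ m := by
        rw [Finset.mul_sum]
        exact Finset.sum_congr rfl fun j _ => by ring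
    _ = P.coeff m * (D - m) := by rw [h3]
    _ = _ := by ring

theorem sum_aw (hD : 1 ≤ D) : ∑ j ∈ range (2 * D), aw D j = D := by
  have h := GG_eq hD 0 (by omega)
  unfold GG at h
  simp only [pow_zero, mul_one, Nat.cast_zero, sub_zero] at h
  exact_mod_cast h

/-- The sign at a node. -/
noncomputable def tw (D j : ℕ) : ℝ := (ze D j ^ D).im

theorem ze_pow (hD : 1 ≤ D) (j : ℕ) : ze D j ^ D = I * (tw D j : ℂ) := by
  have h1 : (ze D j ^ D) ^ 2 = -1 := by
    rw [← pow_mul, mul_comm, ze_pow_two_mul hD]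
  have h2 : (ze D j ^ D - I) * (ze D j ^ D + I) = 0 := by
    have : (ze D j ^ D - I) * (ze D j ^ D + I) = (ze D j ^ D) ^ 2 - I ^ 2 := by ring
    rw [this, h1, I_sq, sub_self]
  unfold tw
  rcases mul_eq_zero.1 h2 with h | h
  · rw [sub_eq_zero.1 h]; simp
  · rw [eq_neg_of_add_eq_zero_left h]; simp

theorem abs_tw (hD : 1 ≤ D) (j : ℕ) : |tw D j| = 1 := by
  have h := congrArg norm (ze_pow hD j)
  rw [norm_pow, norm_ze hD, one_pow, norm_mul, norm_I, one_mul, Complex.norm_real] at h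
  exact h.symm

theorem im_ze (hD : 1 ≤ D) (j : ℕ) : ((ze D j).im : ℂ) = (2 * I)⁻¹ * (ze D j)⁻¹ * (ze D j ^ 2 - 1) := by
  have hz := ze_ne_zero hD j
  have hc : (starRingEnd ℂ) (ze D j) = (ze D j)⁻¹ := by
    rw [Complex.inv_def, Complex.normSq_eq_norm_sq, norm_ze hD j]
    simp
  rw [Complex.im_eq_sub_conj, hc]
  field_simp

theorem node_sum (hD : 1 ≤ D) (d : ℕ) (hd : d ≤ D) :
    ∑ j ∈ range (2 * D), aw D j * tw D j * (ze D j).im ^ d = if d = 1 then 1 else 0 := by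
  have hP : (X ^ (D - d) * (X ^ 2 - 1) ^ d : ℂ[X]).natDegree ≤ 2 * D := by
    refine (natDegree_mul_le).trans ?_
    have h1 : (X ^ (D - d) : ℂ[X]).natDegree ≤ D - d := natDegree_X_pow_le _
    have h2 : ((X ^ 2 - 1) ^ d : ℂ[X]).natDegree ≤ d * 2 := by
      refine natDegree_pow_le.trans ?_
      refine Nat.mul_le_mul_left d ?_
      refine (natDegree_sub_le _ _).trans ?_
      simp
    omega
  have h := sum_aw_eval hD _ hP
  have h3 : ∀ j, (aw D j : ℂ) * tw D j * ((ze D j).im : ℂ) ^ d =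
      (-I * (2 * I)⁻¹ ^ d) * ((aw D j : ℂ) *
        (X ^ (D - d) * (X ^ 2 - 1) ^ d : ℂ[X]).eval (ze D j)) := by
    intro j
    have hz := ze_ne_zero hD j
    have e1 : (tw D j : ℂ) = -I * ze D j ^ D := by
      rw [ze_pow hD j, ← mul_assoc]
      simp
    have e2 : ze D j ^ D = ze D j ^ (D - d) * ze D j ^ d := by
      rw [← pow_add]; congr 1; omega
    rw [im_ze hD j, e1, e2, mul_pow, mul_pow]
    simp only [eval_mul, eval_pow, eval_X, eval_sub, eval_one]
    have e3 : (ze D j)⁻¹ ^ d * ze D j ^ d = 1 := by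
      rw [← mul_pow, inv_mul_cancel₀ hz, one_pow]
    calc (aw D j : ℂ) * (-I * (ze D j ^ (D - d) * ze D j ^ d)) *
          ((2 * I)⁻¹ ^ d * (ze D j)⁻¹ ^ d * (ze D j ^ 2 - 1) ^ d)
        = (-I * (2 * I)⁻¹ ^ d) * ((aw D j : ℂ) * (ze D j ^ (D - d) * (ze D j ^ 2 - 1) ^ d)) *
            ((ze D j)⁻¹ ^ d * ze D j ^ d) := by ring
      _ = _ := by rw [e3, mul_one]
  have h4 : ((∑ j ∈ range (2 * D), aw D j * tw D j * (ze D j).im ^ d : ℝ) : ℂ) =
      (-I * (2 * I)⁻¹ ^ d) * (D * (X ^ (D - d) * (X ^ 2 - 1) ^ d : ℂ[X]).eval 1 -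
        (derivative (X ^ (D - d) * (X ^ 2 - 1) ^ d : ℂ[X])).eval 1) := by
    rw [← h, Finset.mul_sum]
    push_cast
    exact Finset.sum_congr rfl fun j _ => h3 j
  have h5 : ((∑ j ∈ range (2 * D), aw D j * tw D j * (ze D j).im ^ d : ℝ) : ℂ) =
      ((if d = 1 then 1 else 0 : ℝ) : ℂ) := by
    rw [h4]
    rcases d with _ | _ | d
    · simp [derivative_mul, derivative_pow]
    · simp [derivative_mul, derivative_pow]
      field_simp
      norm_num
    · simp [derivative_mul, derivative_pow]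
  exact_mod_cast h5

end roots

/-- Riesz interpolation: optimal total weight. -/
theorem interp' (D : ℕ) (hD : 1 ≤ D) (ρ0 : ℝ) (h0 : 0 < ρ0) (h1 : ρ0 ≤ 1) :
    ∃ (m : ℕ) (γ ρ : Fin m → ℝ), (∀ j, |ρ j| ≤ 1) ∧ ∑ j, |γ j| ≤ D / ρ0 ∧
      ∑ j, γ j * ρ j ^ 1 = 1 ∧ (∀ k ≤ D, k ≠ 1 → ∑ j, γ j * ρ j ^ k = 0) ∧
      ∀ k, D < k → |∑ j, γ j * ρ j ^ k| ≤ D * ρ0 ^ (k - 1) := by
  have him : ∀ j, |(ze D j).im| ≤ 1 := fun j =>
    (Complex.abs_im_le_norm _).trans (norm_ze hD j).le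
  have hγ : ∀ j, |ρ0⁻¹ * (aw D j * tw D j)| = ρ0⁻¹ * aw D j := by
    intro j
    rw [abs_mul, abs_mul, abs_tw hD, mul_one, abs_of_pos (inv_pos.2 h0), abs_of_pos (aw_pos hD j)]
  have key : ∀ k, 1 ≤ k → ∑ j : Fin (2 * D), (ρ0⁻¹ * (aw D j * tw D j)) * (ρ0 * (ze D j).im) ^ k =
      ρ0 ^ (k - 1) * ∑ j ∈ range (2 * D), aw D j * tw D j * (ze D j).im ^ k := by
    intro k hk
    rw [Finset.sum_range, Finset.mul_sum]
    refine Finset.sum_congr rfl fun j _ => ?_
    obtain ⟨k', rfl⟩ : ∃ k', k = k' + 1 := ⟨k - 1, by omega⟩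
    rw [Nat.add_sub_cancel, mul_pow, pow_succ ρ0]
    field_simp
  refine ⟨2 * D, fun j => ρ0⁻¹ * (aw D j * tw D j), fun j => ρ0 * (ze D j).im, ?_, ?_, ?_, ?_, ?_⟩
  · intro j
    rw [abs_mul, abs_of_pos h0]
    have := him j
    have h3 := abs_nonneg (ze D j).im
    nlinarith
  · simp only [hγ]
    rw [← Finset.mul_sum, ← Finset.sum_range (fun j => aw D j), sum_aw hD, inv_mul_eq_div]
  · rw [key 1 le_rfl, node_sum hD 1 hD]
    simp
  · intro k hk hk1
    rcases Nat.eq_zero_or_pos k with h | h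
    · subst h
      have := node_sum hD 0 (by omega)
      simp only [pow_zero, mul_one] at this ⊢
      rw [← Finset.mul_sum, ← Finset.sum_range (fun j => aw D j * tw D j), this]
      simp
    · rw [key k h, node_sum hD k hk, if_neg hk1, mul_zero]
  · intro k hk
    rw [key k (by omega), abs_mul, abs_of_nonneg (by positivity : 0 ≤ ρ0 ^ (k - 1)), mul_comm]
    gcongr
    calc |∑ j ∈ range (2 * D), aw D j * tw D j * (ze D j).im ^ k|
        ≤ ∑ j ∈ range (2 * D), |aw D j * tw D j * (ze D j).im ^ k| := abs_sum_le_sum_abs _ _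
      _ ≤ ∑ j ∈ range (2 * D), aw D j := by
          refine Finset.sum_le_sum fun j _ => ?_
          rw [abs_mul, abs_mul, abs_tw hD, mul_one, abs_of_pos (aw_pos hD j), abs_pow]
          have h3 : |(ze D j).im| ^ k ≤ 1 := pow_le_one₀ (abs_nonneg _) (him j)
          have h4 := (aw_pos hD j).le
          nlinarith
      _ = D := sum_aw hD

end Vale.Agent.P111.H571
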