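import Vale.Agent.P111.R2.H571.Riesz

/-! Trigonometric polynomials: Bernstein's inequality and inversion of averages. -/

set_option linter.unusedSectionVars false

namespace Vale.Agent.P111.H571

open Finset Complex Polynomial

/-- A trigonometric polynomial. -/
noncomputable def tp (D : ℕ) (c : ℤ → ℂ) (x : ℝ) : ℂ :=
  ∑ m ∈ Finset.Icc (-(D : ℤ)) D, c m * Complex.exp (I * m * x)

/-- The coefficients of the derivative. -/
noncomputable def dc (c : ℤ → ℂ) : ℤ → ℂ := fun m => I * m * c m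

theorem hasDerivAt_tp (D : ℕ) (c : ℤ → ℂ) (x : ℝ) : HasDerivAt (tp D c) (tp D (dc c) x) x := by
  unfold tp dc
  apply HasDerivAt.fun_sum
  intro m _
  have h1 : HasDerivAt (fun y : ℝ => (I * m * (y : ℂ))) (I * m * 1) x :=
    (Complex.ofRealCLM.hasDerivAt.const_mul (I * m))
  have h2 := (h1.cexp).const_mul (c m)
  refine h2.congr_deriv ?_
  ring

theorem norm_tp_le_sum (D : ℕ) (c : ℤ → ℂ) (x : ℝ) :
    ‖tp D c x‖ ≤ ∑ m ∈ Finset.Icc (-(D : ℤ)) D, ‖c m‖ := by
  unfold tp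
  refine (norm_sum_le _ _).trans (Finset.sum_le_sum fun m _ => ?_)
  rw [norm_mul]
  have : I * (m : ℂ) * (x : ℂ) = ((m * x : ℝ) : ℂ) * I := by push_cast; ring
  rw [this, Complex.norm_exp_ofReal_mul_I, mul_one]

theorem sum_Icc_eq (D : ℕ) (f : ℤ → ℂ) :
    ∑ m ∈ Finset.Icc (-(D : ℤ)) D, f m = ∑ i ∈ range (2 * D + 1), f ((i : ℤ) - D) := by
  symm
  refine Finset.sum_nbij' (fun i : ℕ => (i : ℤ) - D) (fun m : ℤ => (m + D).toNat) ?_ ?_ ?_ ?_ ?_
  · intro i hi
    rw [Finset.mem_range] at hi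
    rw [Finset.mem_Icc]
    omega
  · intro m hm
    rw [Finset.mem_Icc] at hm
    rw [Finset.mem_range]
    omega
  · intro i hi
    simp
  · intro m hm
    rw [Finset.mem_Icc] at hm
    omega
  · intro i _
    rfl

theorem ze_eq_exp (D j : ℕ) :
    ze D j = Complex.exp (((2 * Real.pi / (4 * D : ℕ)) * (2 * j + 1) : ℝ) * I) := by
  unfold ze xi
  rw [← Complex.exp_nat_mul]
  congr 1
  push_cast
  ring

/-- Bernstein's inequality. -/
theorem bernstein {D : ℕ} (hD : 1 ≤ D) (c : ℤ → ℂ) {M : ℝ} (h : ∀ x, ‖tp D c x‖ ≤ M) (x : ℝ) :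
    ‖tp D (dc c) x‖ ≤ D * M := by
  set P : ℂ[X] := ∑ i ∈ range (2 * D + 1),
    Polynomial.C (c ((i : ℤ) - D) * Complex.exp (I * ((i : ℤ) - D : ℤ) * x)) * X ^ i with hP
  have hdeg : P.natDegree ≤ 2 * D := by
    rw [hP]
    refine Polynomial.natDegree_sum_le_of_forall_le _ _ fun i hi => ?_
    rw [Finset.mem_range] at hi
    refine (natDegree_C_mul_X_pow_le _ _).trans (by omega)
  have hev : ∀ y : ℝ, P.eval (Complex.exp (y * I)) =
      Complex.exp (D * y * I) * tp D c (x + y) := by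
    intro y
    unfold tp
    rw [sum_Icc_eq, hP, eval_finsetSum, Finset.mul_sum]
    refine Finset.sum_congr rfl fun i _ => ?_
    rw [eval_mul, eval_C, eval_pow, eval_X, ← Complex.exp_nat_mul]
    have e1 : Complex.exp (I * (((i : ℤ) - D : ℤ) : ℂ) * ((x + y : ℝ) : ℂ)) =
        Complex.exp (I * (((i : ℤ) - D : ℤ) : ℂ) * x) *
          Complex.exp (I * (((i : ℤ) - D : ℤ) : ℂ) * y) := by
      rw [← Complex.exp_add]
      congr 1
      push_cast
      ring
    have e2 : Complex.exp (D * y * I) * Complex.exp (I * (((i : ℤ) - D : ℤ) : ℂ) * y) =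
        Complex.exp (i * (y * I)) := by
      rw [← Complex.exp_add]
      congr 1
      push_cast
      ring
    rw [e1, ← e2]
    ring
  have hsum := sum_aw_eval hD P hdeg
  have hder : (D : ℂ) * P.eval 1 - (derivative P).eval 1 = I * tp D (dc c) x := by
    have e1 : P.eval 1 = ∑ i ∈ range (2 * D + 1),
        c ((i : ℤ) - D) * Complex.exp (I * ((i : ℤ) - D : ℤ) * x) := by
      rw [hP, eval_finsetSum]
      refine Finset.sum_congr rfl fun i _ => ?_
      simp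
    have e2 : (derivative P).eval 1 = ∑ i ∈ range (2 * D + 1),
        c ((i : ℤ) - D) * Complex.exp (I * ((i : ℤ) - D : ℤ) * x) * i := by
      rw [hP, derivative_sum, eval_finsetSum]
      refine Finset.sum_congr rfl fun i _ => ?_
      rw [derivative_C_mul_X_pow]
      simp
    unfold tp dc
    rw [e1, e2, sum_Icc_eq, Finset.mul_sum, Finset.mul_sum, ← Finset.sum_sub_distrib]
    refine Finset.sum_congr rfl fun i _ => ?_
    push_cast
    linear_combination (-((i : ℂ) - D) * c ((i : ℤ) - D) * Complex.exp (I * ((i : ℂ) - D) * x)) * I_sq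
  have hb : ‖∑ j ∈ range (2 * D), (aw D j : ℂ) * P.eval (ze D j)‖ ≤ D * M := by
    refine (norm_sum_le _ _).trans ?_
    calc ∑ j ∈ range (2 * D), ‖(aw D j : ℂ) * P.eval (ze D j)‖
        ≤ ∑ j ∈ range (2 * D), aw D j * M := by
          refine Finset.sum_le_sum fun j _ => ?_
          rw [norm_mul, Complex.norm_real, Real.norm_of_nonneg (aw_pos hD j).le]
          refine mul_le_mul_of_nonneg_left ?_ (aw_pos hD j).le
          rw [ze_eq_exp, hev, norm_mul]
          have : (D : ℂ) * ((2 * Real.pi / (4 * D : ℕ)) * (2 * j + 1) : ℝ) * I =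
              ((D * ((2 * Real.pi / (4 * D : ℕ)) * (2 * j + 1)) : ℝ) : ℂ) * I := by
            push_cast
            ring
          rw [this, Complex.norm_exp_ofReal_mul_I, one_mul]
          exact h _
      _ = D * M := by rw [← Finset.sum_mul, sum_aw hD]
  rw [hsum, hder, norm_mul, Complex.norm_I, one_mul] at hb
  exact hb

/-- The second difference. -/
theorem second_diff {w w' w'' : ℝ → ℂ} (h1 : ∀ x, HasDerivAt w (w' x) x)
    (h2 : ∀ x, HasDerivAt w' (w'' x) x) {K : ℝ} (hK : ∀ x, ‖w'' x‖ ≤ K) (x : ℝ) {p : ℝ}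
    (hp : 0 ≤ p) : ‖w (x + p) + w (x - p) - 2 * w x‖ ≤ 2 * p ^ 2 * K := by
  have hK0 : 0 ≤ K := (norm_nonneg _).trans (hK 0)
  have hL : ∀ a b : ℝ, ‖w' b - w' a‖ ≤ K * ‖b - a‖ := by
    intro a b
    exact Convex.norm_image_sub_le_of_norm_hasDerivWithin_le (s := Set.univ)
      (fun y _ => (h2 y).hasDerivWithinAt) (fun y _ => hK y) convex_univ (Set.mem_univ _)
      (Set.mem_univ _)
  have hψ : ∀ t ∈ Set.Icc (0 : ℝ) p, HasDerivWithinAt
      (fun t : ℝ => w (x + t) + w (x - t) - 2 * w x) (w' (x + t) - w' (x - t)) (Set.Icc 0 p) t := by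
    intro t _
    have a1 : HasDerivAt (fun t : ℝ => w (x + t)) (w' (x + t)) t :=
      HasDerivAt.comp_const_add x t (h1 (x + t))
    have a2 : HasDerivAt (fun t : ℝ => w (x - t)) (-w' (x - t)) t :=
      HasDerivAt.comp_const_sub x t (h1 (x - t))
    have a3 := (a1.add a2).sub_const (2 * w x)
    refine (a3.congr_deriv ?_).hasDerivWithinAt
    ring
  have hb : ∀ t ∈ Set.Icc (0 : ℝ) p, ‖w' (x + t) - w' (x - t)‖ ≤ 2 * p * K := by
    intro t ht
    have := hL (x - t) (x + t)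
    have e : x + t - (x - t) = 2 * t := by ring
    rw [e, Real.norm_of_nonneg (by linarith [ht.1])] at this
    refine this.trans ?_
    nlinarith [ht.2]
  have := Convex.norm_image_sub_le_of_norm_hasDerivWithin_le hψ hb (convex_Icc 0 p)
    (Set.left_mem_Icc.2 hp) (Set.right_mem_Icc.2 hp)
  simp only [add_zero, sub_zero] at this
  have e2 : w x + w x - 2 * w x = 0 := by ring
  rw [e2, sub_zero, Real.norm_of_nonneg hp] at this
  refine this.trans (le_of_eq ?_)
  ring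

/-- The symmetric difference quotient. -/
theorem first_diff {w w' w'' w''' : ℝ → ℂ} (h1 : ∀ x, HasDerivAt w (w' x) x)
    (h2 : ∀ x, HasDerivAt w' (w'' x) x) (h3 : ∀ x, HasDerivAt w'' (w''' x) x) {K : ℝ}
    (hK : ∀ x, ‖w''' x‖ ≤ K) (x : ℝ) {p : ℝ} (hp : 0 ≤ p) :
    ‖w (x + p) - w (x - p) - 2 * p * w' x‖ ≤ 2 * p ^ 3 * K := by
  have hK0 : 0 ≤ K := (norm_nonneg _).trans (hK 0)
  have hψ : ∀ t ∈ Set.Icc (0 : ℝ) p, HasDerivWithinAt
      (fun t : ℝ => w (x + t) - w (x - t) - 2 * t * w' x)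
      (w' (x + t) + w' (x - t) - 2 * w' x) (Set.Icc 0 p) t := by
    intro t _
    have a1 : HasDerivAt (fun t : ℝ => w (x + t)) (w' (x + t)) t :=
      HasDerivAt.comp_const_add x t (h1 (x + t))
    have a2 : HasDerivAt (fun t : ℝ => w (x - t)) (-w' (x - t)) t :=
      HasDerivAt.comp_const_sub x t (h1 (x - t))
    have a4 : HasDerivAt (fun t : ℝ => 2 * (t : ℂ) * w' x) (2 * w' x) t := by
      have := ((Complex.ofRealCLM.hasDerivAt (x := t)).const_mul (2 : ℂ)).mul_const (w' x)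
      simpa using this
    have a3 := (a1.sub a2).sub a4
    refine (a3.congr_deriv ?_).hasDerivWithinAt
    ring
  have hb : ∀ t ∈ Set.Icc (0 : ℝ) p, ‖w' (x + t) + w' (x - t) - 2 * w' x‖ ≤ 2 * p ^ 2 * K := by
    intro t ht
    refine (second_diff h2 h3 hK x ht.1).trans ?_
    have : t ^ 2 ≤ p ^ 2 := pow_le_pow_left₀ ht.1 ht.2 2
    gcongr
  have := Convex.norm_image_sub_le_of_norm_hasDerivWithin_le hψ hb (convex_Icc 0 p)
    (Set.left_mem_Icc.2 hp) (Set.right_mem_Icc.2 hp)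
  simp only [add_zero, sub_zero, Complex.ofReal_zero, mul_zero, zero_mul] at this
  have e2 : w x - w x = 0 := by ring
  rw [e2, sub_zero, Real.norm_of_nonneg hp] at this
  refine this.trans (le_of_eq ?_)
  ring

theorem tp_add_sub (D : ℕ) (c : ℤ → ℂ) (x p : ℝ) :
    tp D c (x + p) + tp D c (x - p) = 2 * tp D (fun m => (Real.cos (m * p) : ℂ) * c m) x := by
  unfold tp
  rw [← Finset.sum_add_distrib, Finset.mul_sum]
  refine Finset.sum_congr rfl fun m _ => ?_
  have e1 : Complex.exp (I * m * ((x + p : ℝ) : ℂ)) = Complex.exp (I * m * x) *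
      Complex.exp (((m * p : ℝ) : ℂ) * I) := by
    rw [← Complex.exp_add]; congr 1; push_cast; ring
  have e2 : Complex.exp (I * m * ((x - p : ℝ) : ℂ)) = Complex.exp (I * m * x) *
      Complex.exp (((-(m * p) : ℝ) : ℂ) * I) := by
    rw [← Complex.exp_add]; congr 1; push_cast; ring
  rw [e1, e2, Complex.exp_mul_I, Complex.exp_mul_I, ← Complex.ofReal_cos, ← Complex.ofReal_sin,
    ← Complex.ofReal_cos, ← Complex.ofReal_sin, Real.cos_neg, Real.sin_neg]
  push_cast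
  ring

theorem tp_sub_sub (D : ℕ) (c : ℤ → ℂ) (x p : ℝ) :
    tp D c (x + p) - tp D c (x - p) = 2 * tp D (fun m => (I * Real.sin (m * p) : ℂ) * c m) x := by
  unfold tp
  rw [← Finset.sum_sub_distrib, Finset.mul_sum]
  refine Finset.sum_congr rfl fun m _ => ?_
  have e1 : Complex.exp (I * m * ((x + p : ℝ) : ℂ)) = Complex.exp (I * m * x) *
      Complex.exp (((m * p : ℝ) : ℂ) * I) := by
    rw [← Complex.exp_add]; congr 1; push_cast; ring
  have e2 : Complex.exp (I * m * ((x - p : ℝ) : ℂ)) = Complex.exp (I * m * x) *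
      Complex.exp (((-(m * p) : ℝ) : ℂ) * I) := by
    rw [← Complex.exp_add]; congr 1; push_cast; ring
  rw [e1, e2, Complex.exp_mul_I, Complex.exp_mul_I, ← Complex.ofReal_cos, ← Complex.ofReal_sin,
    ← Complex.ofReal_cos, ← Complex.ofReal_sin, Real.cos_neg, Real.sin_neg]
  push_cast
  ring

theorem bdd_tp (D : ℕ) (c : ℤ → ℂ) : BddAbove (Set.range fun x => ‖tp D c x‖) :=
  ⟨_, by rintro _ ⟨x, rfl⟩; exact norm_tp_le_sum D c x⟩

theorem le_sup_tp (D : ℕ) (c : ℤ → ℂ) (x : ℝ) : ‖tp D c x‖ ≤ ⨆ y, ‖tp D c y‖ :=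
  le_ciSup (bdd_tp D c) x

/-- Undoing the symmetric average. -/
theorem cos_inv {D : ℕ} (hD : 1 ≤ D) {p : ℝ} (hp : 0 ≤ p) (hε : p ^ 2 * (D : ℝ) ^ 2 < 1)
    (c : ℤ → ℂ) {M : ℝ} (h : ∀ x, ‖tp D (fun m => (Real.cos (m * p) : ℂ) * c m) x‖ ≤ M) (x : ℝ) :
    ‖tp D c x‖ ≤ M / (1 - p ^ 2 * (D : ℝ) ^ 2) := by
  set N : ℝ := ⨆ y, ‖tp D c y‖ with hN
  have hle : ∀ y, ‖tp D c y‖ ≤ N := le_sup_tp D c
  have h1 := bernstein hD c hle
  have h2 := bernstein hD (dc c) h1
  have hx : ∀ y, ‖tp D c y‖ ≤ M + p ^ 2 * (D : ℝ) ^ 2 * N := by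
    intro y
    have h3 := second_diff (hasDerivAt_tp D c) (hasDerivAt_tp D (dc c)) h2 y hp
    rw [tp_add_sub] at h3
    have h4 : ‖tp D c y - tp D (fun m => (Real.cos (m * p) : ℂ) * c m) y‖ ≤
        p ^ 2 * (D * (D * N)) := by
      have e : 2 * tp D (fun m => (Real.cos (m * p) : ℂ) * c m) y - 2 * tp D c y =
          -2 * (tp D c y - tp D (fun m => (Real.cos (m * p) : ℂ) * c m) y) := by ring
      rw [e, norm_mul, norm_neg] at h3
      have e2 : ‖(2 : ℂ)‖ = 2 := by simp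
      rw [e2] at h3
      linarith
    have h5 : ‖tp D c y‖ ≤ ‖tp D (fun m => (Real.cos (m * p) : ℂ) * c m) y‖ +
        ‖tp D c y - tp D (fun m => (Real.cos (m * p) : ℂ) * c m) y‖ := by
      have := norm_add_le (tp D (fun m => (Real.cos (m * p) : ℂ) * c m) y)
        (tp D c y - tp D (fun m => (Real.cos (m * p) : ℂ) * c m) y)
      simpa using this
    have h6 := h y
    have e7 : p ^ 2 * (D * (D * N)) = p ^ 2 * (D : ℝ) ^ 2 * N := by ring
    linarith
  have hN2 : N ≤ M + p ^ 2 * (D : ℝ) ^ 2 * N := ciSup_le hx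
  refine (hle x).trans ?_
  rw [le_div_iff₀ (by linarith)]
  linarith

/-- Undoing the symmetric difference. -/
theorem sin_inv {D : ℕ} (hD : 1 ≤ D) {p : ℝ} (hp : 0 < p) (hε : p ^ 2 * (D : ℝ) ^ 2 < 1)
    (c : ℤ → ℂ) {M : ℝ} (h : ∀ x, ‖tp D (fun m => (I * Real.sin (m * p) : ℂ) * c m) x‖ ≤ M)
    (x : ℝ) : ‖tp D (dc c) x‖ ≤ M / (p * (1 - p ^ 2 * (D : ℝ) ^ 2)) := by
  set N : ℝ := ⨆ y, ‖tp D (dc c) y‖ with hN
  have hle : ∀ y, ‖tp D (dc c) y‖ ≤ N := le_sup_tp D (dc c)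
  have h1 := bernstein hD (dc c) hle
  have h2 := bernstein hD (dc (dc c)) h1
  have hx : ∀ y, p * ‖tp D (dc c) y‖ ≤ M + p * (p ^ 2 * (D : ℝ) ^ 2 * N) := by
    intro y
    have h3 := first_diff (hasDerivAt_tp D c) (hasDerivAt_tp D (dc c))
      (hasDerivAt_tp D (dc (dc c))) h2 y hp.le
    rw [tp_sub_sub] at h3
    have h4 : ‖(p : ℂ) * tp D (dc c) y - tp D (fun m => (I * Real.sin (m * p) : ℂ) * c m) y‖ ≤
        p ^ 3 * (D * (D * N)) := by
      have e : 2 * tp D (fun m => (I * Real.sin (m * p) : ℂ) * c m) y -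
          2 * p * tp D (dc c) y =
          -2 * ((p : ℂ) * tp D (dc c) y - tp D (fun m => (I * Real.sin (m * p) : ℂ) * c m) y) := by
        ring
      rw [e, norm_mul, norm_neg] at h3
      have e2 : ‖(2 : ℂ)‖ = 2 := by simp
      rw [e2] at h3
      linarith
    have h5 : ‖(p : ℂ) * tp D (dc c) y‖ ≤ ‖tp D (fun m => (I * Real.sin (m * p) : ℂ) * c m) y‖ +
        ‖(p : ℂ) * tp D (dc c) y - tp D (fun m => (I * Real.sin (m * p) : ℂ) * c m) y‖ := by
      have := norm_add_le (tp D (fun m => (I * Real.sin (m * p) : ℂ) * c m) y)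
        ((p : ℂ) * tp D (dc c) y - tp D (fun m => (I * Real.sin (m * p) : ℂ) * c m) y)
      simpa using this
    rw [norm_mul, Complex.norm_real, Real.norm_of_nonneg hp.le] at h5
    have h6 := h y
    have e7 : p ^ 3 * (D * (D * N)) = p * (p ^ 2 * (D : ℝ) ^ 2 * N) := by ring
    linarith
  have hx' : ∀ y, ‖tp D (dc c) y‖ ≤ M / p + p ^ 2 * (D : ℝ) ^ 2 * N := by
    intro y
    have := hx y
    rw [← sub_le_iff_le_add, le_div_iff₀ hp]
    nlinarith
  have hN2 : N ≤ M / p + p ^ 2 * (D : ℝ) ^ 2 * N := ciSup_le hx'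
  refine (hle x).trans ?_
  rw [← div_div, le_div_iff₀ (by linarith)]
  linarith

theorem cos_inv_pow {D : ℕ} (hD : 1 ≤ D) {p : ℝ} (hp : 0 ≤ p) (hε : p ^ 2 * (D : ℝ) ^ 2 < 1)
    (j : ℕ) : ∀ (c : ℤ → ℂ) {M : ℝ},
    (∀ x, ‖tp D (fun m => (Real.cos (m * p) : ℂ) ^ j * c m) x‖ ≤ M) → ∀ x : ℝ,
    ‖tp D c x‖ ≤ M / (1 - p ^ 2 * (D : ℝ) ^ 2) ^ j := by
  induction j with
  | zero =>
    intro c M h x
    simpa using h x
  | succ j ih =>
    intro c M h x
    have h1 : ∀ x, ‖tp D (fun m => (Real.cos (m * p) : ℂ) ^ j *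
        ((Real.cos (m * p) : ℂ) * c m)) x‖ ≤ M := by
      intro x
      refine le_trans (le_of_eq ?_) (h x)
      congr 2
      funext m
      ring
    have h2 := ih _ h1
    have h3 := cos_inv hD hp hε c h2 x
    rwa [div_div, ← pow_succ] at h3

theorem sin_inv_pow {D : ℕ} (hD : 1 ≤ D) {p : ℝ} (hp : 0 < p) (hε : p ^ 2 * (D : ℝ) ^ 2 < 1)
    (j : ℕ) : ∀ (c : ℤ → ℂ) {M : ℝ},
    (∀ x, ‖tp D (fun m => (I * Real.sin (m * p) : ℂ) ^ j * c m) x‖ ≤ M) → ∀ x : ℝ,
    ‖tp D (fun m => (I * m) ^ j * c m) x‖ ≤ M / (p * (1 - p ^ 2 * (D : ℝ) ^ 2)) ^ j := by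
  induction j with
  | zero =>
    intro c M h x
    simpa using h x
  | succ j ih =>
    intro c M h x
    have h1 : ∀ x, ‖tp D (fun m => (I * Real.sin (m * p) : ℂ) ^ j *
        ((I * Real.sin (m * p) : ℂ) * c m)) x‖ ≤ M := by
      intro x
      refine le_trans (le_of_eq ?_) (h x)
      congr 2
      funext m
      ring
    have h2 := ih _ h1
    have h3 : ∀ x, ‖tp D (fun m => (I * Real.sin (m * p) : ℂ) * ((I * m) ^ j * c m)) x‖ ≤
        M / (p * (1 - p ^ 2 * (D : ℝ) ^ 2)) ^ j := by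
      intro x
      refine le_trans (le_of_eq ?_) (h2 x)
      congr 2
      funext m
      ring
    have h4 := sin_inv hD hp hε (fun m => (I * m) ^ j * c m) h3 x
    rw [div_div, ← pow_succ] at h4
    refine le_trans (le_of_eq ?_) h4
    congr 2
    funext m
    unfold dc
    ring

end Vale.Agent.P111.H571
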