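import Vale.Agent.P111.R2.H571.Trig

/-! Trigonometric polynomials: averages over blocks of signs, and the derivative at a point. -/

set_option linter.unusedSectionVars false

namespace Vale.Agent.P111.H571

open Finset Complex Polynomial

theorem avg_pi_prodC {J : Type*} [Fintype J] [DecidableEq J] {α : Type*} [Fintype α]
    (F : J → α → ℂ) : (avg fun ω : J → α => ∏ i, F i (ω i)) = ∏ i, avg (F i) := by
  unfold avg
  simp only [Complex.real_smul]
  rw [Finset.prod_mul_distrib, Finset.prod_const, Finset.prod_univ_sum, Fintype.piFinset_univ,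
    Fintype.card_fun, Finset.card_univ]
  congr 1
  push_cast
  rw [inv_pow]

theorem avg_mul_leftC {Ω : Type*} [Fintype Ω] (a : ℂ) (f : Ω → ℂ) :
    (avg fun ω => a * f ω) = a * avg f := by
  unfold avg
  rw [Complex.real_smul, Complex.real_smul, ← Finset.mul_sum]
  ring

theorem avg_unitsC (f : ℤˣ → ℂ) : avg f = (f 1 + f (-1)) / 2 := by
  unfold avg
  rw [Complex.real_smul]
  have h : (Finset.univ : Finset ℤˣ) = {1, -1} := by decide
  rw [h, Finset.sum_pair (by decide)]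
  simp only [Fintype.card_units_int]
  push_cast
  ring

/-- The symbol of one block. -/
noncomputable def sy (n : ℕ) (p : ℝ) (m : ℤ) : ℂ :=
  n * (I * Real.sin (m * p)) * (Real.cos (m * p) : ℂ) ^ (n - 1)

theorem avg_block (n : ℕ) (p : ℝ) (m : ℤ) :
    (avg fun θ : Fin n → ℤˣ => ((∑ j, sg (θ j) : ℝ) : ℂ) *
      Complex.exp (I * m * ((p * ∑ j, sg (θ j) : ℝ) : ℂ))) = sy n p m := by
  have h1 : ∀ θ : Fin n → ℤˣ, ((∑ j, sg (θ j) : ℝ) : ℂ) *
      Complex.exp (I * m * ((p * ∑ j, sg (θ j) : ℝ) : ℂ)) =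
      ∑ j, ∏ j', ((if j' = j then (sg (θ j') : ℂ) else 1) *
        Complex.exp (((m * p * sg (θ j') : ℝ) : ℂ) * I)) := by
    intro θ
    have e1 : Complex.exp (I * m * ((p * ∑ j, sg (θ j) : ℝ) : ℂ)) =
        ∏ j', Complex.exp (((m * p * sg (θ j') : ℝ) : ℂ) * I) := by
      rw [← Complex.exp_sum]
      congr 1
      rw [← Finset.sum_mul]
      push_cast
      rw [← Finset.mul_sum]
      ring
    rw [e1]
    push_cast
    rw [Finset.sum_mul]
    refine Finset.sum_congr rfl fun j _ => ?_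
    rw [Finset.prod_mul_distrib]
    congr 1
    rw [Finset.prod_ite_eq' Finset.univ j (fun j' => (sg (θ j') : ℂ))]
    simp
  simp only [h1]
  rw [avg_sum]
  have h2 : ∀ j : Fin n, (avg fun θ : Fin n → ℤˣ => ∏ j', ((if j' = j then (sg (θ j') : ℂ) else 1) *
        Complex.exp (((m * p * sg (θ j') : ℝ) : ℂ) * I))) =
      (I * Real.sin (m * p)) * (Real.cos (m * p) : ℂ) ^ (n - 1) := by
    intro j
    rw [avg_pi_prodC (fun j' (u : ℤˣ) => (if j' = j then (sg u : ℂ) else 1) *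
      Complex.exp (((m * p * sg u : ℝ) : ℂ) * I))]
    have h3 : ∀ j' : Fin n, (avg fun u : ℤˣ => (if j' = j then (sg u : ℂ) else 1) *
        Complex.exp (((m * p * sg u : ℝ) : ℂ) * I)) =
        if j' = j then (I * Real.sin (m * p) : ℂ) else (Real.cos (m * p) : ℂ) := by
      intro j'
      rw [avg_unitsC, sg_one, sg_neg_one, mul_one, mul_neg_one, Complex.exp_mul_I,
        Complex.exp_mul_I, ← Complex.ofReal_cos, ← Complex.ofReal_sin, ← Complex.ofReal_cos,
        ← Complex.ofReal_sin, Real.cos_neg, Real.sin_neg]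
      split_ifs
      · push_cast
        ring
      · push_cast
        ring
    simp only [h3]
    rw [Finset.prod_ite, Finset.prod_const, Finset.prod_const, Finset.filter_eq']
    simp only [Finset.mem_univ, if_true, Finset.card_singleton, pow_one]
    congr 2
    rw [Finset.filter_ne', Finset.card_erase_of_mem (Finset.mem_univ j), Finset.card_univ,
      Fintype.card_fin]
  simp only [h2]
  rw [Finset.sum_const, Finset.card_univ, Fintype.card_fin, nsmul_eq_mul]
  unfold sy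
  ring

theorem block_tp (k n D : ℕ) (c : ℤ → ℂ) (p x : ℝ) :
    (avg fun θ : Fin k → Fin n → ℤˣ => ((∏ l, ∑ j, sg (θ l j) : ℝ) : ℂ) *
      tp D c (x + p * ∑ l, ∑ j, sg (θ l j))) = tp D (fun m => sy n p m ^ k * c m) x := by
  unfold tp
  have hstart : (avg fun θ : Fin k → Fin n → ℤˣ => ((∏ l, ∑ j, sg (θ l j) : ℝ) : ℂ) *
      ∑ m ∈ Finset.Icc (-(D : ℤ)) D,
        c m * Complex.exp (I * m * ((x + p * ∑ l, ∑ j, sg (θ l j) : ℝ) : ℂ))) =
      avg fun θ : Fin k → Fin n → ℤˣ => ∑ m ∈ Finset.Icc (-(D : ℤ)) D,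
        ((∏ l, ∑ j, sg (θ l j) : ℝ) : ℂ) *
        (c m * Complex.exp (I * m * ((x + p * ∑ l, ∑ j, sg (θ l j) : ℝ) : ℂ))) :=
    avg_congr fun θ => Finset.mul_sum _ _ _
  rw [hstart, avg_sum]
  refine Finset.sum_congr rfl fun m _ => ?_
  have h1 : ∀ θ : Fin k → Fin n → ℤˣ, ((∏ l, ∑ j, sg (θ l j) : ℝ) : ℂ) *
      (c m * Complex.exp (I * m * ((x + ∑ l, p * ∑ j, sg (θ l j) : ℝ) : ℂ))) =
      (c m * Complex.exp (I * m * x)) * ∏ l, (((∑ j, sg (θ l j) : ℝ) : ℂ) *
        Complex.exp (I * m * ((p * ∑ j, sg (θ l j) : ℝ) : ℂ))) := by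
    intro θ
    rw [Finset.prod_mul_distrib, ← Complex.exp_sum]
    have e1 : Complex.exp (I * m * ((x + ∑ l, p * ∑ j, sg (θ l j) : ℝ) : ℂ)) =
        Complex.exp (I * m * x) *
          Complex.exp (∑ l, I * m * ((p * ∑ j, sg (θ l j) : ℝ) : ℂ)) := by
      rw [← Complex.exp_add]
      congr 1
      push_cast
      rw [mul_add, Finset.mul_sum]
    rw [e1]
    push_cast
    ring
  have h0 : ∀ θ : Fin k → Fin n → ℤˣ, p * ∑ l, ∑ j, sg (θ l j) = ∑ l, p * ∑ j, sg (θ l j) :=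
    fun θ => Finset.mul_sum _ _ _
  have h2 : (avg fun θ : Fin k → Fin n → ℤˣ => ((∏ l, ∑ j, sg (θ l j) : ℝ) : ℂ) *
      (c m * Complex.exp (I * m * ((x + p * ∑ l, ∑ j, sg (θ l j) : ℝ) : ℂ)))) =
      avg fun θ : Fin k → Fin n → ℤˣ => (c m * Complex.exp (I * m * x)) *
        ∏ l, (((∑ j, sg (θ l j) : ℝ) : ℂ) *
          Complex.exp (I * m * ((p * ∑ j, sg (θ l j) : ℝ) : ℂ))) := by
    refine avg_congr fun θ => ?_
    rw [h0, h1]
  have h3 := avg_pi_prodC (J := Fin k) (fun (_ : Fin k) (θ : Fin n → ℤˣ) =>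
    ((∑ j, sg (θ j) : ℝ) : ℂ) * Complex.exp (I * m * ((p * ∑ j, sg (θ j) : ℝ) : ℂ)))
  simp only [avg_block, Finset.prod_const, Finset.card_univ, Fintype.card_fin] at h3
  have h4 : (avg fun θ : Fin k → Fin n → ℤˣ => (c m * Complex.exp (I * m * x)) *
        ∏ l, (((∑ j, sg (θ l j) : ℝ) : ℂ) *
          Complex.exp (I * m * ((p * ∑ j, sg (θ l j) : ℝ) : ℂ)))) =
      (c m * Complex.exp (I * m * x)) * avg fun θ : Fin k → Fin n → ℤˣ =>
        ∏ l, (((∑ j, sg (θ l j) : ℝ) : ℂ) *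
          Complex.exp (I * m * ((p * ∑ j, sg (θ l j) : ℝ) : ℂ))) := by
    exact avg_mul_leftC _ _
  have h5 : (avg fun θ : Fin k → Fin n → ℤˣ => ((∏ l, ∑ j, sg (θ l j) : ℝ) : ℂ) *
      (c m * Complex.exp (I * m * ((x + p * ∑ l, ∑ j, sg (θ l j) : ℝ) : ℂ)))) =
      sy n p m ^ k * c m * Complex.exp (I * m * x) := by
    rw [h2, h4, h3]
    ring
  exact h5

/-- Functions of the form `exp (-i D x) P (exp (i x))`. -/
def IsP (D : ℕ) (u : ℝ → ℂ) : Prop :=
  ∃ P : ℂ[X], P.natDegree ≤ 2 * D ∧ ∀ x : ℝ, u x =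
    Complex.exp (-(D * x) * I) * P.eval (Complex.exp (x * I))

theorem IsP.tp {D : ℕ} {u : ℝ → ℂ} (h : IsP D u) : ∃ c, ∀ x, u x = tp D c x := by
  obtain ⟨P, hP, hu⟩ := h
  refine ⟨fun m => P.coeff (m + D).toNat, fun x => ?_⟩
  rw [hu, eval_eq_sum_range' (n := 2 * D + 1) (by omega)]
  unfold H571.tp
  rw [sum_Icc_eq, Finset.mul_sum]
  refine Finset.sum_congr rfl fun i _ => ?_
  have e : ((i : ℤ) - D + D).toNat = i := by omega
  beta_reduce
  rw [e, ← Complex.exp_nat_mul]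
  have e2 : Complex.exp (I * (((i : ℤ) - D : ℤ) : ℂ) * x) =
      Complex.exp (-(D * x) * I) * Complex.exp (i * (x * I)) := by
    rw [← Complex.exp_add]
    congr 1
    push_cast
    ring
  rw [e2]
  ring

theorem IsP.mono {D : ℕ} {u : ℝ → ℂ} (h : IsP D u) : IsP (D + 1) u := by
  obtain ⟨P, hP, hu⟩ := h
  refine ⟨P * X, ?_, fun x => ?_⟩
  · refine natDegree_mul_le.trans ?_
    have := natDegree_X_le (R := ℂ)
    omega
  · rw [hu, eval_mul, eval_X]
    have e : Complex.exp (-(D * x) * I) =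
        Complex.exp (-(((D + 1 : ℕ) : ℂ) * x) * I) * Complex.exp (x * I) := by
      rw [← Complex.exp_add]; congr 1; push_cast; ring
    rw [e]
    ring

theorem IsP.mul_sin {D : ℕ} {u : ℝ → ℂ} (h : IsP D u) :
    IsP (D + 1) (fun x => (Real.sin x : ℂ) * u x) := by
  obtain ⟨P, hP, hu⟩ := h
  refine ⟨P * (X ^ 2 - 1) * Polynomial.C (-I / 2), ?_, fun x => ?_⟩
  · refine natDegree_mul_le.trans ?_
    have h1 : (P * (X ^ 2 - 1)).natDegree ≤ 2 * D + 2 := by
      refine natDegree_mul_le.trans ?_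
      have h2 : (X ^ 2 - 1 : ℂ[X]).natDegree ≤ 2 := by
        refine (natDegree_sub_le _ _).trans ?_
        simp
      omega
    have h3 : (Polynomial.C (-I / 2) : ℂ[X]).natDegree = 0 := natDegree_C _
    omega
  · beta_reduce
    rw [hu]
    simp only [eval_mul, eval_sub, eval_pow, eval_X, eval_one, eval_C]
    have e : Complex.exp (-(D * x) * I) =
        Complex.exp (-(((D + 1 : ℕ) : ℂ) * x) * I) * Complex.exp (x * I) := by
      rw [← Complex.exp_add]; congr 1; push_cast; ring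
    have e2 : (Real.sin x : ℂ) * Complex.exp (x * I) =
        (Complex.exp (x * I) ^ 2 - 1) * (-I / 2) := by
      rw [Complex.ofReal_sin, Complex.exp_mul_I]
      have h1 := Complex.sin_sq_add_cos_sq (x : ℂ)
      linear_combination (I / 2) * h1 +
        (Complex.sin x ^ 2 * I / 2 + Complex.sin x * Complex.cos x) * I_sq
    rw [e]
    linear_combination (Complex.exp (-(((D + 1 : ℕ) : ℂ) * x) * I) *
      eval (Complex.exp (x * I)) P) * e2

theorem IsP.add {D : ℕ} {u w : ℝ → ℂ} (h : IsP D u) (h' : IsP D w) :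
    IsP D (fun x => u x + w x) := by
  obtain ⟨P, hP, hu⟩ := h
  obtain ⟨P', hP', hw⟩ := h'
  refine ⟨P + P', (natDegree_add_le _ _).trans (max_le hP hP'), fun x => ?_⟩
  beta_reduce
  rw [hu, hw, eval_add]
  ring

theorem IsP.const_mul {D : ℕ} {u : ℝ → ℂ} (a : ℂ) (h : IsP D u) :
    IsP D (fun x => a * u x) := by
  obtain ⟨P, hP, hu⟩ := h
  refine ⟨Polynomial.C a * P, (natDegree_C_mul_le _ _).trans hP, fun x => ?_⟩
  beta_reduce
  rw [hu, eval_mul, eval_C]
  ring

theorem isP_zero (D : ℕ) : IsP D (fun _ => 0) := ⟨0, by simp, fun x => by simp⟩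

theorem isP_sin_pow (i : ℕ) : IsP i (fun x => ((Real.sin x : ℝ) : ℂ) ^ i) := by
  induction i with
  | zero => exact ⟨1, by simp, fun x => by simp⟩
  | succ i ih =>
    have := ih.mul_sin
    refine (congrArg (IsP (i + 1)) ?_).mp this
    funext x
    ring

theorem isP_of_le {D D' : ℕ} (hD : D ≤ D') {u : ℝ → ℂ} (h : IsP D u) : IsP D' u := by
  induction D', hD using Nat.le_induction with
  | base => exact h
  | succ n _ ih => exact ih.mono

theorem exists_tp (M D : ℕ) (hM : M ≤ D) (a : ℕ → ℝ) (ρ : ℝ) :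
    ∃ c, ∀ x : ℝ, ((∑ i ∈ range (M + 1), a i * (ρ * Real.sin x) ^ i : ℝ) : ℂ) = tp D c x := by
  apply IsP.tp
  have h : ∀ N, N ≤ D + 1 →
      IsP D (fun x : ℝ => ((∑ i ∈ range N, a i * (ρ * Real.sin x) ^ i : ℝ) : ℂ)) := by
    intro N
    induction N with
    | zero =>
      intro _
      simpa using isP_zero D
    | succ N ih =>
      intro hN
      have h1 := ih (by omega)
      have h2 := (isP_of_le (by omega : N ≤ D) (isP_sin_pow N)).const_mul ((a N * ρ ^ N : ℝ) : ℂ)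
      have h3 := h1.add h2
      refine (congrArg (IsP D) ?_).mp h3
      funext x
      rw [Finset.sum_range_succ]
      push_cast
      ring
  exact h (M + 1) (by omega)

end Vale.Agent.P111.H571
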